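import Mathlib
import Vale.Agent.Lib.P243.Defs

/-!
P243 soft project: `r_3 > 1/3`.  Definitions.  See `notes/P243_soft_blueprint.md`.

`sweep K v = K + [0,v]`, `hh K v = vol (K + [0,v]) - vol K` (this is `|v|` times the area of the
projection of `K` along `v`), `lineInt K ρ p v = ∫ ρ(p + t v) 1_K(p + t v) dt`.
A weight `ρ` is feasible for `K` if `hh K v * lineInt K ρ p v ≤ 3 vol K` for every line.
`Gain K ε`: there is a bounded measurable feasible weight with average at least `1 + ε` on `K`.
`Tight K p q`: the chord `[p,q]` of `K` satisfies `|q-p| A = 3 vol K`.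
-/

namespace Vale.Agent.Lib.P243.Soft

open MeasureTheory Set
open scoped Pointwise

/-- Coordinates. -/
abbrev Ec : Type := (ℝ × ℝ) × ℝ

instance instHaarEc : (volume : Measure Ec).IsAddHaarMeasure := by
  show ((volume : Measure (ℝ × ℝ)).prod (volume : Measure ℝ)).IsAddHaarMeasure
  infer_instance

section
variable {E : Type*} [NormedAddCommGroup E] [NormedSpace ℝ E] [MeasureSpace E]

/-- `K + [0,v]`. -/
def sweep (K : Set E) (v : E) : Set E := K + segment ℝ 0 v

/-- `vol (K + [0,v]) - vol K`. -/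
noncomputable def hh (K : Set E) (v : E) : ENNReal := volume (sweep K v) - volume K

/-- The integral of `ρ 1_K` along the line `t ↦ p + t v`. -/
noncomputable def lineInt (K : Set E) (ρ : E → ENNReal) (p v : E) : ENNReal :=
  ∫⁻ t : ℝ, K.indicator ρ (p + t • v)

/-- Feasible weights. -/
def Feas (K : Set E) (ρ : E → ENNReal) : Prop :=
  ∀ p v : E, hh K v * lineInt K ρ p v ≤ 3 * volume K

/-- `K` admits a bounded measurable feasible weight of average at least `1 + ε`. -/
def Gain (K : Set E) (ε : ℝ) : Prop :=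
  ∃ ρ : E → ENNReal, Measurable ρ ∧ (∃ M : NNReal, ∀ x, ρ x ≤ M) ∧ Feas K ρ ∧
    ENNReal.ofReal (1 + ε) * volume K ≤ ∫⁻ x in K, ρ x

/-- Tight chords. -/
def Tight (K : Set E) (p q : E) : Prop :=
  p ∈ K ∧ q ∈ K ∧ volume (sweep K (q - p)) = 4 * volume K

/-- The fraction of the segment `[p,q]` lying in `S`. -/
noncomputable def mfrac (S : Set E) (p q : E) : ℝ :=
  (volume {t : ℝ | t ∈ Icc (0 : ℝ) 1 ∧ p + t • (q - p) ∈ S}).toReal

/-- The singular end points of tight chords. -/
def SE (K : Set E) : Set E := {p | ¬ DifferentiableAt ℝ (gauge K) p ∧ ∃ q, Tight K p q}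

/-- The cone over `A` with apex `0`. -/
def cone0 (A : Set E) : Set E := {x | ∃ t ∈ Icc (0 : ℝ) 1, ∃ e ∈ A, x = t • e}

end

/-- The normalised class of convex bodies. -/
def Kcl : Set (Set Space) :=
  {K | IsCompact K ∧ Convex ℝ K ∧ Metric.closedBall (0 : Space) (1 / 10) ⊆ K ∧
    K ⊆ Metric.closedBall (0 : Space) 3}

end Vale.Agent.Lib.P243.Soft
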