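import Mathlib
import Vale.Agent.Lib.P243.Soft.Defs

/-!
P243 soft, S05: weighted capture lemma in coordinates (Tonelli).
`∫_{K ∩ (B × ℝ)} ρ = ∫_{y ∈ B} ∫_z ρ(y,z) 1_K(y,z) dz dy`, the inner integral vanishes for `y ∉ π K`
and is at most `c` otherwise.  Compare `Symm/WCaptureCoord.lean`.
-/

namespace Vale.Agent.Lib.P243.Soft

open MeasureTheory Set

theorem wcap_coord {K : Set Ec} (hc : IsCompact K) {ρ : Ec → ENNReal} (hρ : Measurable ρ)
    {c : ENNReal} (hline : ∀ y : ℝ × ℝ, ∫⁻ z : ℝ, K.indicator ρ (y, z) ≤ c)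
    {B : Set (ℝ × ℝ)} (hB : MeasurableSet B) :
    ∫⁻ x in K ∩ Prod.fst ⁻¹' B, ρ x ≤ c * volume (B ∩ Prod.fst '' K) := by
  have hKm : MeasurableSet K := hc.isClosed.measurableSet
  have hm : MeasurableSet (K ∩ Prod.fst ⁻¹' B) := hKm.inter (measurable_fst hB)
  have hP : MeasurableSet (Prod.fst '' K) := (hc.image continuous_fst).isClosed.measurableSet
  rw [← setLIntegral_const, ← lintegral_indicator hm, ← lintegral_indicator (hB.inter hP),
    Measure.volume_eq_prod, lintegral_prod _ (hρ.indicator hm).aemeasurable]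
  refine lintegral_mono fun y => ?_
  by_cases hy : y ∈ B ∩ Prod.fst '' K
  · rw [indicator_of_mem hy]
    refine le_trans (lintegral_mono fun z => ?_) (hline y)
    exact indicator_le_indicator_of_subset inter_subset_left (fun _ => zero_le) _
  · rw [indicator_of_notMem hy]
    have e1 : ∀ z : ℝ, (K ∩ Prod.fst ⁻¹' B).indicator ρ (y, z) = 0 := by
      intro z
      refine indicator_of_notMem (fun h : (y, z) ∈ K ∩ Prod.fst ⁻¹' B => hy ⟨h.2, ?_⟩) _
      exact ⟨(y, z), h.1, rfl⟩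
    simp_rw [e1]
    simp

end Vale.Agent.Lib.P243.Soft
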