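import Mathlib
import Vale.Agent.Lib.P243.Soft.Defs
import Vale.Agent.Lib.P243.Cap.CaptureCoord

/-!
P243 soft, S04: in coordinates, `vol (K + [0, h e_3]) = vol K + h |π K|` (`π` = first projection).
Fubini (`Cap.volume_eq_lintegral_fib` or `Measure.prod_apply`): the fibre of `K` over `y ∈ π K` is a
nonempty compact interval `[a,b]`, the fibre of `K + [0, h e_3]` over `y` is `[a, b + h]`; over `y ∉ π K`
both fibres are empty.  `K + [0, h e_3]` is compact.
-/

namespace Vale.Agent.Lib.P243.Soft

open MeasureTheory Set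
open scoped Pointwise

/-- membership in the vertical sweep -/
lemma mem_sweep_coord {K : Set Ec} {h : ℝ} (h0 : 0 ≤ h) (y : ℝ × ℝ) (z : ℝ) :
    ((y, z) : Ec) ∈ sweep K (((0, 0), h) : Ec) ↔ ∃ s ∈ Icc (0 : ℝ) h, ((y, z - s) : Ec) ∈ K := by
  unfold sweep
  rw [Set.mem_add]
  constructor
  · rintro ⟨a, ha, b, hb, hab⟩
    rw [segment_eq_image] at hb
    obtain ⟨t, ht, rfl⟩ := hb
    refine ⟨t * h, ⟨mul_nonneg ht.1 h0, by nlinarith [ht.2]⟩, ?_⟩
    have e : ((y, z - t * h) : Ec) = a := by
      have h1 : y = a.1 := by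
        have := congrArg Prod.fst hab
        have e0 : ((0, 0) : ℝ × ℝ) = 0 := rfl
        simpa [e0] using this.symm
      have h2 : z = a.2 + t * h := by
        have := congrArg Prod.snd hab
        simpa using this.symm
      rw [h1, h2]
      ext <;> simp
    rw [e]
    exact ha
  · rintro ⟨s, hs, hK⟩
    refine ⟨_, hK, (((0, 0), s) : Ec), ?_, ?_⟩
    · rw [segment_eq_image]
      rcases eq_or_lt_of_le h0 with h00 | hpos
      · have hs0 : s = 0 := le_antisymm (by rw [h00]; exact hs.2) hs.1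
        refine ⟨0, ⟨le_rfl, zero_le_one⟩, ?_⟩
        rw [hs0]
        ext <;> simp
      · refine ⟨s / h, ⟨div_nonneg hs.1 h0, (div_le_one hpos).2 hs.2⟩, ?_⟩
        ext
        · simp
        · simp
        · simp [div_mul_cancel₀ _ hpos.ne']
    · ext <;> simp

lemma isCompact_sweep {K : Set Ec} (hc : IsCompact K) (v : Ec) : IsCompact (sweep K v) := by
  unfold sweep
  refine hc.add ?_
  rw [segment_eq_image]
  refine isCompact_Icc.image ?_
  fun_prop

/-- the vertical chord of a compact set is compact -/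
lemma isCompact_chord {K : Set Ec} (hc : IsCompact K) (y : ℝ × ℝ) :
    IsCompact {z : ℝ | ((y, z) : Ec) ∈ K} := by
  have h1 : IsCompact (K ∩ Prod.fst ⁻¹' {y}) :=
    hc.inter_right (isClosed_singleton.preimage continuous_fst)
  have h2 : {z : ℝ | ((y, z) : Ec) ∈ K} = Prod.snd '' (K ∩ Prod.fst ⁻¹' {y}) := by
    ext z
    constructor
    · intro hz
      exact ⟨(y, z), ⟨hz, rfl⟩, rfl⟩
    · rintro ⟨⟨y', z'⟩, ⟨hK, hy⟩, rfl⟩
      have : y' = y := hy
      subst this
      exact hK
  rw [h2]
  exact h1.image continuous_snd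

/-- the fibrewise identity -/
lemma volume_chord_sweep {K : Set Ec} (hK : Convex ℝ K) (hc : IsCompact K) {h : ℝ} (h0 : 0 ≤ h)
    (y : ℝ × ℝ) :
    volume (Prod.mk y ⁻¹' sweep K (((0, 0), h) : Ec)) =
      volume (Prod.mk y ⁻¹' K) + (Prod.fst '' K).indicator (fun _ => ENNReal.ofReal h) y := by
  by_cases hy : y ∈ Prod.fst '' K
  · rw [indicator_of_mem hy]
    have hne : {z : ℝ | ((y, z) : Ec) ∈ K}.Nonempty := by
      obtain ⟨⟨y', z⟩, hz, rfl⟩ := hy
      exact ⟨z, hz⟩
    have hconn : IsConnected {z : ℝ | ((y, z) : Ec) ∈ K} :=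
      ⟨hne, (Cap.convex_chord hK y).isPreconnected⟩
    have hI := eq_Icc_of_connected_compact hconn (isCompact_chord hc y)
    set a := sInf {z : ℝ | ((y, z) : Ec) ∈ K} with ha
    set b := sSup {z : ℝ | ((y, z) : Ec) ∈ K} with hb
    have hab : a ≤ b := by
      obtain ⟨z, hz⟩ := hne
      rw [hI] at hz
      exact hz.1.trans hz.2
    have e1 : Prod.mk y ⁻¹' K = Icc a b := hI
    have e2 : Prod.mk y ⁻¹' sweep K (((0, 0), h) : Ec) = Icc a (b + h) := by
      ext z
      rw [mem_preimage, mem_sweep_coord h0]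
      constructor
      · rintro ⟨s, hs, hz⟩
        have hz' : z - s ∈ Icc a b := by rw [← hI]; exact hz
        exact ⟨by linarith [hz'.1, hs.1], by linarith [hz'.2, hs.2]⟩
      · intro hz
        refine ⟨max 0 (z - b), ⟨le_max_left _ _, max_le h0 (by linarith [hz.2])⟩, ?_⟩
        have hz' : z - max 0 (z - b) ∈ Icc a b := by
          rcases le_total 0 (z - b) with hh | hh
          · rw [max_eq_right hh]
            exact ⟨by linarith, by linarith⟩
          · rw [max_eq_left hh]
            exact ⟨by linarith [hz.1], by linarith⟩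
        have : z - max 0 (z - b) ∈ {z : ℝ | ((y, z) : Ec) ∈ K} := by rw [hI]; exact hz'
        exact this
    rw [e1, e2, Real.volume_Icc, Real.volume_Icc, ← ENNReal.ofReal_add (by linarith) h0]
    congr 1
    ring
  · rw [indicator_of_notMem hy, add_zero]
    have e1 : Prod.mk y ⁻¹' K = ∅ := by
      ext z
      simp only [mem_preimage, mem_empty_iff_false, iff_false]
      exact fun hz => hy ⟨(y, z), hz, rfl⟩
    have e2 : Prod.mk y ⁻¹' sweep K (((0, 0), h) : Ec) = ∅ := by
      ext z
      simp only [mem_preimage, mem_empty_iff_false, iff_false]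
      rw [mem_sweep_coord h0]
      rintro ⟨s, _, hz⟩
      exact hy ⟨(y, z - s), hz, rfl⟩
    rw [e1, e2]

theorem sweep_coord {K : Set Ec} (hK : Convex ℝ K) (hc : IsCompact K) {h : ℝ} (h0 : 0 ≤ h) :
    volume (sweep K (((0, 0), h) : Ec)) = volume K + ENNReal.ofReal h * volume (Prod.fst '' K) := by
  have hKm : MeasurableSet K := hc.isClosed.measurableSet
  have hSm : MeasurableSet (sweep K (((0, 0), h) : Ec)) :=
    (isCompact_sweep hc _).isClosed.measurableSet
  have hPm : MeasurableSet (Prod.fst '' K) := Cap.measurableSet_shadow hc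
  rw [Measure.volume_eq_prod, Measure.prod_apply hSm, Measure.prod_apply hKm]
  have h1 : ∫⁻ y, volume (Prod.mk y ⁻¹' sweep K (((0, 0), h) : Ec)) =
      ∫⁻ y, (volume (Prod.mk y ⁻¹' K) +
        (Prod.fst '' K).indicator (fun _ => ENNReal.ofReal h) y) :=
    lintegral_congr fun y => volume_chord_sweep hK hc h0 y
  rw [h1, lintegral_add_left (measurable_measure_prodMk_left hKm), lintegral_indicator hPm,
    setLIntegral_const]

theorem hh_coord {K : Set Ec} (hK : Convex ℝ K) (hc : IsCompact K) {h : ℝ} (h0 : 0 ≤ h) :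
    hh K (((0, 0), h) : Ec) = ENNReal.ofReal h * volume (Prod.fst '' K) := by
  unfold hh
  rw [sweep_coord hK hc h0]
  exact ENNReal.add_sub_cancel_left hc.measure_lt_top.ne

end Vale.Agent.Lib.P243.Soft
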