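import Mathlib
import Vale.Agent.Lib.P243.Soft.Defs

/-!
P243 soft, S03: coordinates adapted to a vector.  Extend `v` to a basis (see the proof of `exists_coords`
in `Symm/WCaptureSpace.lean`, where the last basis vector is `u`).
-/

namespace Vale.Agent.Lib.P243.Soft

open MeasureTheory Set

theorem exists_coords_one (v : Space) (hv : v ≠ 0) :
    ∃ Φ : Space ≃L[ℝ] Ec, Φ v = ((0, 0), 1) := by
  have hli1 : LinearIndependent ℝ ![v] := by
    have := LinearIndependent.of_subsingleton (R := ℝ) (v := ![v]) 0 (by simpa using hv)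
    exact this
  obtain ⟨w1, hw1⟩ := exists_linearIndependent_cons_of_lt_finrank hli1 (by simp)
  obtain ⟨w0, hw0⟩ := exists_linearIndependent_cons_of_lt_finrank hw1 (by simp)
  set b := basisOfLinearIndependentOfCardEqFinrank hw0 (by simp) with hb
  have hb2 : b 2 = v := by rw [hb, coe_basisOfLinearIndependentOfCardEqFinrank]; rfl
  have hcoord : ∀ i j : Fin 3, b.coord i (b j) = if j = i then 1 else 0 := by
    intro i j
    rw [Module.Basis.coord_apply, Module.Basis.repr_self, Finsupp.single_apply]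
  have hexp : ∀ p : Space, p = b.coord 0 p • b 0 + b.coord 1 p • b 1 + b.coord 2 p • b 2 := by
    intro p
    have := b.sum_repr p
    rw [Fin.sum_univ_three] at this
    exact this.symm
  set Ψ : Space →ₗ[ℝ] (ℝ × ℝ) × ℝ := ((b.coord 0).prod (b.coord 1)).prod (b.coord 2) with hΨ
  have hinj : Function.Injective Ψ := by
    rw [injective_iff_map_eq_zero]
    intro p hp
    have h0 : b.coord 0 p = 0 := congrArg (fun z : (ℝ × ℝ) × ℝ => z.1.1) hp
    have h1 : b.coord 1 p = 0 := congrArg (fun z : (ℝ × ℝ) × ℝ => z.1.2) hp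
    have h2 : b.coord 2 p = 0 := congrArg (fun z : (ℝ × ℝ) × ℝ => z.2) hp
    rw [hexp p, h0, h1, h2]
    simp
  have hsurj : Function.Surjective Ψ := by
    rintro ⟨⟨z0, z1⟩, z2⟩
    refine ⟨z0 • b 0 + z1 • b 1 + z2 • b 2, ?_⟩
    rw [hΨ]
    simp
  refine ⟨(LinearEquiv.ofBijective Ψ ⟨hinj, hsurj⟩).toContinuousLinearEquiv, ?_⟩
  show Ψ v = ((0, 0), 1)
  rw [← hb2, hΨ]
  simp [hcoord]

end Vale.Agent.Lib.P243.Soft
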