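import Mathlib
import Vale.Agent.Lib.P243.Soft.Defs

/-!
P243 soft, S01: behaviour of `sweep`, `hh`, `lineInt` under a linear equivalence.
All statements are routine: a continuous linear equivalence between finite dimensional spaces scales Haar
measure by a constant (see `Symm/WCaptureSpace.lean`, `exists_scale3`, for a proof in a special case),
maps Minkowski sums to Minkowski sums and segments to segments.
-/

namespace Vale.Agent.Lib.P243.Soft

open MeasureTheory Set
open scoped Pointwise

variable {E F : Type*}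
  [NormedAddCommGroup E] [NormedSpace ℝ E] [FiniteDimensional ℝ E] [MeasureSpace E] [BorelSpace E]
  [(volume : Measure E).IsAddHaarMeasure]
  [NormedAddCommGroup F] [NormedSpace ℝ F] [FiniteDimensional ℝ F] [MeasureSpace F] [BorelSpace F]
  [(volume : Measure F).IsAddHaarMeasure]

theorem exists_scale (Φ : E ≃L[ℝ] F) :
    ∃ c : ENNReal, c ≠ 0 ∧ c ≠ ⊤ ∧ (∀ X : Set E, volume (Φ '' X) = c * volume X) ∧
      ∀ (A : Set E) (g : F → ENNReal), ∫⁻ y in Φ '' A, g y = c * ∫⁻ x in A, g (Φ x) := by
  set μ' : Measure E := Measure.map Φ.symm volume with hμ'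
  have : μ'.IsAddHaarMeasure := ContinuousLinearEquiv.isAddHaarMeasure_map Φ.symm volume
  have h := Measure.isAddLeftInvariant_eq_smul μ' (volume : Measure E)
  have key : ∀ (A : Set E) (g : F → ENNReal), ∫⁻ y in Φ '' A, g y =
      (Measure.addHaarScalarFactor μ' (volume : Measure E) : ENNReal) * ∫⁻ x in A, g (Φ x) := by
    intro A g
    set e : E ≃ᵐ F := Φ.toHomeomorph.toMeasurableEquiv with he
    have hvol : (volume : Measure F) = Measure.map e μ' := by
      rw [hμ']
      have : Measure.map Φ.symm (volume : Measure F) = Measure.map e.symm volume := rfl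
      rw [this, e.map_map_symm]
    have hpre : e ⁻¹' (Φ '' A) = A := Φ.injective.preimage_image A
    calc ∫⁻ y in Φ '' A, g y = ∫⁻ y in Φ '' A, g y ∂(Measure.map e μ') := by rw [← hvol]
      _ = ∫⁻ x in A, g (e x) ∂μ' := by
          rw [e.restrict_map, lintegral_map_equiv, hpre]
      _ = ∫⁻ x in A, g (Φ x) ∂(Measure.addHaarScalarFactor μ' volume • (volume : Measure E)) := by
          rw [← h]; rfl
      _ = _ := by
          rw [Measure.restrict_smul, lintegral_smul_measure]
          rfl
  refine ⟨(Measure.addHaarScalarFactor μ' (volume : Measure E) : ENNReal), ?_, ENNReal.coe_ne_top,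
    ?_, key⟩
  · have := Measure.addHaarScalarFactor_pos_of_isAddHaarMeasure μ' (volume : Measure E)
    exact_mod_cast this.ne'
  · intro X
    have := key X (fun _ => 1)
    simpa using this

omit [FiniteDimensional ℝ E] [BorelSpace E] [(volume : Measure E).IsAddHaarMeasure]
  [FiniteDimensional ℝ F] [BorelSpace F] [(volume : Measure F).IsAddHaarMeasure] in
theorem sweep_image (Φ : E ≃L[ℝ] F) (K : Set E) (v : E) :
    Φ '' sweep K v = sweep (Φ '' K) (Φ v) := by
  unfold sweep
  have h1 : Φ '' (K + segment ℝ 0 v) = Φ '' K + Φ '' segment ℝ 0 v :=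
    Set.image_add (Φ : E →ₗ[ℝ] F)
  have h2 : Φ '' segment ℝ 0 v = segment ℝ (Φ 0) (Φ v) :=
    image_segment ℝ ((Φ : E →ₗ[ℝ] F).toAffineMap) 0 v
  rw [h1, h2, map_zero]

omit [FiniteDimensional ℝ E] [BorelSpace E] [(volume : Measure E).IsAddHaarMeasure]
  [FiniteDimensional ℝ F] [BorelSpace F] [(volume : Measure F).IsAddHaarMeasure] in
theorem lineInt_image (Φ : E ≃L[ℝ] F) (K : Set E) (ρ : E → ENNReal) (p v : E) :
    lineInt (Φ '' K) (ρ ∘ Φ.symm) (Φ p) (Φ v) = lineInt K ρ p v := by
  unfold lineInt
  refine lintegral_congr fun t => ?_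
  have h : Φ p + t • Φ v = Φ (p + t • v) := by simp
  rw [h]
  by_cases hx : p + t • v ∈ K
  · rw [indicator_of_mem hx, indicator_of_mem (mem_image_of_mem Φ hx)]
    simp
  · rw [indicator_of_notMem hx, indicator_of_notMem]
    rwa [Φ.injective.mem_set_image]

omit [FiniteDimensional ℝ E] [BorelSpace E] [(volume : Measure E).IsAddHaarMeasure]
  [FiniteDimensional ℝ F] [BorelSpace F] [(volume : Measure F).IsAddHaarMeasure] in
theorem hh_image (Φ : E ≃L[ℝ] F) {c : ENNReal} (hct : c ≠ ⊤)
    (hc : ∀ X : Set E, volume (Φ '' X) = c * volume X) (K : Set E) (v : E) :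
    hh (Φ '' K) (Φ v) = c * hh K v := by
  unfold hh
  rw [← sweep_image, hc, hc, ENNReal.mul_sub (fun _ _ => hct)]

end Vale.Agent.Lib.P243.Soft
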