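import Mathlib
import Vale.Agent.Lib.P243.Soft.Defs
import Vale.Agent.Lib.P243.Soft.Image1

/-!
P243 soft, S02: `Feas`, `Gain`, `Tight` are invariant under linear equivalences and translations.
Use `exists_scale`, `sweep_image`, `lineInt_image`, `hh_image` of `Image1.lean`; cancel the constant `c`.
For `gain_image` transport the weight by `ρ ↦ ρ ∘ Φ.symm` (resp. `ρ ↦ ρ ∘ Φ`).
For translations: `sweep (K + w) v = sweep K v + w`, Lebesgue/Haar measure is translation invariant.
-/

namespace Vale.Agent.Lib.P243.Soft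

open MeasureTheory Set
open scoped Pointwise

variable {E F : Type*}
  [NormedAddCommGroup E] [NormedSpace ℝ E] [FiniteDimensional ℝ E] [MeasureSpace E] [BorelSpace E]
  [(volume : Measure E).IsAddHaarMeasure]
  [NormedAddCommGroup F] [NormedSpace ℝ F] [FiniteDimensional ℝ F] [MeasureSpace F] [BorelSpace F]
  [(volume : Measure F).IsAddHaarMeasure]

theorem feas_image (Φ : E ≃L[ℝ] F) (K : Set E) (ρ : E → ENNReal) :
    Feas (Φ '' K) (ρ ∘ Φ.symm) ↔ Feas K ρ := by
  obtain ⟨c, hc0, hct, hc, -⟩ := exists_scale Φ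
  have key : ∀ p v : E, hh (Φ '' K) (Φ v) * lineInt (Φ '' K) (ρ ∘ Φ.symm) (Φ p) (Φ v)
      ≤ 3 * volume (Φ '' K) ↔ hh K v * lineInt K ρ p v ≤ 3 * volume K := by
    intro p v
    rw [hh_image Φ hct hc, lineInt_image, hc, mul_assoc, mul_left_comm 3 c,
      ENNReal.mul_le_mul_iff_right hc0 hct]
  constructor
  · intro h p v
    exact (key p v).1 (h (Φ p) (Φ v))
  · intro h p v
    have := (key (Φ.symm p) (Φ.symm v)).2 (h _ _)
    simpa using this

theorem gain_image_of (Φ : E ≃L[ℝ] F) (K : Set E) (ε : ℝ) (h : Gain K ε) : Gain (Φ '' K) ε := by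
  obtain ⟨c, hc0, hct, hc, hint⟩ := exists_scale Φ
  obtain ⟨ρ, hm, ⟨M, hM⟩, hF, hI⟩ := h
  refine ⟨ρ ∘ Φ.symm, hm.comp Φ.symm.continuous.measurable, ⟨M, fun x => hM _⟩,
    (feas_image Φ K ρ).2 hF, ?_⟩
  rw [hc, hint, mul_left_comm, ENNReal.mul_le_mul_iff_right hc0 hct]
  simpa using hI

theorem gain_image (Φ : E ≃L[ℝ] F) (K : Set E) (ε : ℝ) : Gain (Φ '' K) ε ↔ Gain K ε := by
  refine ⟨fun h => ?_, gain_image_of Φ K ε⟩
  have := gain_image_of Φ.symm (Φ '' K) ε h
  rwa [← image_comp, Φ.symm_comp_self, image_id] at this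

theorem tight_image (Φ : E ≃L[ℝ] F) (K : Set E) (p q : E) :
    Tight (Φ '' K) (Φ p) (Φ q) ↔ Tight K p q := by
  obtain ⟨c, hc0, hct, hc, -⟩ := exists_scale Φ
  unfold Tight
  rw [Φ.injective.mem_set_image, Φ.injective.mem_set_image, ← map_sub, ← sweep_image, hc, hc,
    mul_left_comm, ENNReal.mul_right_inj hc0 hct]

omit [FiniteDimensional ℝ E] in
theorem volume_translate (w : E) (X : Set E) : volume ((fun x => x + w) '' X) = volume X := by
  rw [image_add_right, measure_preimage_add_right]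

omit [FiniteDimensional ℝ E] [BorelSpace E] [(volume : Measure E).IsAddHaarMeasure] in
theorem sweep_translate (w : E) (K : Set E) (v : E) :
    sweep ((fun x => x + w) '' K) v = (fun x => x + w) '' sweep K v := by
  unfold sweep
  ext y
  simp only [mem_add, mem_image]
  constructor
  · rintro ⟨_, ⟨a, ha, rfl⟩, b, hb, rfl⟩
    exact ⟨a + b, ⟨a, ha, b, hb, rfl⟩, by abel⟩
  · rintro ⟨_, ⟨a, ha, b, hb, rfl⟩, rfl⟩
    exact ⟨a + w, ⟨a, ha, rfl⟩, b, hb, by abel⟩

omit [FiniteDimensional ℝ E] in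
theorem hh_translate (w : E) (K : Set E) (v : E) :
    hh ((fun x => x + w) '' K) v = hh K v := by
  unfold hh
  rw [sweep_translate, volume_translate, volume_translate]

omit [FiniteDimensional ℝ E] [BorelSpace E] [(volume : Measure E).IsAddHaarMeasure] in
theorem lineInt_translate (w : E) (K : Set E) (ρ : E → ENNReal) (p v : E) :
    lineInt ((fun x => x + w) '' K) (fun x => ρ (x - w)) p v = lineInt K ρ (p - w) v := by
  unfold lineInt
  refine lintegral_congr fun t => ?_
  have hmem : p + t • v ∈ (fun x => x + w) '' K ↔ p - w + t • v ∈ K := by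
    rw [image_add_right, mem_preimage]
    have : p + t • v + -w = p - w + t • v := by abel
    rw [this]
  by_cases hx : p - w + t • v ∈ K
  · rw [indicator_of_mem hx, indicator_of_mem (hmem.2 hx)]
    congr 1
    abel
  · rw [indicator_of_notMem hx, indicator_of_notMem (fun h => hx (hmem.1 h))]

omit [FiniteDimensional ℝ E] in
theorem gain_translate_of (w : E) (K : Set E) (ε : ℝ) (h : Gain K ε) :
    Gain ((fun x => x + w) '' K) ε := by
  obtain ⟨ρ, hm, ⟨M, hM⟩, hF, hI⟩ := h
  refine ⟨fun x => ρ (x - w), hm.comp (measurable_sub_const w), ⟨M, fun x => hM _⟩, ?_, ?_⟩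
  · intro p v
    rw [hh_translate, lineInt_translate, volume_translate]
    exact hF _ _
  · rw [volume_translate]
    have := (measurePreserving_add_right (volume : Measure E) w).setLIntegral_comp_emb
      (MeasurableEquiv.addRight w).measurableEmbedding (fun x => ρ (x - w)) K
    rw [← this]
    simpa using hI

theorem gain_translate (w : E) (K : Set E) (ε : ℝ) :
    Gain ((fun x => x + w) '' K) ε ↔ Gain K ε := by
  refine ⟨fun h => ?_, gain_translate_of w K ε⟩
  have := gain_translate_of (-w) _ ε h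
  rw [← image_comp] at this
  have hid : ((fun x : E => x + -w) ∘ fun x => x + w) = id := by
    funext x
    simp
  rwa [hid, image_id] at this

omit [FiniteDimensional ℝ E] [BorelSpace E] [(volume : Measure E).IsAddHaarMeasure] in
theorem gain_mono {K : Set E} {ε ε' : ℝ} (h : ε' ≤ ε) (hG : Gain K ε) : Gain K ε' := by
  obtain ⟨ρ, hm, hM, hF, hI⟩ := hG
  refine ⟨ρ, hm, hM, hF, le_trans ?_ hI⟩
  gcongr

end Vale.Agent.Lib.P243.Soft
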