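import Mathlib
import Vale.Agent.Lib.P243.Soft.Defs
import Vale.Agent.Lib.P243.Soft.Image1
import Vale.Agent.Lib.P243.Soft.Image2
import Vale.Agent.Lib.P243.Soft.Coords
import Vale.Agent.Lib.P243.Soft.CoordSweep
import Vale.Agent.Lib.P243.Soft.CoordCap
import Vale.Agent.Lib.P243.Symm.WCaptureSpace

/-!
P243 soft, S14: the weighted capture lemma for a feasible weight.
Copy the structure of `Symm.wcapture_proj` / `Symm.wcapture_space` (file `Symm/WCaptureSpace.lean`).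
Take `Φ` with `Φ u = e_3` (`exists_coords_one`; it satisfies `(Φ u).1 = 0` and `(Φ p).1 = 0 → p ∈ ℝ u`), `K' = Φ K`,
`ρ' = ρ ∘ Φ.symm`.  By `feas_image`, `Feas K' ρ'`; with `p = (y,0)`, `v = e_3` and `hh_coord` (`h = 1`) this reads
`|π K'| * ∫ ρ'(y,z) 1_{K'}(y,z) dz ≤ 3 vol K'`.  If `|π K'| = 0` the claim is trivial (`area (shadow) = 0`), otherwise apply
`wcap_coord` with `c = 3 vol K' / |π K'|`.  Transfer back (the scale constants of `Φ` and of the induced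
`ψ : Plane u ≃ ℝ × ℝ` cancel).  For non-measurable `B` use `toMeasurable`.
-/

namespace Vale.Agent.Lib.P243.Soft

open MeasureTheory Set Vale.Agent.Lib.P243

/-- The weighted capture lemma with the Mathlib formulation of the projection, measurable base. -/
theorem capture_proj {K : Set Space} (hK : Convex ℝ K) (hc : IsCompact K)
    {ρ : Space → ENNReal} (hρ : Measurable ρ) (hF : Feas K ρ) (u : Space) (hu : u ≠ 0)
    {B : Set ↥(ℝ ∙ u)ᗮ} (hB : MeasurableSet B) :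
    (∫⁻ x in K ∩ (ℝ ∙ u)ᗮ.orthogonalProjectionOnto ⁻¹' B, ρ x) *
        volume ((ℝ ∙ u)ᗮ.orthogonalProjectionOnto '' K) ≤ 3 * volume K * volume B := by
  set π := (ℝ ∙ u)ᗮ.orthogonalProjectionOnto with hπ
  obtain ⟨Φ, hΦ⟩ := exists_coords_one u hu
  have hΦu : (Φ u).1 = 0 := by rw [hΦ]; rfl
  have hΦker : ∀ p, (Φ p).1 = 0 → p ∈ (ℝ ∙ u) := by
    intro p hp
    refine Submodule.mem_span_singleton.mpr ⟨(Φ p).2, ?_⟩
    apply Φ.injective
    rw [map_smul, hΦ]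
    refine Prod.ext ?_ ?_
    · rw [hp]
      simp
    · simp
  set f : Space →ₗ[ℝ] ℝ × ℝ := (LinearMap.fst ℝ (ℝ × ℝ) ℝ) ∘ₗ (Φ : Space →ₗ[ℝ] (ℝ × ℝ) × ℝ) with hf
  have hΦfst : ∀ p, (Φ p).1 = f p := fun p => rfl
  obtain ⟨ψ, hψ⟩ := transfer_one u f hΦu hΦker (by
    intro z
    exact ⟨Φ.symm (z, 0), by rw [← hΦfst, Φ.apply_symm_apply]⟩)
  obtain ⟨c₂, hc₂0, hc₂t, hc₂⟩ := Vale.Agent.Lib.P243.exists_scale ψ
  obtain ⟨c₃, hc₃0, hc₃t, hvol3, hc₃⟩ := Vale.Agent.Lib.P243.Soft.exists_scale Φ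
  have him : Prod.fst '' (Φ '' K) = ψ '' (π '' K) := by
    rw [image_image, image_image]
    exact image_congr (fun p _ => by rw [hΦfst, hψ])
  have hmeas : MeasurableSet (ψ '' B) :=
    ψ.toHomeomorph.toMeasurableEquiv.measurableSet_image.mpr hB
  have hKc : Convex ℝ (Φ '' K) := hK.linear_image (Φ : Space →ₗ[ℝ] (ℝ × ℝ) × ℝ)
  have hKcomp : IsCompact (Φ '' K) := hc.image Φ.continuous
  have hF' : Feas (Φ '' K) (ρ ∘ Φ.symm) := (feas_image Φ K ρ).mpr hF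
  have hρ' : Measurable (ρ ∘ Φ.symm) := hρ.comp Φ.symm.continuous.measurable
  have ha : volume (Prod.fst '' (Φ '' K)) = c₂ * volume (π '' K) := by rw [him, hc₂]
  have hat : volume (Prod.fst '' (Φ '' K)) ≠ ⊤ :=
    (hKcomp.image continuous_fst).measure_lt_top.ne
  by_cases ha0 : volume (Prod.fst '' (Φ '' K)) = 0
  · rw [ha] at ha0
    have : volume (π '' K) = 0 := (mul_eq_zero.mp ha0).resolve_left hc₂0
    rw [this, mul_zero]
    exact zero_le
  have hline : ∀ y : ℝ × ℝ, ∫⁻ z : ℝ, (Φ '' K).indicator (ρ ∘ Φ.symm) (y, z) ≤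
      3 * volume (Φ '' K) / volume (Prod.fst '' (Φ '' K)) := by
    intro y
    have h1 := hF' ((y, 0) : Ec) (((0, 0), 1) : Ec)
    rw [hh_coord hKc hKcomp zero_le_one, ENNReal.ofReal_one, one_mul] at h1
    have h2 : lineInt (Φ '' K) (ρ ∘ Φ.symm) ((y, 0) : Ec) (((0, 0), 1) : Ec)
        = ∫⁻ z : ℝ, (Φ '' K).indicator (ρ ∘ Φ.symm) (y, z) := by
      unfold lineInt
      refine lintegral_congr fun t => ?_
      have : ((y, 0) : Ec) + t • (((0, 0), 1) : Ec) = (y, t) := by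
        refine Prod.ext ?_ ?_ <;> simp
      rw [this]
    rw [h2] at h1
    rw [ENNReal.le_div_iff_mul_le (Or.inl ha0) (Or.inl hat), mul_comm]
    exact h1
  have hmain := wcap_coord hKcomp hρ' hline hmeas
  have hset : Φ '' K ∩ Prod.fst ⁻¹' (ψ '' B) = Φ '' (K ∩ π ⁻¹' B) := by
    ext y
    constructor
    · rintro ⟨⟨p, hpK, rfl⟩, hy⟩
      refine ⟨p, ⟨hpK, ?_⟩, rfl⟩
      have hy' : (Φ p).1 ∈ ψ '' B := hy
      rw [hΦfst, ← hψ] at hy'
      exact ψ.injective.mem_set_image.mp hy'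
    · rintro ⟨p, ⟨hpK, hpB⟩, rfl⟩
      refine ⟨mem_image_of_mem _ hpK, ?_⟩
      show (Φ p).1 ∈ ψ '' B
      rw [hΦfst, ← hψ]
      exact mem_image_of_mem _ hpB
  rw [hset, hc₃] at hmain
  simp only [Function.comp_apply, Φ.symm_apply_apply] at hmain
  have hle : volume (ψ '' B ∩ Prod.fst '' (Φ '' K)) ≤ c₂ * volume B := by
    rw [← hc₂]; exact measure_mono inter_subset_left
  have h1 : (c₃ * c₂) * ((∫⁻ x in K ∩ π ⁻¹' B, ρ x) * volume (π '' K))
      ≤ (c₃ * c₂) * (3 * volume K * volume B) := by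
    calc (c₃ * c₂) * ((∫⁻ x in K ∩ π ⁻¹' B, ρ x) * volume (π '' K))
        = c₃ * (∫⁻ x in K ∩ π ⁻¹' B, ρ x) * (c₂ * volume (π '' K)) := by ring
      _ = c₃ * (∫⁻ x in K ∩ π ⁻¹' B, ρ x) * volume (Prod.fst '' (Φ '' K)) := by rw [ha]
      _ ≤ (3 * volume (Φ '' K) / volume (Prod.fst '' (Φ '' K)) *
            volume (ψ '' B ∩ Prod.fst '' (Φ '' K))) * volume (Prod.fst '' (Φ '' K)) := by gcongr
      _ = (3 * volume (Φ '' K) / volume (Prod.fst '' (Φ '' K)) * volume (Prod.fst '' (Φ '' K))) *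
            volume (ψ '' B ∩ Prod.fst '' (Φ '' K)) := by ring
      _ = 3 * volume (Φ '' K) * volume (ψ '' B ∩ Prod.fst '' (Φ '' K)) := by
          rw [ENNReal.div_mul_cancel ha0 hat]
      _ ≤ 3 * (c₃ * volume K) * (c₂ * volume B) := by
          rw [hvol3]
          gcongr
      _ = (c₃ * c₂) * (3 * volume K * volume B) := by ring
  exact (ENNReal.mul_le_mul_iff_right (mul_ne_zero hc₃0 hc₂0) (ENNReal.mul_ne_top hc₃t hc₂t)).mp h1

theorem capture_general {K : Set Space} (hK : Convex ℝ K) (hc : IsCompact K)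
    {ρ : Space → ENNReal} (hρ : Measurable ρ) (hF : Feas K ρ) (u : Space) (hu : u ≠ 0)
    (B : Set (Plane u)) :
    (∫⁻ x in K ∩ cylinder u B, ρ x) * area u (shadow K u) ≤ 3 * volume K * area u B := by
  rw [shadow_eq]
  set Bm : Set ↥(ℝ ∙ u)ᗮ := toMeasurable volume (show Set ↥(ℝ ∙ u)ᗮ from B) with hBm
  have h := capture_proj hK hc hρ hF u hu (B := Bm) (measurableSet_toMeasurable _ _)
  rw [hBm, measure_toMeasurable, ← hBm] at h
  refine le_trans ?_ h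
  refine mul_le_mul_left (lintegral_mono_set ?_) _
  rintro x ⟨hxK, b, hb, s, rfl⟩
  refine ⟨hxK, ?_⟩
  show (ℝ ∙ u)ᗮ.orthogonalProjectionOnto (b.val + s • u) ∈ Bm
  have h2 : (ℝ ∙ u)ᗮ.orthogonalProjectionOnto (b.val + s • u) = b := proj_add_smul u b s
  rw [h2]
  exact subset_toMeasurable _ _ hb

end Vale.Agent.Lib.P243.Soft
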