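import Mathlib
import Vale.Agent.Lib.P243.Soft.Defs
import Vale.Agent.Lib.P243.Soft.Capture
import Vale.Agent.Lib.P243.Bridge

/-!
P243 soft, S15: a gain for `K` bounds every cylinder covering of `K`.
`(1+ε) vol K ≤ ∫_K ρ ≤ ∑_i ∫_{K ∩ C_i} ρ ≤ 3 vol K ∑_i area B_i / area shadow_i`.
Copy the end of `Symm/Main.lean` (`centrally_symmetric`).
-/

namespace Vale.Agent.Lib.P243.Soft

open MeasureTheory Set Vale.Agent.Lib.P243

/-- ENNReal arithmetic: from `(1+ε) V ≤ 3 V S` with `0 < V < ∞` conclude `(1+ε)/3 ≤ S`. -/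
theorem arith_cover {V S : ENNReal} {ε : ℝ} (hV0 : V ≠ 0) (hVt : V ≠ ⊤)
    (h : ENNReal.ofReal (1 + ε) * V ≤ 3 * V * S) : ENNReal.ofReal ((1 + ε) / 3) ≤ S := by
  have h1 : ENNReal.ofReal (1 + ε) * V = V * ENNReal.ofReal (1 + ε) := mul_comm _ _
  have h2 : 3 * V * S = V * (3 * S) := by ring
  rw [h1, h2] at h
  have h3 : ENNReal.ofReal (1 + ε) ≤ 3 * S := (ENNReal.mul_le_mul_iff_right hV0 hVt).1 h
  have h4 : ENNReal.ofReal ((1 + ε) / 3) = 3⁻¹ * ENNReal.ofReal (1 + ε) := by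
    rw [ENNReal.ofReal_div_of_pos (by norm_num), div_eq_mul_inv, mul_comm]
    norm_num
  have h5 : S = 3⁻¹ * (3 * S) := by
    rw [← mul_assoc, ENNReal.inv_mul_cancel (by norm_num) (by norm_num), one_mul]
  rw [h4, h5]
  gcongr

theorem cover_bound {K : Set Space} (hK : Convex ℝ K) (hc : IsCompact K)
    (hint : (interior K).Nonempty) {ε : ℝ} (hG : Gain K ε) (m : ℕ) (u : Fin m → Space)
    (hu : ∀ i, ‖u i‖ = 1) (B : ∀ i, Set (Plane (u i))) (hcov : K ⊆ ⋃ i, cylinder (u i) (B i)) :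
    ENNReal.ofReal ((1 + ε) / 3) ≤ ∑ i, area (u i) (B i) / area (u i) (shadow K (u i)) := by
  obtain ⟨ρ, hρ, _, hF, hge⟩ := hG
  have hV0 : volume K ≠ 0 :=
    (lt_of_lt_of_le (isOpen_interior.measure_pos volume hint)
      (measure_mono interior_subset)).ne'
  have hVt : volume K ≠ ⊤ := hc.measure_lt_top.ne
  have hu0 : ∀ i, u i ≠ 0 := by
    intro i h
    have := hu i
    rw [h, norm_zero] at this
    exact zero_ne_one this
  refine arith_cover hV0 hVt ?_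
  have hsub : K ⊆ ⋃ i, K ∩ cylinder (u i) (B i) := by
    intro x hx
    obtain ⟨i, hi⟩ := mem_iUnion.1 (hcov hx)
    exact mem_iUnion.2 ⟨i, hx, hi⟩
  have hone : ∀ i, (∫⁻ x in K ∩ cylinder (u i) (B i), ρ x) ≤
      3 * volume K * (area (u i) (B i) / area (u i) (shadow K (u i))) := by
    intro i
    have h := capture_general hK hc hρ hF (u i) (hu0 i) (B i)
    have hp := (area_shadow_pos hint (u i)).ne'
    have ht := area_shadow_ne_top hc (u i)
    rw [← mul_div_assoc]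
    exact (ENNReal.le_div_iff_mul_le (Or.inl hp) (Or.inl ht)).2 h
  calc ENNReal.ofReal (1 + ε) * volume K
      ≤ ∫⁻ x in K, ρ x := hge
    _ ≤ ∫⁻ x in ⋃ i, K ∩ cylinder (u i) (B i), ρ x := lintegral_mono_set hsub
    _ ≤ ∑' i, ∫⁻ x in K ∩ cylinder (u i) (B i), ρ x := lintegral_iUnion_le _ _
    _ = ∑ i, ∫⁻ x in K ∩ cylinder (u i) (B i), ρ x := tsum_fintype _
    _ ≤ ∑ i, 3 * volume K * (area (u i) (B i) / area (u i) (shadow K (u i))) :=
        Finset.sum_le_sum fun i _ => hone i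
    _ = 3 * volume K * ∑ i, area (u i) (B i) / area (u i) (shadow K (u i)) :=
        (Finset.mul_sum _ _ _).symm

end Vale.Agent.Lib.P243.Soft
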