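import Mathlib
import Vale.Agent.Lib.P243.Soft.Defs
import Vale.Agent.Lib.P243.Cap.CaptureCoord

/-!
P243 soft, S06: the chord inequality in coordinates.
`K` compact convex, `(y0,z0), (y0,z1) ∈ K`, `h = z1 - z0 > 0`, `Ω = π K`.
* `lev_superset`: for `y ∈ Ω`, `s = 1 - τ/h ∈ [0,1]`, the fibre over `y0 + s (y - y0)` contains
  `(1-s) [z0,z1] + s z` (`z` in the fibre over `y`), so it has length `≥ (1-s) h = τ`
  (this is `Cap.lev_comb` with `a = y0 ∈ lev K h`, `b = y ∈ lev K 0`).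
* `vol_lev_ge`: the homothety `y ↦ y0 + s (y - y0)` of the plane scales area by `s^2`.
* `chord_coord`: `vol K = ∫_0^∞ |lev K τ| dτ ≥ ∫_0^h (1 - τ/h)^2 |Ω| dτ = h |Ω| / 3`
  (`Cap.volume_eq_lintegral_fib`, `Cap.layer_cake` with `s0 = 0`).
-/

namespace Vale.Agent.Lib.P243.Soft

open MeasureTheory Set Vale.Agent.Lib.P243.Cap

variable {K : Set Ec} {y0 : ℝ × ℝ} {z0 z1 : ℝ}

/-- The chord over `y0` has length at least `z1 - z0`. -/
theorem le_fib_of_mem (hK : Convex ℝ K) (hc : IsCompact K) (h01 : z0 ≤ z1)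
    (hp : ((y0, z0) : Ec) ∈ K) (hq : ((y0, z1) : Ec) ∈ K) : z1 - z0 ≤ fib K y0 := by
  have hsub : Icc z0 z1 ⊆ {z : ℝ | ((y0, z) : Ec) ∈ K} :=
    (convex_chord hK y0).ordConnected.out hp hq
  have h1 := ENNReal.toReal_mono (volume_chord_lt_top hc y0).ne (measure_mono hsub)
  rw [Real.volume_Icc, ENNReal.toReal_ofReal (by linarith)] at h1
  exact h1

/-- Area of a homothetic image in the plane. -/
theorem volume_homothety_image (y0 : ℝ × ℝ) (s : ℝ) (S : Set (ℝ × ℝ)) :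
    volume ((fun y : ℝ × ℝ => y0 + s • (y - y0)) '' S) = ENNReal.ofReal (s ^ 2) * volume S := by
  have h := Measure.addHaar_image_homothety (volume : Measure (ℝ × ℝ)) y0 s S
  have e : (fun y : ℝ × ℝ => y0 + s • (y - y0)) = AffineMap.homothety y0 s := by
    funext y
    rw [AffineMap.homothety_apply, vsub_eq_sub, vadd_eq_add, add_comm]
  have hf : Module.finrank ℝ (ℝ × ℝ) = 2 := by simp
  rw [e, h, hf, abs_of_nonneg (sq_nonneg s)]

theorem lev_superset (hK : Convex ℝ K) (hc : IsCompact K) (h01 : z0 < z1)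
    (hp : ((y0, z0) : Ec) ∈ K) (hq : ((y0, z1) : Ec) ∈ K) {τ : ℝ} (hτ : τ ∈ Icc 0 (z1 - z0)) :
    (fun y : ℝ × ℝ => y0 + (1 - τ / (z1 - z0)) • (y - y0)) '' (Prod.fst '' K) ⊆ lev K τ := by
  have hh : 0 < z1 - z0 := by linarith
  rintro _ ⟨y, hy, rfl⟩
  have ha : y0 ∈ lev K (z1 - z0) := ⟨⟨_, hp, rfl⟩, le_fib_of_mem hK hc h01.le hp hq⟩
  have hb : y ∈ lev K 0 := by rw [lev_zero]; exact hy
  have hl0 : 0 ≤ 1 - τ / (z1 - z0) := by
    have : τ / (z1 - z0) ≤ 1 := (div_le_one hh).mpr hτ.2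
    linarith
  have hl1 : 1 - τ / (z1 - z0) ≤ 1 := by
    have : 0 ≤ τ / (z1 - z0) := div_nonneg hτ.1 hh.le
    linarith
  have h := lev_comb hK hc hl0 hl1 ha hb
  have e1 : (1 - (1 - τ / (z1 - z0))) * (z1 - z0) + (1 - τ / (z1 - z0)) * 0 = τ := by
    field_simp
    ring
  have e2 : (1 - (1 - τ / (z1 - z0))) • y0 + (1 - τ / (z1 - z0)) • y
      = y0 + (1 - τ / (z1 - z0)) • (y - y0) := by
    rw [smul_sub, sub_smul, one_smul]
    abel
  rw [e1, e2] at h
  exact h

theorem vol_lev_ge (hK : Convex ℝ K) (hc : IsCompact K) (h01 : z0 < z1)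
    (hp : ((y0, z0) : Ec) ∈ K) (hq : ((y0, z1) : Ec) ∈ K) {τ : ℝ} (hτ : τ ∈ Icc 0 (z1 - z0)) :
    ENNReal.ofReal ((1 - τ / (z1 - z0)) ^ 2) * volume (Prod.fst '' K) ≤ volume (lev K τ) := by
  rw [← volume_homothety_image y0]
  exact measure_mono (lev_superset hK hc h01 hp hq hτ)

/-- `∫_a^b (1 - t/h)^2 dt`. -/
theorem integral_tent_sq {h : ℝ} (hh : 0 < h) (a b : ℝ) :
    ∫ t in a..b, (1 - t / h) ^ 2 = (h / 3) * ((1 - a / h) ^ 3 - (1 - b / h) ^ 3) := by
  have hd : ∀ t ∈ uIcc a b, HasDerivAt (fun t : ℝ => -(h / 3) * (1 - t / h) ^ 3)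
      ((1 - t / h) ^ 2) t := by
    intro t _
    have h1 : HasDerivAt (fun t : ℝ => 1 - t / h) (-(1 / h)) t := by
      have := ((hasDerivAt_id t).div_const h).const_sub 1
      simpa using this
    have h2 : HasDerivAt (fun t : ℝ => -(h / 3) * (1 - t / h) ^ 3)
        (-(h / 3) * (((3 : ℕ) : ℝ) * (1 - t / h) ^ (3 - 1) * -(1 / h))) t :=
      (h1.pow 3).const_mul (-(h / 3))
    refine h2.congr_deriv ?_
    have : h ≠ 0 := hh.ne'
    norm_num
    field_simp
  rw [intervalIntegral.integral_eq_sub_of_hasDerivAt hd]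
  · ring
  · exact (Continuous.intervalIntegrable (by fun_prop) _ _)

/-- The same as a lower Lebesgue integral. -/
theorem lintegral_tent_sq {h : ℝ} (hh : 0 < h) {a b : ℝ} (hab : a ≤ b) :
    ∫⁻ t in Ioc a b, ENNReal.ofReal ((1 - t / h) ^ 2)
      = ENNReal.ofReal ((h / 3) * ((1 - a / h) ^ 3 - (1 - b / h) ^ 3)) := by
  rw [← integral_tent_sq hh a b, intervalIntegral.integral_of_le hab]
  rw [ofReal_integral_eq_lintegral_ofReal]
  · have hc : Continuous fun t : ℝ => (1 - t / h) ^ 2 := by fun_prop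
    exact (hc.integrableOn_Icc (a := a) (b := b)).mono_set Ioc_subset_Icc_self
  · exact Filter.Eventually.of_forall fun t => sq_nonneg _

/-- Layer cake for the volume. -/
theorem volume_eq_lintegral_lev (hc : IsCompact K) :
    volume K = ∫⁻ t in Ioi (0 : ℝ), volume (lev K t) := by
  rw [volume_eq_lintegral_fib hc, ← layer_cake hc 0 le_rfl]
  simp

theorem chord_coord (hK : Convex ℝ K) (hc : IsCompact K) (h01 : z0 < z1)
    (hp : ((y0, z0) : Ec) ∈ K) (hq : ((y0, z1) : Ec) ∈ K) :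
    ENNReal.ofReal (z1 - z0) * volume (Prod.fst '' K) ≤ 3 * volume K := by
  have hh : 0 < z1 - z0 := by linarith
  have h1 : ENNReal.ofReal ((z1 - z0) / 3) * volume (Prod.fst '' K) ≤ volume K := by
    calc ENNReal.ofReal ((z1 - z0) / 3) * volume (Prod.fst '' K)
        = (∫⁻ t in Ioc 0 (z1 - z0), ENNReal.ofReal ((1 - t / (z1 - z0)) ^ 2))
            * volume (Prod.fst '' K) := by
          rw [lintegral_tent_sq hh hh.le]
          congr 2
          rw [div_self hh.ne']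
          ring
      _ = ∫⁻ t in Ioc 0 (z1 - z0),
            ENNReal.ofReal ((1 - t / (z1 - z0)) ^ 2) * volume (Prod.fst '' K) := by
          rw [lintegral_mul_const]
          fun_prop
      _ ≤ ∫⁻ t in Ioc 0 (z1 - z0), volume (lev K t) := by
          refine setLIntegral_mono' measurableSet_Ioc fun t ht => ?_
          exact vol_lev_ge hK hc h01 hp hq ⟨ht.1.le, ht.2⟩
      _ ≤ ∫⁻ t in Ioi (0 : ℝ), volume (lev K t) :=
          lintegral_mono_set Ioc_subset_Ioi_self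
      _ = volume K := (volume_eq_lintegral_lev hc).symm
  calc ENNReal.ofReal (z1 - z0) * volume (Prod.fst '' K)
      = 3 * (ENNReal.ofReal ((z1 - z0) / 3) * volume (Prod.fst '' K)) := by
        rw [← mul_assoc]
        congr 1
        have : (3 : ENNReal) = ENNReal.ofReal 3 := by simp
        rw [this, ← ENNReal.ofReal_mul (by norm_num)]
        congr 1
        ring
    _ ≤ 3 * volume K := by gcongr

end Vale.Agent.Lib.P243.Soft
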