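import Mathlib
import Vale.Agent.Lib.P243.Soft.Defs
import Vale.Agent.Lib.P243.Soft.Image1
import Vale.Agent.Lib.P243.Soft.Coords
import Vale.Agent.Lib.P243.Soft.CoordSweep
import Vale.Agent.Lib.P243.Soft.CoordChord

/-!
P243 soft, S12: properties of `hh K v = vol (K + [0,v]) - vol K` in 3-space.
For `v ≠ 0` take `Φ` with `Φ v = e_3 = ((0,0),1)` (`exists_coords_one`), `c` the scale constant of `Φ`
(`exists_scale`); then `c * hh K (s v) = hh (Φ K) (s e_3) = s |π Φ K|` (`hh_image`, `hh_coord`).  This gives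
`hh_smul` and `hh_mono` (`π Φ K ⊆ π Φ K'`).  `hh_le`: if `q - p = v ≠ 0`, then `Φ p = (y0,z0)`, `Φ q = (y0,z0+1)`;
use `chord_coord`.  `hh_neg`: `sweep K (-v) = -v + sweep K v`.
-/

namespace Vale.Agent.Lib.P243.Soft

open MeasureTheory Set
open scoped Pointwise

theorem hh_zero (K : Set Space) : hh K 0 = 0 := by
  unfold hh sweep
  rw [segment_same]
  simp

theorem sweep_neg (K : Set Space) (v : Space) :
    sweep K (-v) = (fun x => -v + x) '' sweep K v := by
  unfold sweep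
  ext x
  simp only [mem_add, mem_image]
  constructor
  · rintro ⟨k, hk, w, hw, rfl⟩
    refine ⟨k + (v + w), ⟨k, hk, v + w, ?_, rfl⟩, by abel⟩
    rw [segment_eq_image] at hw ⊢
    obtain ⟨t, ht, rfl⟩ := hw
    refine ⟨1 - t, ⟨by linarith [ht.2], by linarith [ht.1]⟩, ?_⟩
    simp only [smul_zero, zero_add, smul_neg, sub_smul, one_smul]
    abel
  · rintro ⟨y, ⟨k, hk, w, hw, rfl⟩, rfl⟩
    refine ⟨k, hk, -v + w, ?_, by abel⟩
    rw [segment_eq_image] at hw ⊢
    obtain ⟨t, ht, rfl⟩ := hw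
    refine ⟨1 - t, ⟨by linarith [ht.2], by linarith [ht.1]⟩, ?_⟩
    simp only [smul_zero, zero_add, smul_neg, sub_smul, one_smul]
    abel

theorem hh_neg (K : Set Space) (v : Space) : hh K (-v) = hh K v := by
  unfold hh
  rw [sweep_neg, image_add_left, measure_preimage_add]

theorem subset_sweep (K : Set Space) (v : Space) : K ⊆ sweep K v := by
  intro x hx
  exact ⟨x, hx, 0, left_mem_segment ℝ 0 v, add_zero x⟩

set_option linter.unusedVariables false in
theorem volume_sweep {K : Set Space} (hc : IsCompact K) (v : Space) :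
    volume (sweep K v) = volume K + hh K v := by
  unfold hh
  rw [add_tsub_cancel_of_le (measure_mono (subset_sweep K v))]

/-- the basic formula: in adapted coordinates `c * hh K (s v) = s |π Φ K|`. -/
theorem hh_formula {K : Set Space} (hK : Convex ℝ K) (hc : IsCompact K) {v : Space}
    (Φ : Space ≃L[ℝ] Ec) (hΦ : Φ v = ((0, 0), 1)) {c : ENNReal} (hct : c ≠ ⊤)
    (hsc : ∀ X : Set Space, volume (Φ '' X) = c * volume X) {s : ℝ} (hs : 0 ≤ s) :
    c * hh K (s • v) = ENNReal.ofReal s * volume (Prod.fst '' (Φ '' K)) := by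
  rw [← hh_image Φ hct hsc K (s • v)]
  have h1 : Φ (s • v) = (((0, 0), s) : Ec) := by
    rw [map_smul, hΦ]
    simp
  rw [h1]
  have hK' : Convex ℝ (Φ '' K) := hK.linear_image (Φ : Space →ₗ[ℝ] Ec)
  exact hh_coord hK' (hc.image Φ.continuous) hs

theorem hh_smul {K : Set Space} (hK : Convex ℝ K) (hc : IsCompact K) (v : Space) {s : ℝ}
    (hs : 0 ≤ s) : hh K (s • v) = ENNReal.ofReal s * hh K v := by
  by_cases hv : v = 0
  · subst hv
    simp [hh_zero]
  obtain ⟨Φ, hΦ⟩ := exists_coords_one v hv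
  obtain ⟨c, hc0, hct, hsc, -⟩ := exists_scale Φ
  have h1 := hh_formula hK hc Φ hΦ hct hsc hs
  have h2 := hh_formula hK hc Φ hΦ hct hsc (zero_le_one' ℝ)
  rw [one_smul, ENNReal.ofReal_one, one_mul] at h2
  rw [← h2] at h1
  have h3 : c * hh K (s • v) = c * (ENNReal.ofReal s * hh K v) := by
    rw [h1]; ring
  exact (ENNReal.mul_right_inj hc0 hct).1 h3

theorem hh_mono {K K' : Set Space} (hK : Convex ℝ K) (hc : IsCompact K) (hK' : Convex ℝ K')
    (hc' : IsCompact K') (h : K ⊆ K') (v : Space) : hh K v ≤ hh K' v := by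
  by_cases hv : v = 0
  · subst hv
    simp [hh_zero]
  obtain ⟨Φ, hΦ⟩ := exists_coords_one v hv
  obtain ⟨c, hc0, hct, hsc, -⟩ := exists_scale Φ
  have h1 := hh_formula hK hc Φ hΦ hct hsc (zero_le_one' ℝ)
  have h2 := hh_formula hK' hc' Φ hΦ hct hsc (zero_le_one' ℝ)
  rw [one_smul, ENNReal.ofReal_one, one_mul] at h1 h2
  have h3 : c * hh K v ≤ c * hh K' v := by
    rw [h1, h2]
    exact measure_mono (image_mono (image_mono h))
  exact (ENNReal.mul_le_mul_iff_right hc0 hct).1 h3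

theorem hh_le {K : Set Space} (hK : Convex ℝ K) (hc : IsCompact K) {p q : Space} (hp : p ∈ K)
    (hq : q ∈ K) : hh K (q - p) ≤ 3 * volume K := by
  by_cases hv : q - p = 0
  · rw [hv, hh_zero]
    exact zero_le
  obtain ⟨Φ, hΦ⟩ := exists_coords_one (q - p) hv
  obtain ⟨c, hc0, hct, hsc, -⟩ := exists_scale Φ
  have h1 := hh_formula hK hc Φ hΦ hct hsc (zero_le_one' ℝ)
  rw [one_smul, ENNReal.ofReal_one, one_mul] at h1
  have hK' : Convex ℝ (Φ '' K) := hK.linear_image (Φ : Space →ₗ[ℝ] Ec)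
  have hc' : IsCompact (Φ '' K) := hc.image Φ.continuous
  have hq' : Φ q = (((Φ p).1, (Φ p).2 + 1) : Ec) := by
    have : Φ q = Φ p + Φ (q - p) := by rw [← map_add]; congr 1; abel
    rw [this, hΦ]
    ext <;> simp
  have hpm : (((Φ p).1, (Φ p).2) : Ec) ∈ Φ '' K := ⟨p, hp, rfl⟩
  have hqm : (((Φ p).1, (Φ p).2 + 1) : Ec) ∈ Φ '' K := ⟨q, hq, hq'⟩
  have h2 := chord_coord hK' hc' (by linarith : (Φ p).2 < (Φ p).2 + 1) hpm hqm
  rw [add_sub_cancel_left, ENNReal.ofReal_one, one_mul, hsc K] at h2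
  have h3 : c * hh K (q - p) ≤ c * (3 * volume K) := by
    rw [h1]
    calc volume (Prod.fst '' (Φ '' K)) ≤ 3 * (c * volume K) := h2
      _ = c * (3 * volume K) := by ring
  exact (ENNReal.mul_le_mul_iff_right hc0 hct).1 h3

end Vale.Agent.Lib.P243.Soft
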