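import Mathlib
import Vale.Agent.Lib.P243.Soft.Defs

/-!
P243 soft, S25: the union of caps `capS K A η = ⋃_{p ∈ A} ((1-η) p + 2 η int K)`.
* open: each piece is the image of an open set under the homeomorphism `x ↦ (1-η) p + 2 η x` (`η > 0`).
* `mem_capS`: `p + t (q - p) = (1-η) p + 2 η x` with `x = (1/2) ((1 - t/η) p + (t/η) q) ∈ (1/2) K ⊆ interior K`
  (`K` convex, `0` interior: e.g. `gauge K x ≤ 1/2 < 1`, or `Convex.openSegment_interior_closure_subset_interior`).
-/

namespace Vale.Agent.Lib.P243.Soft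

open MeasureTheory Set

/-- The union of the caps of relative size `η` at the points of `A`. -/
def capS (K A : Set Space) (η : ℝ) : Set Space :=
  ⋃ p ∈ A, (fun x : Space => (1 - η) • p + (2 * η) • x) '' interior K

theorem isOpen_capS (K A : Set Space) {η : ℝ} (hη : 0 < η) : IsOpen (capS K A η) := by
  unfold capS
  refine isOpen_biUnion fun p _ => ?_
  have hc : (2 * η) ≠ 0 := by positivity
  have h1 : IsOpenMap (fun x : Space => (1 - η) • p + (2 * η) • x) :=
    (Homeomorph.addLeft ((1 - η) • p)).isOpenMap.comp (Homeomorph.smulOfNeZero (2 * η) hc).isOpenMap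
  exact h1 _ isOpen_interior

theorem mem_capS {K A : Set Space} (hK : Convex ℝ K) (h0 : K ∈ nhds (0 : Space)) (hAK : A ⊆ K)
    {η : ℝ} (hη : 0 < η) {p q : Space} (hp : p ∈ A) (hq : q ∈ K) {t : ℝ} (ht : t ∈ Icc 0 η) :
    p + t • (q - p) ∈ capS K A η := by
  unfold capS
  refine mem_biUnion hp ?_
  set s : ℝ := t / η with hs
  have hs0 : 0 ≤ s := div_nonneg ht.1 hη.le
  have hs1 : s ≤ 1 := by rw [hs, div_le_one hη]; exact ht.2
  have hts : t = η * s := by rw [hs]; field_simp
  have hy : (1 - s) • p + s • q ∈ K := hK (hAK hp) hq (by linarith) hs0 (by ring)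
  have h0i : (0 : Space) ∈ interior K := mem_interior_iff_mem_nhds.mpr h0
  have hx : (1 / 2 : ℝ) • ((1 - s) • p + s • q) ∈ interior K := by
    apply hK.openSegment_interior_closure_subset_interior h0i (subset_closure hy)
    refine ⟨1 / 2, 1 / 2, by norm_num, by norm_num, by norm_num, ?_⟩
    simp
  refine ⟨_, hx, ?_⟩
  simp only
  rw [hts]
  module

end Vale.Agent.Lib.P243.Soft
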