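import Mathlib
import Vale.Agent.Lib.P243.Soft.Defs
import Vale.Agent.Lib.P243.Soft.Caps1

/-!
P243 soft, S26: the caps lie in a thin boundary layer, close to `A`.
Let `ball 0 r ⊆ K ⊆ closedBall 0 R`.  `g = gauge K` satisfies `g y ≤ ‖y‖ / r` (`gauge_le_of...`/`lipschitzWith_gauge`), so `g (-k) ≤ R/r =: a` on `K`.
For `x = (1-η) p + 2 η k`, `p ∈ A`, `k ∈ interior K`:  `(1-η) = g ((1-η) p) = g (x + 2η (-k)) ≤ g x + 2 η a` (`gauge_add_le`), so
`g x ≥ 1 - (1+2a) η`.  `p ∈ K` (closed, `g p = 1`), `‖x - p‖ = η ‖2 k - p‖ ≤ 3 R η`.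
-/

namespace Vale.Agent.Lib.P243.Soft

open MeasureTheory Set

theorem capS_layer {K A : Set Space} (hK : Convex ℝ K) (hc : IsCompact K)
    (h0 : K ∈ nhds (0 : Space)) (hA1 : ∀ e ∈ A, gauge K e = 1) :
    ∃ b C : ℝ, 0 < b ∧ 0 < C ∧ ∀ η ∈ Ioo (0 : ℝ) 1, ∀ x ∈ capS K A η,
      1 - b * η ≤ gauge K x ∧ ∃ e ∈ A, ‖x - e‖ ≤ C * η := by
  obtain ⟨r, hr, hball⟩ := Metric.mem_nhds_iff.1 h0
  obtain ⟨R0, hR0⟩ := hc.isBounded.subset_closedBall (0 : Space)
  set R : ℝ := max R0 1 with hRdef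
  have hRpos : 0 < R := lt_of_lt_of_le one_pos (le_max_right _ _)
  have hKR : ∀ y ∈ K, ‖y‖ ≤ R := by
    intro y hy
    have := hR0 hy
    rw [Metric.mem_closedBall, dist_zero_right] at this
    exact this.trans (le_max_left _ _)
  have habs : Absorbent ℝ K := absorbent_nhds_zero h0
  have hg : ∀ y : Space, gauge K y ≤ ‖y‖ / r := by
    intro y
    have h1 : gauge K y ≤ gauge (Metric.ball (0 : Space) r) y :=
      gauge_mono (absorbent_ball_zero hr) hball y
    rwa [gauge_ball hr.le] at h1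
  refine ⟨1 + 2 * (R / r), 3 * R, by positivity, by positivity, ?_⟩
  intro η hη x hx
  simp only [capS, mem_iUnion, mem_image] at hx
  obtain ⟨p, hpA, k, hk, rfl⟩ := hx
  have hkK : k ∈ K := interior_subset hk
  have hpK : p ∈ K := by
    have h1 : gauge K p ≤ 1 := (hA1 p hpA).le
    have h2 := (gauge_le_one_iff_mem_closure hK h0).1 h1
    rwa [hc.isClosed.closure_eq] at h2
  have hη0 : 0 < η := hη.1
  have hη1 : 0 ≤ 1 - η := by linarith [hη.2]
  constructor
  · have e1 : (1 - η) • p = ((1 - η) • p + (2 * η) • k) + (2 * η) • (-k) := by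
      rw [smul_neg]; abel
    have e2 : gauge K ((1 - η) • p) = 1 - η := by
      rw [gauge_smul_of_nonneg hη1, hA1 p hpA, smul_eq_mul, mul_one]
    have e3 : gauge K ((2 * η) • (-k)) ≤ 2 * η * (R / r) := by
      rw [gauge_smul_of_nonneg (by positivity), smul_eq_mul]
      have : gauge K (-k) ≤ R / r := by
        refine (hg (-k)).trans ?_
        rw [norm_neg]
        exact div_le_div_of_nonneg_right (hKR k hkK) hr.le
      exact mul_le_mul_of_nonneg_left this (by positivity)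
    have e4 := gauge_add_le hK habs ((1 - η) • p + (2 * η) • k) ((2 * η) • (-k))
    rw [← e1, e2] at e4
    nlinarith
  · refine ⟨p, hpA, ?_⟩
    have e1 : (1 - η) • p + (2 * η) • k - p = η • ((2 : ℝ) • k - p) := by
      rw [sub_smul, one_smul, smul_sub, smul_smul, mul_comm η 2]; abel
    rw [e1, norm_smul, Real.norm_eq_abs, abs_of_pos hη0]
    have e2 : ‖(2 : ℝ) • k - p‖ ≤ 3 * R := by
      calc ‖(2 : ℝ) • k - p‖ ≤ ‖(2 : ℝ) • k‖ + ‖p‖ := norm_sub_le _ _
        _ = 2 * ‖k‖ + ‖p‖ := by rw [norm_smul]; norm_num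
        _ ≤ 3 * R := by linarith [hKR k hkK, hKR p hpK]
    calc η * ‖(2 : ℝ) • k - p‖ ≤ η * (3 * R) := mul_le_mul_of_nonneg_left e2 hη0.le
      _ = 3 * R * η := by ring

end Vale.Agent.Lib.P243.Soft
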