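import Mathlib
import Vale.Agent.Lib.P243.Soft.Defs

/-!
P243 soft, S27: volume of a subset of the boundary layer `{l ≤ g ≤ 1}` in terms of the cone over it.
Let `Cn = cone0 X ⊆ W`, so `vol Cn < ∞` (outer measure).  `X ⊆ Cn` (`t = 1`).  For `0 ≤ l' < l`: `l' • Cn ⊆ Cn`, and `l' • Cn` is disjoint from `X`
(on `l' • Cn`: `g ≤ l' < l`, since `g ≤ 1` on `Cn ⊆ K`... use `X ⊆ K`, `gauge_smul_of_nonneg`).  As `X` is measurable,
`vol Cn = vol (Cn ∩ X) + vol (Cn \ X) ≥ vol X + vol (l' • Cn) = vol X + l'^3 vol Cn` (`Measure.addHaar_smul`, `finrank = 3`).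
So `vol X ≤ (1 - l'^3) vol Cn ≤ (1 - l'^3) vol W`.  Let `l' ↑ l` (if `l = 0` the claim is `vol X ≤ vol W`).
-/

namespace Vale.Agent.Lib.P243.Soft

open MeasureTheory Set
open scoped Pointwise

theorem layer_volume_aux {K : Set Space} {X W : Set Space} (hX : MeasurableSet X) (hXK : X ⊆ K)
    {l l' : ℝ} (hl'0 : 0 ≤ l') (hl'1 : l' ≤ 1) (hl'l : l' < l)
    (hXl : ∀ x ∈ X, l ≤ gauge K x) (hW : cone0 X ⊆ W)
    (hWfin : volume W ≠ ⊤) :
    volume X ≤ ENNReal.ofReal (1 - l' ^ 3) * volume W := by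
  set Cn : Set Space := cone0 X with hCn
  have hXC : X ⊆ Cn := by
    intro x hx
    exact ⟨1, ⟨zero_le_one, le_refl _⟩, x, hx, (one_smul _ _).symm⟩
  have hsub : l' • Cn ⊆ Cn := by
    rintro _ ⟨y, ⟨t, ht, e, he, rfl⟩, rfl⟩
    refine ⟨l' * t, ⟨mul_nonneg hl'0 ht.1, ?_⟩, e, he, ?_⟩
    · calc l' * t ≤ 1 * 1 := mul_le_mul hl'1 ht.2 ht.1 zero_le_one
        _ = 1 := one_mul 1
    · simp [smul_smul]
  have hdisj : Disjoint X (l' • Cn) := by
    rw [Set.disjoint_left]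
    rintro _ hxX ⟨y, ⟨t, ht, e, he, rfl⟩, rfl⟩
    have h1 : l ≤ gauge K (l' • t • e) := hXl _ hxX
    have h2 : gauge K (l' • t • e) = l' * (t * gauge K e) := by
      rw [gauge_smul_of_nonneg hl'0, gauge_smul_of_nonneg ht.1]
      simp [smul_eq_mul]
    have h3 : gauge K e ≤ 1 := gauge_le_one_of_mem (hXK he)
    have h4 : 0 ≤ gauge K e := gauge_nonneg _
    have h5 : t * gauge K e ≤ 1 := by
      calc t * gauge K e ≤ 1 * 1 := mul_le_mul ht.2 h3 h4 zero_le_one
        _ = 1 := one_mul 1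
    have h6 : l' * (t * gauge K e) ≤ l' := by
      calc l' * (t * gauge K e) ≤ l' * 1 := mul_le_mul_of_nonneg_left h5 hl'0
        _ = l' := mul_one _
    linarith
  have hCfin : volume Cn ≠ ⊤ := ne_top_of_le_ne_top hWfin (measure_mono hW)
  have hsm : volume (l' • Cn) = ENNReal.ofReal (l' ^ 3) * volume Cn := by
    rw [Measure.addHaar_smul]
    have : Module.finrank ℝ Space = 3 := by simp
    rw [this, abs_of_nonneg (pow_nonneg hl'0 3)]
  have hun : volume X + volume (l' • Cn) ≤ volume Cn := by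
    rw [← measure_union' hdisj hX]
    exact measure_mono (union_subset hXC hsub)
  have hp1 : l' ^ 3 ≤ 1 := pow_le_one₀ hl'0 hl'1
  have hkey : volume X ≤ ENNReal.ofReal (1 - l' ^ 3) * volume Cn := by
    have hsplit : volume Cn = ENNReal.ofReal (1 - l' ^ 3) * volume Cn
        + ENNReal.ofReal (l' ^ 3) * volume Cn := by
      rw [← add_mul, ← ENNReal.ofReal_add (by linarith) (pow_nonneg hl'0 3)]
      simp
    rw [hsm] at hun
    have hfin2 : ENNReal.ofReal (l' ^ 3) * volume Cn ≠ ⊤ :=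
      ENNReal.mul_ne_top ENNReal.ofReal_ne_top hCfin
    have hun2 : volume X + ENNReal.ofReal (l' ^ 3) * volume Cn ≤
        ENNReal.ofReal (1 - l' ^ 3) * volume Cn + ENNReal.ofReal (l' ^ 3) * volume Cn :=
      hun.trans hsplit.le
    exact (ENNReal.add_le_add_iff_right hfin2).1 hun2
  exact hkey.trans (by gcongr)

theorem layer_volume {K : Set Space} (hK : Convex ℝ K) (hc : IsCompact K)
    (h0 : K ∈ nhds (0 : Space)) {X W : Set Space} (hX : MeasurableSet X) (hXK : X ⊆ K)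
    {l : ℝ} (hl : l ∈ Icc (0 : ℝ) 1) (hXl : ∀ x ∈ X, l ≤ gauge K x) (hW : cone0 X ⊆ W)
    (hWfin : volume W ≠ ⊤) :
    volume X ≤ ENNReal.ofReal (1 - l ^ 3) * volume W := by
  rcases hl.1.eq_or_lt with h | h
  · subst h
    have hXC : X ⊆ cone0 X := by
      intro x hx
      exact ⟨1, ⟨zero_le_one, le_refl _⟩, x, hx, (one_smul _ _).symm⟩
    simpa using measure_mono (hXC.trans hW)
  · have hcont : Filter.Tendsto (fun l' : ℝ => ENNReal.ofReal (1 - l' ^ 3) * volume W)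
        (nhdsWithin l (Iio l)) (nhds (ENNReal.ofReal (1 - l ^ 3) * volume W)) := by
      apply ENNReal.Tendsto.mul_const _ (Or.inr hWfin)
      have hc1 : Continuous (fun l' : ℝ => ENNReal.ofReal (1 - l' ^ 3)) :=
        ENNReal.continuous_ofReal.comp (by fun_prop)
      exact (hc1.tendsto l).mono_left nhdsWithin_le_nhds
    refine ge_of_tendsto hcont ?_
    have hev : ∀ᶠ l' in nhdsWithin l (Iio l), l' ∈ Ioo 0 l := Ioo_mem_nhdsLT h
    filter_upwards [hev] with l' hl'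
    exact layer_volume_aux hX hXK hl'.1.le (hl'.2.le.trans hl.2) hl'.2 hXl hW hWfin

end Vale.Agent.Lib.P243.Soft
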