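import Mathlib
import Vale.Agent.Lib.P243.Soft.Defs
import Vale.Agent.Lib.P243.Soft.Caps1
import Vale.Agent.Lib.P243.Soft.Caps2
import Vale.Agent.Lib.P243.Soft.Caps3

/-!
P243 soft, S28: if the cone over the compact set `A ⊆ bd K` is null, the caps at `A` have volume `o(η)`.
`b, C` from `capS_layer`.  `cone0 A` is compact (image of `Icc 0 1 ×ˢ A` under `(t,e) ↦ t • e`), so
`vol (cthickening (C η) (cone0 A)) → vol (cone0 A) = 0` as `η → 0+` (`tendsto_measure_cthickening_of_isCompact`).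
Choose `η ∈ (0,1)` with `b η ≤ 1` and `3 b vol (W) ≤ θ`, `W = cthickening (C η) (cone0 A)` (bounded, so of finite volume).  `S = capS K A η`, `X = S ∩ K`
(measurable), `l = 1 - b η`.  `cone0 X ⊆ W`: `x ∈ X`, `‖x - e‖ ≤ C η`, so `‖t x - t e‖ ≤ C η`.  `layer_volume`:
`vol X ≤ (1 - l^3) vol W ≤ 3 b η vol W ≤ θ η`.  The inclusion statement is `mem_capS` (`A ⊆ K` since `g = 1` on `A` and `K` is closed).
-/

namespace Vale.Agent.Lib.P243.Soft

open MeasureTheory Set

theorem isCompact_cone0 {A : Set Space} (hA : IsCompact A) : IsCompact (cone0 A) := by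
  have h1 : IsCompact (Icc (0 : ℝ) 1 ×ˢ A) := isCompact_Icc.prod hA
  have h2 : cone0 A = (fun te : ℝ × Space => te.1 • te.2) '' (Icc (0 : ℝ) 1 ×ˢ A) := by
    ext x
    constructor
    · rintro ⟨t, ht, e, he, rfl⟩
      exact ⟨(t, e), ⟨ht, he⟩, rfl⟩
    · rintro ⟨⟨t, e⟩, ⟨ht, he⟩, rfl⟩
      exact ⟨t, ht, e, he, rfl⟩
  rw [h2]
  exact h1.image (by fun_prop)

theorem caps {K : Set Space} (hK : Convex ℝ K) (hc : IsCompact K) (h0 : K ∈ nhds (0 : Space))
    {A : Set Space} (hA : IsCompact A) (hA1 : ∀ e ∈ A, gauge K e = 1)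
    (hnull : volume (cone0 A) = 0) {θ : ℝ} (hθ : 0 < θ) :
    ∃ η ∈ Ioo (0 : ℝ) 1, ∃ S : Set Space, IsOpen S ∧
      (∀ p ∈ A, ∀ q ∈ K, ∀ t ∈ Icc (0 : ℝ) η, p + t • (q - p) ∈ S) ∧
      volume (S ∩ K) ≤ ENNReal.ofReal (θ * η) := by
  obtain ⟨b, C, hb, hC, hlayer⟩ := capS_layer hK hc h0 hA1
  have hcone : IsCompact (cone0 A) := isCompact_cone0 hA
  have hAK : A ⊆ K := by
    intro e he
    have h1 : e ∈ closure K := (gauge_le_one_iff_mem_closure hK h0).1 (hA1 e he).le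
    rwa [hc.isClosed.closure_eq] at h1
  have ht1 : Filter.Tendsto (fun r : ℝ => volume (Metric.cthickening r (cone0 A))) (nhds 0)
      (nhds 0) := by
    have := tendsto_measure_cthickening_of_isCompact (μ := (volume : Measure Space)) hcone
    rwa [hnull] at this
  have ht2 : Filter.Tendsto (fun η : ℝ => C * η) (nhds 0) (nhds 0) := by
    have h1 : Continuous (fun η : ℝ => C * η) := by fun_prop
    have h2 := h1.tendsto 0
    simpa using h2
  have ht3 : Filter.Tendsto (fun η : ℝ => volume (Metric.cthickening (C * η) (cone0 A))) (nhds 0)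
      (nhds 0) := ht1.comp ht2
  have hpos : (0 : ENNReal) < ENNReal.ofReal (θ / (3 * b)) :=
    ENNReal.ofReal_pos.2 (by positivity)
  have hev1 : ∀ᶠ η : ℝ in nhds 0,
      volume (Metric.cthickening (C * η) (cone0 A)) < ENNReal.ofReal (θ / (3 * b)) :=
    ht3.eventually (gt_mem_nhds hpos)
  have hev2 : ∀ᶠ η : ℝ in nhds 0, η < 1 := gt_mem_nhds zero_lt_one
  have hev3 : ∀ᶠ η : ℝ in nhds 0, η < 1 / b := gt_mem_nhds (by positivity)
  have hev : ∀ᶠ η : ℝ in nhds 0,
      volume (Metric.cthickening (C * η) (cone0 A)) < ENNReal.ofReal (θ / (3 * b)) ∧ η < 1 ∧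
        η < 1 / b := hev1.and (hev2.and hev3)
  obtain ⟨ε, hε, hball⟩ := Metric.eventually_nhds_iff.1 hev
  have hη0 : (0 : ℝ) < ε / 2 := by positivity
  obtain ⟨hW, hη1, hηb⟩ := hball (y := ε / 2) (by
    rw [Real.dist_eq, sub_zero, abs_of_pos hη0]; linarith)
  set η : ℝ := ε / 2 with hη
  set W : Set Space := Metric.cthickening (C * η) (cone0 A) with hWdef
  have hbη : b * η ≤ 1 := by
    have := (lt_div_iff₀ hb).1 hηb
    linarith
  have hηmem : η ∈ Ioo (0 : ℝ) 1 := ⟨hη0, hη1⟩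
  refine ⟨η, hηmem, capS K A η, isOpen_capS K A hη0, ?_, ?_⟩
  · intro p hp q hq t ht
    exact mem_capS hK h0 hAK hη0 hp hq ht
  · have hXm : MeasurableSet (capS K A η ∩ K) :=
      (isOpen_capS K A hη0).measurableSet.inter hc.isClosed.measurableSet
    have hl : 1 - b * η ∈ Icc (0 : ℝ) 1 := ⟨by linarith, by nlinarith⟩
    have hXl : ∀ x ∈ capS K A η ∩ K, 1 - b * η ≤ gauge K x :=
      fun x hx => (hlayer η hηmem x hx.1).1
    have hsub : cone0 (capS K A η ∩ K) ⊆ W := by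
      rintro x ⟨t, ht, x', hx', rfl⟩
      obtain ⟨e, he, hdist⟩ := (hlayer η hηmem x' hx'.1).2
      refine Metric.mem_cthickening_of_dist_le (t • x') (t • e) _ _ ⟨t, ht, e, he, rfl⟩ ?_
      rw [dist_eq_norm, ← smul_sub, norm_smul, Real.norm_eq_abs, abs_of_nonneg ht.1]
      calc t * ‖x' - e‖ ≤ 1 * ‖x' - e‖ := by gcongr; exact ht.2
        _ = ‖x' - e‖ := one_mul _
        _ ≤ C * η := hdist
    have hWfin : volume W ≠ ⊤ := (lt_of_lt_of_le hW le_top).ne
    have hmain := layer_volume hK hc h0 hXm inter_subset_right hl hXl hsub hWfin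
    have hcube : 1 - (1 - b * η) ^ 3 ≤ 3 * b * η := by
      have hs0 : 0 ≤ b * η := by positivity
      nlinarith [mul_nonneg hs0 hs0, mul_nonneg (mul_nonneg hs0 hs0) (sub_nonneg.2 hbη)]
    calc volume (capS K A η ∩ K) ≤ ENNReal.ofReal (1 - (1 - b * η) ^ 3) * volume W := hmain
      _ ≤ ENNReal.ofReal (3 * b * η) * ENNReal.ofReal (θ / (3 * b)) := by
          gcongr
      _ = ENNReal.ofReal (θ * η) := by
          rw [← ENNReal.ofReal_mul (by positivity)]
          congr 1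
          field_simp

end Vale.Agent.Lib.P243.Soft
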