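import Mathlib
import Vale.Agent.Lib.P243.Soft.Defs

/-!
P243 soft, S38: Blaschke selection in the form of a local-to-global principle on `Kcl`.
Work in `TopologicalSpace.NonemptyCompacts Space` (metric = Hausdorff distance, `Metric.NonemptyCompacts.dist_eq`).
`𝒦 = {L : NonemptyCompacts Space | (L : Set Space) ∈ Kcl}` is compact: it is contained in the compact set `{L | ↑L ⊆ closedBall 0 3}`
(`TopologicalSpace.NonemptyCompacts.isCompact_subsets_of_isCompact`) and it is closed:
if `L_n → L` in the Hausdorff distance, then (i) `x ∈ closedBall 0 (1/10) ⊆ L_n` gives `infDist x L ≤ hausdorffDist L_n L → 0`, so `x ∈ L` (`L` closed);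
(ii) for `x,y ∈ L` choose `x_n,y_n ∈ L_n` within `2 hausdorffDist` of `x,y`; `a x_n + b y_n ∈ L_n` is within `2 hausdorffDist + hausdorffDist` of ... `L`, and tends to
`a x + b y`, so `a x + b y ∈ L`; (iii) `L ⊆ closedBall 0 3` similarly.
Then cover `𝒦` by the open balls `ball K0 δ(K0)`, take a finite subcover (`IsCompact.elim_nhds_subcover` or `elim_finite_subcover`) and the minimum of the finitely many `ε(K0)`
(if `𝒦` were empty any `ε` works; the finite set may be empty only then).
-/

namespace Vale.Agent.Lib.P243.Soft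

open MeasureTheory Set Metric TopologicalSpace


/-- The members of `Kcl` as points of the hyperspace. -/
def KclC : Set (NonemptyCompacts Space) := {A | (A : Set Space) ∈ Kcl}

lemma exists_near {A B : NonemptyCompacts Space} {r : ℝ} (h : dist A B < r) {x : Space}
    (hx : x ∈ (A : Set Space)) : ∃ y ∈ (B : Set Space), dist x y < r := by
  rw [NonemptyCompacts.dist_eq] at h
  exact exists_dist_lt_of_hausdorffDist_lt hx h
    (hausdorffEDist_ne_top_of_nonempty_of_bounded A.nonempty B.nonempty A.isCompact.isBounded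
      B.isCompact.isBounded)

lemma mem_of_forall_near {A : NonemptyCompacts Space} {x : Space}
    (h : ∀ ε > 0, ∃ y ∈ (A : Set Space), dist x y < ε) : x ∈ (A : Set Space) := by
  have : x ∈ closure (A : Set Space) := Metric.mem_closure_iff.mpr h
  rwa [A.isCompact.isClosed.closure_eq] at this

theorem isClosed_KclC : IsClosed KclC := by
  refine isClosed_of_closure_subset fun A hA => ?_
  rw [Metric.mem_closure_iff] at hA
  refine ⟨A.isCompact, ?_, ?_, ?_⟩
  · -- convexity
    intro x hx y hy a b ha hb hab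
    refine mem_of_forall_near fun ε hε => ?_
    obtain ⟨B, hB, hAB⟩ := hA (ε / 2) (by positivity)
    obtain ⟨x', hx', hxx'⟩ := exists_near hAB hx
    obtain ⟨y', hy', hyy'⟩ := exists_near hAB hy
    have hz : a • x' + b • y' ∈ (B : Set Space) := hB.2.1 hx' hy' ha hb hab
    obtain ⟨w, hw, hzw⟩ := exists_near (by rwa [dist_comm] at hAB : dist B A < ε / 2) hz
    refine ⟨w, hw, ?_⟩
    have h1 : dist (a • x + b • y) (a • x' + b • y') < ε / 2 := by
      rw [dist_eq_norm] at hxx' hyy' ⊢
      have : a • x + b • y - (a • x' + b • y') = a • (x - x') + b • (y - y') := by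
        simp only [smul_sub]; abel
      rw [this]
      calc ‖a • (x - x') + b • (y - y')‖ ≤ ‖a • (x - x')‖ + ‖b • (y - y')‖ := norm_add_le _ _
        _ = a * ‖x - x'‖ + b * ‖y - y'‖ := by
            rw [norm_smul, norm_smul, Real.norm_of_nonneg ha, Real.norm_of_nonneg hb]
        _ < ε / 2 := by
            rcases eq_or_lt_of_le ha with h0 | h0
            · have hb1 : b = 1 := by linarith
              rw [← h0, hb1]; linarith
            · have : a * ‖x - x'‖ < a * (ε / 2) := mul_lt_mul_of_pos_left hxx' h0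
              have : b * ‖y - y'‖ ≤ b * (ε / 2) := mul_le_mul_of_nonneg_left hyy'.le hb
              have h3 : a * (ε / 2) + b * (ε / 2) = ε / 2 := by rw [← add_mul, hab, one_mul]
              linarith
    calc dist (a • x + b • y) w ≤ dist (a • x + b • y) (a • x' + b • y') + dist (a • x' + b • y') w :=
          dist_triangle _ _ _
      _ < ε := by linarith
  · -- contains the small ball
    intro x hx
    refine mem_of_forall_near fun ε hε => ?_
    obtain ⟨B, hB, hAB⟩ := hA ε hε
    exact exists_near (by rwa [dist_comm] at hAB : dist B A < ε) (hB.2.2.1 hx)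
  · -- contained in the large ball
    intro x hx
    rw [mem_closedBall]
    refine le_of_forall_pos_lt_add fun ε hε => ?_
    obtain ⟨B, hB, hAB⟩ := hA ε hε
    obtain ⟨y, hy, hxy⟩ := exists_near hAB hx
    have := mem_closedBall.mp (hB.2.2.2 hy)
    calc dist x 0 ≤ dist x y + dist y 0 := dist_triangle _ _ _
      _ < 3 + ε := by linarith

theorem isCompact_KclC : IsCompact KclC := by
  have h := NonemptyCompacts.isCompact_subsets_of_isCompact
    (isCompact_closedBall (0 : Space) 3)
  exact h.of_isClosed_subset isClosed_KclC fun A hA => hA.2.2.2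

lemma Kcl_nonempty {K : Set Space} (hK : K ∈ Kcl) : K.Nonempty :=
  ⟨0, hK.2.2.1 (mem_closedBall_self (by norm_num))⟩

theorem uniform_of_local (P : Set Space → ℝ → Prop)
    (hmono : ∀ K ε ε', ε' ≤ ε → P K ε → P K ε')
    (hloc : ∀ K0 ∈ Kcl, ∃ ε : ℝ, 0 < ε ∧ ∃ δ : ℝ, 0 < δ ∧
      ∀ K ∈ Kcl, hausdorffDist K K0 < δ → P K ε) :
    ∃ ε : ℝ, 0 < ε ∧ ∀ K ∈ Kcl, P K ε := by
  classical
  choose! e he d hd hdG using hloc
  obtain ⟨T, hT, hcov⟩ := isCompact_KclC.elim_nhds_subcover
    (fun A => ball A (d (A : Set Space))) (fun A hA => ball_mem_nhds A (hd _ hA))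
  rcases T.eq_empty_or_nonempty with hTe | hTne
  · refine ⟨1, one_pos, fun K hK => ?_⟩
    exfalso
    have : (⟨⟨K, hK.1⟩, Kcl_nonempty hK⟩ : NonemptyCompacts Space) ∈ KclC := hK
    have := hcov this
    simp [hTe] at this
  · obtain ⟨A0, hA0, hmin⟩ := T.exists_min_image (fun A => e (A : Set Space)) hTne
    refine ⟨e (A0 : Set Space), he _ (hT A0 hA0), fun K hK => ?_⟩
    have hKm : (⟨⟨K, hK.1⟩, Kcl_nonempty hK⟩ : NonemptyCompacts Space) ∈ KclC := hK
    have := hcov hKm
    simp only [mem_iUnion, mem_ball, exists_prop] at this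
    obtain ⟨A, hAT, hdist⟩ := this
    rw [NonemptyCompacts.dist_eq] at hdist
    have h3 := hdG (A : Set Space) (hT A hAT) K hK hdist
    exact hmono K _ _ (hmin A hAT) h3

end Vale.Agent.Lib.P243.Soft
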