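import Mathlib
import Vale.Agent.Lib.P243.Soft.Defs

/-!
P243 soft, S24: the cone over a set of non-differentiability points of the gauge is Lebesgue null.
`g = gauge K` is Lipschitz (`lipschitzWith_gauge`, a ball around `0` lies in `K`), so it is differentiable almost everywhere
(Rademacher: `LipschitzWith.ae_differentiableAt`).  If `x = t • e`, `t > 0`, and `g` is differentiable at `x`, then `g` is differentiable at `e`,
because `g y = t⁻¹ * g (t • y)` (`gauge_smul_of_nonneg`).  So `cone0 A ⊆ {0} ∪ {x | ¬ DifferentiableAt ℝ g x}`.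
-/

namespace Vale.Agent.Lib.P243.Soft

open MeasureTheory Set

theorem cone_null {K : Set Space} (hK : Convex ℝ K) (h0 : K ∈ nhds (0 : Space)) {A : Set Space}
    (hA : ∀ e ∈ A, ¬ DifferentiableAt ℝ (gauge K) e) : volume (cone0 A) = 0 := by
  obtain ⟨C, hlip⟩ := hK.lipschitz_gauge h0
  have hae : ∀ᵐ x ∂(volume : Measure Space), DifferentiableAt ℝ (gauge K) x :=
    hlip.ae_differentiableAt
  have hnull : volume {x : Space | ¬ DifferentiableAt ℝ (gauge K) x} = 0 := hae
  have hsub : cone0 A ⊆ {(0 : Space)} ∪ {x : Space | ¬ DifferentiableAt ℝ (gauge K) x} := by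
    rintro x ⟨t, ht, e, he, rfl⟩
    rcases eq_or_lt_of_le ht.1 with h | h
    · left
      simp [← h]
    · right
      intro hd
      apply hA e he
      have h1 : gauge K = fun y => t⁻¹ * gauge K (t • y) := by
        funext y
        rw [gauge_smul_of_nonneg h.le, smul_eq_mul, ← mul_assoc, inv_mul_cancel₀ h.ne', one_mul]
      rw [h1]
      have h2 : DifferentiableAt ℝ (fun y : Space => t • y) e :=
        (differentiableAt_id).const_smul t
      exact (hd.comp e h2).const_mul t⁻¹
  refine measure_mono_null hsub (measure_union_null ?_ hnull)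
  simp

end Vale.Agent.Lib.P243.Soft
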