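import Mathlib

/-!
P243 soft, S09: a closed set with nonempty interior inside a convex set of the same (finite) measure is everything.
Let `x ∈ C' \ C`.  `C` closed: some ball `B(x,r')` misses `C`.  Let `B(z,r) ⊆ C ⊆ C'`.
The set `U = {x + s (w - x) : w ∈ B(z,r)}` for a fixed small `s ∈ (0,1)` is an open ball `B(x + s (z - x), s r)`,
it lies in `C'` by convexity and in `B(x,r')` if `s (|z - x| + r) < r'`.  So `U ⊆ C' \ C`, `vol U > 0`,
`vol C' ≥ vol C + vol U > vol C` (`C` is measurable, `vol C < ∞`): contradiction.

(Implementation: `U = interior C' \ C` is open, and nonempty because `x ∈ closure (interior C')`.)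
-/

namespace Vale.Agent.Lib.P243.Soft

open MeasureTheory Set

theorem subset_of_volume_le {E : Type*} [NormedAddCommGroup E] [NormedSpace ℝ E]
    [MeasureSpace E] [BorelSpace E] [(volume : Measure E).IsOpenPosMeasure]
    {C C' : Set E} (hC : IsClosed C) (hC' : Convex ℝ C') (hsub : C ⊆ C')
    (hint : (interior C).Nonempty) (hfin : volume C' ≠ ⊤) (hvol : volume C' ≤ volume C) :
    C' ⊆ C := by
  intro x hx
  by_contra hxC
  have hint' : (interior C').Nonempty := hint.mono (interior_mono hsub)
  have hxcl : x ∈ closure (interior C') := by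
    rw [hC'.closure_interior_eq_closure_of_nonempty_interior hint']
    exact subset_closure hx
  have hUo : IsOpen (Cᶜ ∩ interior C') := hC.isOpen_compl.inter isOpen_interior
  have hUne : (Cᶜ ∩ interior C').Nonempty :=
    mem_closure_iff.1 hxcl Cᶜ hC.isOpen_compl hxC
  have hUpos : 0 < volume (Cᶜ ∩ interior C') := hUo.measure_pos volume hUne
  have hdisj : Disjoint (Cᶜ ∩ interior C') C :=
    Set.disjoint_left.2 (fun y hy hyC => hy.1 hyC)
  have hunion : (Cᶜ ∩ interior C') ∪ C ⊆ C' :=
    union_subset (fun y hy => interior_subset hy.2) hsub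
  have h1 : volume (Cᶜ ∩ interior C') + volume C ≤ volume C' := by
    rw [← measure_union hdisj hC.measurableSet]
    exact measure_mono hunion
  have hCfin : volume C ≠ ⊤ := ne_top_of_le_ne_top hfin (measure_mono hsub)
  have h2 : volume (Cᶜ ∩ interior C') + volume C ≤ 0 + volume C := by
    rw [zero_add]
    exact h1.trans hvol
  have h3 := (ENNReal.add_le_add_iff_right hCfin).1 h2
  exact absurd hUpos (not_lt.2 h3)

end Vale.Agent.Lib.P243.Soft
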