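import Mathlib
import Vale.Agent.Lib.P243.Soft.Defs
import Vale.Agent.Lib.P243.Cap.CaptureCoord

/-!
P243 soft, S08: the level sets of the chord length function of a compact convex set are closed.
Let `y_n → y`, `y_n ∈ lev K τ`.  The fibre over `y_n` is a compact interval `[a_n, b_n]`, `b_n - a_n ≥ τ`
(nonempty since `y_n ∈ π K`).  By compactness of `K` pass to a subsequence with `(y_n,a_n) → (y,a) ∈ K`,
`(y_n,b_n) → (y,b) ∈ K`; `b - a ≥ τ` and `[a,b]` lies in the fibre over `y` by convexity.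

(Implementation: the chord length is upper semicontinuous for every compact `K`: cover the fibre over `y`
by an open set `U` of nearly the same measure; `π (K \ (ℝ² × U))` is closed and misses `y`.)
-/

namespace Vale.Agent.Lib.P243.Soft

open MeasureTheory Set Vale.Agent.Lib.P243.Cap

theorem isClosed_le_fib {K : Set Ec} (hc : IsCompact K) (τ : ℝ) :
    IsClosed {y | τ ≤ fib K y} := by
  rw [← isOpen_compl_iff, isOpen_iff_mem_nhds]
  intro y hy
  have hy' : fib K y < τ := not_le.1 hy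
  have hτ : 0 < τ := lt_of_le_of_lt (fib_nonneg y) hy'
  have hF : volume {z : ℝ | (y, z) ∈ K} < ENNReal.ofReal τ := by
    rw [← ofReal_fib hc]
    exact (ENNReal.ofReal_lt_ofReal_iff hτ).2 hy'
  obtain ⟨U, hFU, hUo, hU⟩ := Set.exists_isOpen_lt_of_lt _ _ hF
  have hc2 : IsCompact (K \ (Prod.snd ⁻¹' U)) := hc.diff (hUo.preimage continuous_snd)
  have hcl : IsClosed (Prod.fst '' (K \ (Prod.snd ⁻¹' U))) := (hc2.image continuous_fst).isClosed
  have hyn : y ∉ Prod.fst '' (K \ (Prod.snd ⁻¹' U)) := by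
    rintro ⟨⟨y', z⟩, ⟨hk, hz⟩, rfl⟩
    exact hz (hFU hk)
  filter_upwards [hcl.isOpen_compl.mem_nhds hyn] with y' hy'
  have hsub : {z : ℝ | (y', z) ∈ K} ⊆ U := by
    intro z hz
    by_contra hzU
    exact hy' ⟨(y', z), ⟨hz, hzU⟩, rfl⟩
  have h3 : volume {z : ℝ | (y', z) ∈ K} < ENNReal.ofReal τ := (measure_mono hsub).trans_lt hU
  rw [← ofReal_fib hc] at h3
  exact not_le.2 ((ENNReal.ofReal_lt_ofReal_iff hτ).1 h3)

theorem isClosed_lev {K : Set Ec} (hK : Convex ℝ K) (hc : IsCompact K) (τ : ℝ) :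
    IsClosed (lev K τ) :=
  (hc.image continuous_fst).isClosed.inter (isClosed_le_fib hc τ)

end Vale.Agent.Lib.P243.Soft
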