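import Mathlib
import Vale.Agent.Lib.P243.Soft.Defs
import Vale.Agent.Lib.P243.Soft.CoordChord

/-!
P243 soft, S07: equality in the chord inequality forces equality of all level-set areas.
Put `h = z1 - z0`, `A = |π K|`, `a(τ) = |lev K τ|` (non-increasing, `Cap.lev_anti`), `a(τ) ≥ (1-τ/h)^2 A`
on `[0,h]` (`vol_lev_ge`), `vol K = ∫_0^∞ a ≥ ∫_0^h a`, `∫_0^h (1-τ/h)^2 A dτ = h A/3 = vol K`.
If `a(τ1) > (1-τ1/h)^2 A` for some `τ1 ∈ (0,h)`, then by continuity of `τ ↦ (1-τ/h)^2 A` there is `δ > 0` and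
`c > 0` with `a(τ) ≥ a(τ1) ≥ (1-τ/h)^2 A + c` on `[τ1-δ, τ1]`, so `∫_0^h a ≥ h A/3 + c δ > vol K`: contradiction.
For `τ1 = 0`: `lev K 0 = π K` (`Cap.lev_zero`).
-/

namespace Vale.Agent.Lib.P243.Soft

open MeasureTheory Set Vale.Agent.Lib.P243.Cap

variable {K : Set Ec} {y0 : ℝ × ℝ} {z0 z1 : ℝ}

theorem tight_vol_lev (hK : Convex ℝ K) (hc : IsCompact K) (h01 : z0 < z1)
    (hp : ((y0, z0) : Ec) ∈ K) (hq : ((y0, z1) : Ec) ∈ K)
    (ht : ENNReal.ofReal (z1 - z0) * volume (Prod.fst '' K) = 3 * volume K)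
    {τ : ℝ} (hτ : τ ∈ Ico 0 (z1 - z0)) :
    volume (lev K τ) = ENNReal.ofReal ((1 - τ / (z1 - z0)) ^ 2) * volume (Prod.fst '' K) := by
  have hh : 0 < z1 - z0 := by linarith
  set h : ℝ := z1 - z0 with hdef
  set A : ENNReal := volume (Prod.fst '' K) with hAdef
  have hA : A ≠ ⊤ := (hc.image continuous_fst).measure_lt_top.ne
  have hV : volume K ≠ ⊤ := hc.measure_lt_top.ne
  have hge : ENNReal.ofReal ((1 - τ / h) ^ 2) * A ≤ volume (lev K τ) :=
    vol_lev_ge hK hc h01 hp hq ⟨hτ.1, hτ.2.le⟩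
  -- `vol K = (h/3) A`
  have hVK : volume K = ENNReal.ofReal (h / 3) * A := by
    have e : ENNReal.ofReal h = 3 * ENNReal.ofReal (h / 3) := by
      have : (3 : ENNReal) = ENNReal.ofReal 3 := by simp
      rw [this, ← ENNReal.ofReal_mul (by norm_num)]
      congr 1
      ring
    rw [e, mul_assoc] at ht
    exact ((ENNReal.mul_right_inj (by norm_num) (by norm_num)).mp ht).symm
  by_contra hne
  have hlt : ENNReal.ofReal ((1 - τ / h) ^ 2) * A < volume (lev K τ) :=
    lt_of_le_of_ne hge (Ne.symm hne)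
  rcases hτ.1.eq_or_lt with h0 | h0
  · -- `τ = 0`
    rw [← h0, lev_zero] at hlt
    simp at hlt
    exact lt_irrefl _ hlt
  -- choose `τ0 < τ` with `(1-τ0/h)^2 A < a(τ)`
  have hcont : Continuous fun t : ℝ => ENNReal.ofReal ((1 - t / h) ^ 2) * A :=
    (ENNReal.continuous_mul_const hA).comp (ENNReal.continuous_ofReal.comp (by fun_prop))
  have hev : ∀ᶠ t in nhds τ, ENNReal.ofReal ((1 - t / h) ^ 2) * A < volume (lev K τ) :=
    (hcont.tendsto τ).eventually_lt_const hlt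
  obtain ⟨τ0, hτ0lt, hτ0⟩ :=
    ((hev.filter_mono nhdsWithin_le_nhds).and (Ioo_mem_nhdsLT h0)).exists
  set c : ENNReal := volume (lev K τ) - ENNReal.ofReal ((1 - τ0 / h) ^ 2) * A with hcdef
  have hcpos : 0 < c := tsub_pos_of_lt hτ0lt
  have hcadd : ENNReal.ofReal ((1 - τ0 / h) ^ 2) * A + c = volume (lev K τ) :=
    add_tsub_cancel_of_le hτ0lt.le
  have hpt : ∀ t ∈ Ioc 0 h, ENNReal.ofReal ((1 - t / h) ^ 2) * A
      + (Ioc τ0 τ).indicator (fun _ => c) t ≤ volume (lev K t) := by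
    intro t ht'
    by_cases hm : t ∈ Ioc τ0 τ
    · rw [indicator_of_mem hm]
      have h1 : (1 - t / h) ^ 2 ≤ (1 - τ0 / h) ^ 2 := by
        have e1 : t / h ≤ 1 := (div_le_one hh).mpr ht'.2
        have e2 : τ0 / h ≤ t / h := div_le_div_of_nonneg_right hm.1.le hh.le
        exact pow_le_pow_left₀ (by linarith) (by linarith) 2
      calc ENNReal.ofReal ((1 - t / h) ^ 2) * A + c
          ≤ ENNReal.ofReal ((1 - τ0 / h) ^ 2) * A + c := by gcongr
        _ = volume (lev K τ) := hcadd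
        _ ≤ volume (lev K t) := measure_mono (lev_anti hm.2)
    · rw [indicator_of_notMem hm, add_zero]
      exact vol_lev_ge hK hc h01 hp hq ⟨ht'.1.le, ht'.2⟩
  have hsub : Ioc τ0 τ ⊆ Ioc 0 h := fun t ht' => ⟨hτ0.1.trans ht'.1, ht'.2.trans hτ.2.le⟩
  have hmeas : Measurable fun t : ℝ => ENNReal.ofReal ((1 - t / h) ^ 2) * A := hcont.measurable
  have hint : volume K + c * ENNReal.ofReal (τ - τ0) ≤ volume K := by
    calc volume K + c * ENNReal.ofReal (τ - τ0)
        = (∫⁻ t in Ioc 0 h, ENNReal.ofReal ((1 - t / h) ^ 2) * A)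
            + ∫⁻ t in Ioc 0 h, (Ioc τ0 τ).indicator (fun _ => c) t := by
          congr 1
          · rw [lintegral_mul_const _ (by fun_prop), lintegral_tent_sq hh hh.le, hVK]
            congr 2
            rw [div_self hh.ne']
            ring
          · rw [lintegral_indicator measurableSet_Ioc, Measure.restrict_restrict measurableSet_Ioc,
              setLIntegral_const, inter_eq_left.mpr hsub, Real.volume_Ioc]
      _ = ∫⁻ t in Ioc 0 h, (ENNReal.ofReal ((1 - t / h) ^ 2) * A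
            + (Ioc τ0 τ).indicator (fun _ => c) t) := (lintegral_add_left hmeas _).symm
      _ ≤ ∫⁻ t in Ioc 0 h, volume (lev K t) := setLIntegral_mono' measurableSet_Ioc hpt
      _ ≤ ∫⁻ t in Ioi (0 : ℝ), volume (lev K t) := lintegral_mono_set Ioc_subset_Ioi_self
      _ = volume K := (volume_eq_lintegral_lev hc).symm
  have hz : c * ENNReal.ofReal (τ - τ0) ≤ 0 :=
    (ENNReal.add_le_add_iff_left hV).mp (hint.trans_eq (add_zero _).symm)
  have hpos : 0 < c * ENNReal.ofReal (τ - τ0) :=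
    ENNReal.mul_pos hcpos.ne' (ENNReal.ofReal_pos.mpr (by linarith [hτ0.2])).ne'
  exact absurd hz (not_le.mpr hpos)

end Vale.Agent.Lib.P243.Soft
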