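import Mathlib
import Vale.Agent.Lib.P243.Soft.Defs
import Vale.Agent.Lib.P243.Soft.CoordChord
import Vale.Agent.Lib.P243.Soft.CoordTightLev
import Vale.Agent.Lib.P243.Soft.CoordLevClosed
import Vale.Agent.Lib.P243.Soft.ConvexEq

/-!
P243 soft, S10: for a tight vertical chord the chord length function is a tent.
`h = z1 - z0`, `Ω = π K`.
* `tight_lev_eq`: `C = y0 + (1-τ/h)(Ω - y0) ⊆ lev K τ = C'` (`lev_superset`), equal areas (`tight_vol_lev`, the
  homothety scales area by `(1-τ/h)^2`), `C` compact, `C'` convex (`Cap.convex_lev`), `C` has nonempty interior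
  (`Ω` is convex of positive area because `vol K ≠ 0`; a convex set of positive measure has nonempty interior, e.g. by
  `Convex.addHaar_frontier`).  Apply `subset_of_volume_le`.
* `tight_fib_top`: `fib K y0 = h` (if it were larger there would be a longer vertical chord over `y0`,
  contradicting `chord_coord`).
* `tight_fib`: let `y'` be an exit point, `y1 = y0 + t (y' - y0)`.  `fib K y1 ≥ (1-t) h` by `lev_superset`.
  If `fib K y1 > (1-t) h` (`t > 0`), choose `τ` with `(1-t) h < τ < h`, `τ ≤ fib K y1`.  Then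
  `y1 ∈ lev K τ = y0 + s (Ω - y0)`, `s = 1 - τ/h ∈ (0,t)`, so `y0 + (t/s)(y' - y0) ∈ Ω`, `t/s > 1`: contradiction.
-/

namespace Vale.Agent.Lib.P243.Soft

open MeasureTheory Set Vale.Agent.Lib.P243.Cap

variable {K : Set Ec} {y0 : ℝ × ℝ} {z0 z1 : ℝ}

theorem homothety_fun_eq (y0 : ℝ × ℝ) (s : ℝ) :
    (fun y : ℝ × ℝ => y0 + s • (y - y0)) = AffineMap.homothety y0 s := by
  funext y
  rw [AffineMap.homothety_apply, vsub_eq_sub, vadd_eq_add, add_comm]

theorem shadow_vol_ne_zero (hV : volume K ≠ 0)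
    (ht : ENNReal.ofReal (z1 - z0) * volume (Prod.fst '' K) = 3 * volume K) :
    volume (Prod.fst '' K) ≠ 0 := by
  intro h0
  rw [h0, mul_zero] at ht
  have h3 : (3 : ENNReal) * volume K ≠ 0 := mul_ne_zero (by norm_num) hV
  exact h3 ht.symm

theorem shadow_vol_ne_top (hc : IsCompact K) : volume (Prod.fst '' K) ≠ ⊤ :=
  (hc.image continuous_fst).measure_lt_top.ne

theorem shadow_convex (hK : Convex ℝ K) : Convex ℝ (Prod.fst '' K) :=
  hK.linear_image (LinearMap.fst ℝ (ℝ × ℝ) ℝ)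

theorem shadow_interior_nonempty (hK : Convex ℝ K) (hc : IsCompact K)
    (h0 : volume (Prod.fst '' K) ≠ 0) : (interior (Prod.fst '' K)).Nonempty := by
  by_contra hne
  rw [Set.not_nonempty_iff_eq_empty] at hne
  have hcl : IsClosed (Prod.fst '' K) := (hc.image continuous_fst).isClosed
  have hfr : frontier (Prod.fst '' K) = Prod.fst '' K := by
    rw [hcl.frontier_eq, hne, sdiff_empty]
  have := (shadow_convex hK).addHaar_frontier (volume : Measure (ℝ × ℝ))
  rw [hfr] at this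
  exact h0 this

theorem tight_lev_eq (hK : Convex ℝ K) (hc : IsCompact K) (hV : volume K ≠ 0) (h01 : z0 < z1)
    (hp : ((y0, z0) : Ec) ∈ K) (hq : ((y0, z1) : Ec) ∈ K)
    (ht : ENNReal.ofReal (z1 - z0) * volume (Prod.fst '' K) = 3 * volume K)
    {τ : ℝ} (hτ : τ ∈ Ico 0 (z1 - z0)) :
    lev K τ = (fun y : ℝ × ℝ => y0 + (1 - τ / (z1 - z0)) • (y - y0)) '' (Prod.fst '' K) := by
  have hh : 0 < z1 - z0 := sub_pos.2 h01
  have hs0 : 0 < 1 - τ / (z1 - z0) := by
    have : τ / (z1 - z0) < 1 := (div_lt_one hh).2 hτ.2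
    linarith
  have hsup := lev_superset hK hc h01 hp hq (τ := τ) ⟨hτ.1, hτ.2.le⟩
  have hΩ0 := shadow_vol_ne_zero hV ht
  refine Subset.antisymm ?_ hsup
  have hcont : Continuous (fun y : ℝ × ℝ => y0 + (1 - τ / (z1 - z0)) • (y - y0)) := by fun_prop
  refine subset_of_volume_le ((hc.image continuous_fst).image hcont).isClosed
    (convex_lev hK hc τ) hsup ?_ (volume_lev_lt_top hc τ).ne ?_
  · obtain ⟨x, hx⟩ := shadow_interior_nonempty hK hc hΩ0
    have hopen : IsOpenMap (fun y : ℝ × ℝ => y0 + (1 - τ / (z1 - z0)) • (y - y0)) := by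
      rw [homothety_fun_eq]
      exact AffineMap.homothety_isOpenMap y0 _ hs0.ne'
    exact ⟨_, (hopen.image_interior_subset _) ⟨x, hx, rfl⟩⟩
  · rw [tight_vol_lev hK hc h01 hp hq ht hτ, homothety_fun_eq, Measure.addHaar_image_homothety]
    have hfr : Module.finrank ℝ (ℝ × ℝ) = 2 := by simp
    rw [hfr, abs_of_nonneg (by positivity)]

theorem tight_fib_top (hK : Convex ℝ K) (hc : IsCompact K) (hV : volume K ≠ 0) (h01 : z0 < z1)
    (hp : ((y0, z0) : Ec) ∈ K) (hq : ((y0, z1) : Ec) ∈ K)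
    (ht : ENNReal.ofReal (z1 - z0) * volume (Prod.fst '' K) = 3 * volume K) :
    fib K y0 = z1 - z0 := by
  have hh : 0 < z1 - z0 := sub_pos.2 h01
  have hΩ0 := shadow_vol_ne_zero hV ht
  have hΩt := shadow_vol_ne_top hc
  apply le_antisymm
  · set F : Set ℝ := {z : ℝ | ((y0, z) : Ec) ∈ K} with hF
    have hFcl : IsClosed F := hc.isClosed.preimage (by fun_prop : Continuous fun z : ℝ => ((y0, z) : Ec))
    have hFc : IsCompact F := Metric.isCompact_of_isClosed_isBounded hFcl (isBounded_chord hc y0)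
    have hFne : F.Nonempty := ⟨z0, hp⟩
    have ha : sInf F ∈ F := hFc.sInf_mem hFne
    have hb : sSup F ∈ F := hFc.sSup_mem hFne
    have hsub : F ⊆ Icc (sInf F) (sSup F) := fun z hz =>
      ⟨csInf_le hFc.bddBelow hz, le_csSup hFc.bddAbove hz⟩
    have h1 : sInf F ≤ z0 := csInf_le hFc.bddBelow hp
    have h2 : z1 ≤ sSup F := le_csSup hFc.bddAbove hq
    have hab : sInf F < sSup F := by linarith
    have hfib : fib K y0 ≤ sSup F - sInf F := by
      have hm : volume F ≤ ENNReal.ofReal (sSup F - sInf F) := by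
        calc volume F ≤ volume (Icc (sInf F) (sSup F)) := measure_mono hsub
          _ = _ := Real.volume_Icc
      have := ENNReal.toReal_mono ENNReal.ofReal_ne_top hm
      rwa [ENNReal.toReal_ofReal (by linarith)] at this
    have hch := chord_coord hK hc hab ha hb
    rw [← ht] at hch
    have hle : ENNReal.ofReal (sSup F - sInf F) ≤ ENNReal.ofReal (z1 - z0) :=
      (ENNReal.mul_le_mul_iff_left hΩ0 hΩt).1 hch
    have := (ENNReal.ofReal_le_ofReal_iff hh.le).1 hle
    linarith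
  · have hsup := lev_superset hK hc h01 hp hq (τ := z1 - z0) ⟨hh.le, le_refl _⟩
    have hmem : y0 ∈ lev K (z1 - z0) := by
      apply hsup
      refine ⟨y0, ⟨(y0, z0), hp, rfl⟩, ?_⟩
      simp
    exact hmem.2

theorem tight_fib (hK : Convex ℝ K) (hc : IsCompact K) (hV : volume K ≠ 0) (h01 : z0 < z1)
    (hp : ((y0, z0) : Ec) ∈ K) (hq : ((y0, z1) : Ec) ∈ K)
    (ht : ENNReal.ofReal (z1 - z0) * volume (Prod.fst '' K) = 3 * volume K)
    {y' : ℝ × ℝ} (hy' : y' ∈ Prod.fst '' K)
    (hexit : ∀ s : ℝ, 1 < s → y0 + s • (y' - y0) ∉ Prod.fst '' K)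
    {t : ℝ} (htt : t ∈ Icc (0 : ℝ) 1) :
    fib K (y0 + t • (y' - y0)) = (1 - t) * (z1 - z0) := by
  have hh : 0 < z1 - z0 := sub_pos.2 h01
  have hlow : y0 + t • (y' - y0) ∈ lev K ((1 - t) * (z1 - z0)) := by
    have hτ : (1 - t) * (z1 - z0) ∈ Icc 0 (z1 - z0) := by
      constructor
      · exact mul_nonneg (by linarith [htt.2]) hh.le
      · nlinarith [htt.1]
    apply lev_superset hK hc h01 hp hq hτ
    refine ⟨y', hy', ?_⟩
    have : 1 - (1 - t) * (z1 - z0) / (z1 - z0) = t := by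
      field_simp
      ring
    simp only [this]
  rcases htt.1.eq_or_lt with h0 | h0
  · subst h0
    simp only [zero_smul, add_zero, sub_zero, one_mul]
    exact tight_fib_top hK hc hV h01 hp hq ht
  apply le_antisymm _ hlow.2
  by_contra hcon
  push Not at hcon
  set φ := fib K (y0 + t • (y' - y0)) with hφ
  set τ := min φ ((1 - t / 2) * (z1 - z0)) with hτdef
  have hτ1 : (1 - t) * (z1 - z0) < τ := by
    apply lt_min hcon
    nlinarith
  have hτ2 : τ < z1 - z0 := by
    apply (min_le_right _ _).trans_lt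
    nlinarith
  have hτ3 : τ ≤ φ := min_le_left _ _
  have hτ0 : 0 ≤ τ := by
    have : 0 ≤ (1 - t) * (z1 - z0) := mul_nonneg (by linarith [htt.2]) hh.le
    linarith
  have hmem : y0 + t • (y' - y0) ∈ lev K τ := ⟨hlow.1, hτ3⟩
  rw [tight_lev_eq hK hc hV h01 hp hq ht ⟨hτ0, hτ2⟩] at hmem
  obtain ⟨y, hy, hyeq⟩ := hmem
  set s := 1 - τ / (z1 - z0) with hs
  have hs0 : 0 < s := by
    have : τ / (z1 - z0) < 1 := (div_lt_one hh).2 hτ2
    linarith
  have hst : s < t := by
    have : 1 - t < τ / (z1 - z0) := (lt_div_iff₀ hh).2 hτ1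
    linarith
  have hyeq' : s • (y - y0) = t • (y' - y0) := add_left_cancel hyeq
  have hy2 : y = y0 + (t / s) • (y' - y0) := by
    have : y - y0 = (t / s) • (y' - y0) := by
      rw [div_eq_inv_mul, mul_smul, ← hyeq', smul_smul, inv_mul_cancel₀ hs0.ne', one_smul]
    rw [← this]
    abel
  apply hexit (t / s) ((one_lt_div hs0).2 hst)
  rw [← hy2]
  exact hy

end Vale.Agent.Lib.P243.Soft
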