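import Mathlib
import Vale.Agent.Lib.P243.Soft.Defs
import Vale.Agent.Lib.P243.Soft.CoordTightFib

/-!
P243 soft, S11: structure of a convex body with a tight vertical chord `[p,q]`, `p = (y0,z0)`, `q = (y0,z1)`.
Let `k = (y,z) ∈ K`.
* If `y ≠ y0`: let `s* = max {s : y0 + s (y - y0) ∈ π K} ≥ 1` (`π K` compact), `y' = y0 + s* (y - y0)` (an exit point),
  `γ ∈ K` over `y'`.  For `t ∈ [0,1]` the fibre of the triangle `conv {p,q,γ}` over `y0 + t (y' - y0)` is the interval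
  `(1-t) [z0,z1] + t γ.2` of length `(1-t) h`; it is contained in the fibre of `K`, a compact interval of the same
  length (`tight_fib`), so the two fibres coincide.  Hence `k ∈ conv {p,q,γ}` (take `t = 1/s*`), the points of `[q,γ]`
  are the top end points of the fibres of `K`, the points of `[p,γ]` the bottom end points.
* If `y = y0`: `k ∈ [p,q]` by `tight_fib_top`; apply the first case to some point of `K` not over `y0`
  (it exists since `vol K ≠ 0`) to get `γ`.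
-/

namespace Vale.Agent.Lib.P243.Soft

open MeasureTheory Set Vale.Agent.Lib.P243.Cap

variable {K : Set Ec} {y0 : ℝ × ℝ} {z0 z1 : ℝ}

/-- If the fibre over `y` contains `a ≤ b` and has length `b - a`, it is contained in `[a,b]`. -/
theorem fibre_bounds (hK : Convex ℝ K) (hc : IsCompact K) {y : ℝ × ℝ} {a b : ℝ} (hab : a ≤ b)
    (ha : ((y, a) : Ec) ∈ K) (hb : ((y, b) : Ec) ∈ K) (hf : fib K y = b - a) {z : ℝ}
    (hz : ((y, z) : Ec) ∈ K) : a ≤ z ∧ z ≤ b := by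
  have hconv := convex_chord hK y
  have hvol : volume {z : ℝ | ((y, z) : Ec) ∈ K} = ENNReal.ofReal (b - a) := by
    rw [← ofReal_fib hc, hf]
  constructor
  · by_contra hlt
    push Not at hlt
    have hsub : Icc z b ⊆ {z : ℝ | ((y, z) : Ec) ∈ K} := hconv.ordConnected.out hz hb
    have h := measure_mono (μ := volume) hsub
    rw [Real.volume_Icc, hvol, ENNReal.ofReal_le_ofReal_iff (by linarith)] at h
    linarith
  · by_contra hlt
    push Not at hlt
    have hsub : Icc a z ⊆ {z : ℝ | ((y, z) : Ec) ∈ K} := hconv.ordConnected.out ha hz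
    have h := measure_mono (μ := volume) hsub
    rw [Real.volume_Icc, hvol, ENNReal.ofReal_le_ofReal_iff (by linarith)] at h
    linarith

/-- Exit points of the shadow along rays from `y0`. -/
theorem exists_exit (hc : IsCompact K) {y : ℝ × ℝ} (hy : y ∈ Prod.fst '' K) (hne : y ≠ y0) :
    ∃ y' ∈ Prod.fst '' K, (∀ s : ℝ, 1 < s → y0 + s • (y' - y0) ∉ Prod.fst '' K) ∧
      ∃ t ∈ Icc (0 : ℝ) 1, y = y0 + t • (y' - y0) := by
  set Ω := Prod.fst '' K with hΩ
  have hΩc : IsCompact Ω := hc.image continuous_fst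
  set f : ℝ → ℝ × ℝ := fun s => y0 + s • (y - y0) with hf
  have hfc : Continuous f := by fun_prop
  set S : Set ℝ := f ⁻¹' Ω with hS
  have hScl : IsClosed S := hΩc.isClosed.preimage hfc
  have hSb : Bornology.IsBounded S := by
    obtain ⟨R, hR⟩ := hΩc.isBounded.subset_closedBall y0
    have hpos : 0 < ‖y - y0‖ := norm_pos_iff.mpr (sub_ne_zero.mpr hne)
    refine (Metric.isBounded_closedBall (x := (0 : ℝ)) (r := R / ‖y - y0‖)).subset ?_
    intro s hs
    have h1 := hR hs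
    rw [mem_closedBall_iff_norm] at h1 ⊢
    simp only [hf, add_sub_cancel_left, norm_smul, sub_zero] at h1 ⊢
    rw [le_div_iff₀ hpos]
    exact h1
  have hScomp : IsCompact S := Metric.isCompact_of_isClosed_isBounded hScl hSb
  have h1S : (1 : ℝ) ∈ S := by
    show f 1 ∈ Ω
    simpa [hf] using hy
  obtain ⟨s0, hs0, hmax⟩ := hScomp.exists_isMaxOn ⟨1, h1S⟩ continuous_id.continuousOn
  have hs1 : 1 ≤ s0 := hmax h1S
  have hs0pos : 0 < s0 := by linarith
  refine ⟨f s0, hs0, ?_, 1 / s0, ⟨by positivity, by rw [div_le_one hs0pos]; exact hs1⟩, ?_⟩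
  · intro s hs hmem
    have h3 : f (s * s0) ∈ Ω := by
      have e : f (s * s0) = y0 + s • (f s0 - y0) := by simp [hf, mul_smul]
      rw [e]
      exact hmem
    have h2 : s * s0 ≤ s0 := hmax h3
    nlinarith
  · simp only [hf, add_sub_cancel_left, smul_smul]
    rw [one_div, inv_mul_cancel₀ hs0pos.ne', one_smul]
    simp

/-- Some point of `K` does not lie over `y0`. -/
theorem exists_off_axis (hV : volume K ≠ 0) (y0 : ℝ × ℝ) : ∃ y ∈ Prod.fst '' K, y ≠ y0 := by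
  by_contra hcon
  push Not at hcon
  apply hV
  have hsub : K ⊆ ({y0} : Set (ℝ × ℝ)) ×ˢ (univ : Set ℝ) := by
    intro k hk
    exact ⟨hcon k.1 ⟨k, hk, rfl⟩, mem_univ _⟩
  refine measure_mono_null hsub ?_
  show ((volume : Measure (ℝ × ℝ)).prod (volume : Measure ℝ)) _ = 0
  rw [Measure.prod_prod]
  simp

theorem tight_structure_coord (hK : Convex ℝ K) (hc : IsCompact K) (hV : volume K ≠ 0)
    (h01 : z0 < z1) (hp : ((y0, z0) : Ec) ∈ K) (hq : ((y0, z1) : Ec) ∈ K)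
    (ht : ENNReal.ofReal (z1 - z0) * volume (Prod.fst '' K) = 3 * volume K)
    {k : Ec} (hk : k ∈ K) :
    ∃ γ ∈ K, k ∈ convexHull ℝ ({((y0, z0) : Ec), ((y0, z1) : Ec), γ} : Set Ec) ∧
      (∀ x ∈ segment ℝ ((y0, z1) : Ec) γ, ∀ δ : ℝ, 0 < δ → x + (((0, 0), δ) : Ec) ∉ K) ∧
      (∀ x ∈ segment ℝ ((y0, z0) : Ec) γ, ∀ δ : ℝ, 0 < δ → x - (((0, 0), δ) : Ec) ∉ K) := by
  -- the exit point
  have hex : ∃ y' ∈ Prod.fst '' K, (∀ s : ℝ, 1 < s → y0 + s • (y' - y0) ∉ Prod.fst '' K) ∧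
      ∃ t ∈ Icc (0 : ℝ) 1, k.1 = y0 + t • (y' - y0) := by
    by_cases hky : k.1 = y0
    · obtain ⟨y, hy, hne⟩ := exists_off_axis hV y0
      obtain ⟨y', hy', hexit, -⟩ := exists_exit hc hy hne
      exact ⟨y', hy', hexit, 0, ⟨le_rfl, zero_le_one⟩, by simp [hky]⟩
    · exact exists_exit hc ⟨k, hk, rfl⟩ hky
  obtain ⟨y', hy', hexit, t, htt, hkt⟩ := hex
  obtain ⟨⟨y'', g⟩, hγK, hγ1⟩ := hy'
  simp only at hγ1
  subst hγ1
  -- the two sides of the triangle
  have hcomb : ∀ (τ z : ℝ), (1 - τ) • ((y0, z) : Ec) + τ • ((y'', g) : Ec)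
      = (y0 + τ • (y'' - y0), (1 - τ) * z + τ * g) := by
    intro τ z
    refine Prod.ext ?_ ?_
    · show (1 - τ) • y0 + τ • y'' = y0 + τ • (y'' - y0)
      rw [sub_smul, one_smul, smul_sub]
      abel
    · rfl
  have hP : ∀ τ ∈ Icc (0 : ℝ) 1, ((y0 + τ • (y'' - y0), (1 - τ) * z0 + τ * g) : Ec) ∈ K := by
    intro τ hτ
    rw [← hcomb]
    exact hK hp hγK (by linarith [hτ.2]) hτ.1 (by ring)
  have hQ : ∀ τ ∈ Icc (0 : ℝ) 1, ((y0 + τ • (y'' - y0), (1 - τ) * z1 + τ * g) : Ec) ∈ K := by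
    intro τ hτ
    rw [← hcomb]
    exact hK hq hγK (by linarith [hτ.2]) hτ.1 (by ring)
  have hfb : ∀ τ ∈ Icc (0 : ℝ) 1, ∀ z : ℝ, ((y0 + τ • (y'' - y0), z) : Ec) ∈ K →
      (1 - τ) * z0 + τ * g ≤ z ∧ z ≤ (1 - τ) * z1 + τ * g := by
    intro τ hτ z hz
    have h1 : 0 ≤ 1 - τ := by linarith [hτ.2]
    refine fibre_bounds hK hc ?_ (hP τ hτ) (hQ τ hτ) ?_ hz
    · nlinarith
    · rw [tight_fib hK hc hV h01 hp hq ht ⟨_, hγK, rfl⟩ hexit hτ]
      ring
  have hseg : ∀ (z : ℝ), ∀ x ∈ segment ℝ ((y0, z) : Ec) ((y'', g) : Ec), ∃ τ ∈ Icc (0 : ℝ) 1,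
      x = (y0 + τ • (y'' - y0), (1 - τ) * z + τ * g) := by
    rintro z x ⟨α, β, hα, hβ, hαβ, rfl⟩
    have hα' : α = 1 - β := by linarith
    refine ⟨β, ⟨hβ, by linarith⟩, ?_⟩
    rw [hα', hcomb]
  refine ⟨(y'', g), hγK, ?_, ?_, ?_⟩
  · have hcv := convex_convexHull ℝ ({((y0, z0) : Ec), ((y0, z1) : Ec), ((y'', g) : Ec)} : Set Ec)
    have hp' : ((y0, z0) : Ec) ∈ convexHull ℝ ({((y0, z0) : Ec), ((y0, z1) : Ec), ((y'', g) : Ec)} : Set Ec) :=
      subset_convexHull _ _ (by simp)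
    have hq' : ((y0, z1) : Ec) ∈ convexHull ℝ ({((y0, z0) : Ec), ((y0, z1) : Ec), ((y'', g) : Ec)} : Set Ec) :=
      subset_convexHull _ _ (by simp)
    have hg' : ((y'', g) : Ec) ∈ convexHull ℝ ({((y0, z0) : Ec), ((y0, z1) : Ec), ((y'', g) : Ec)} : Set Ec) :=
      subset_convexHull _ _ (by simp)
    have h1 : 0 ≤ 1 - t := by linarith [htt.2]
    have hPt := hcv hp' hg' h1 htt.1 (by ring)
    have hQt := hcv hq' hg' h1 htt.1 (by ring)
    rw [hcomb] at hPt hQt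
    have hkz : ((y0 + t • (y'' - y0), k.2) : Ec) ∈ K := by
      rw [← hkt]
      exact hk
    obtain ⟨hlo, hhi⟩ := hfb t htt k.2 hkz
    have hks : k ∈ segment ℝ ((y0 + t • (y'' - y0), (1 - t) * z0 + t * g) : Ec)
        ((y0 + t • (y'' - y0), (1 - t) * z1 + t * g) : Ec) := by
      rw [← Prod.image_mk_segment_right, segment_eq_Icc (hlo.trans hhi)]
      exact ⟨k.2, ⟨hlo, hhi⟩, Prod.ext hkt.symm rfl⟩
    exact hcv.segment_subset hPt hQt hks
  · intro x hx δ hδ hmem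
    obtain ⟨τ, hτ, rfl⟩ := hseg z1 x hx
    have e : ((y0 + τ • (y'' - y0), (1 - τ) * z1 + τ * g) : Ec) + (((0, 0), δ) : Ec)
        = (y0 + τ • (y'' - y0), (1 - τ) * z1 + τ * g + δ) := by
      refine Prod.ext ?_ rfl
      show y0 + τ • (y'' - y0) + (0, 0) = _
      exact add_zero _
    rw [e] at hmem
    have := (hfb τ hτ _ hmem).2
    linarith
  · intro x hx δ hδ hmem
    obtain ⟨τ, hτ, rfl⟩ := hseg z0 x hx
    have e : ((y0 + τ • (y'' - y0), (1 - τ) * z0 + τ * g) : Ec) - (((0, 0), δ) : Ec)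
        = (y0 + τ • (y'' - y0), (1 - τ) * z0 + τ * g - δ) := by
      refine Prod.ext ?_ rfl
      show y0 + τ • (y'' - y0) - (0, 0) = _
      exact sub_zero _
    rw [e] at hmem
    have := (hfb τ hτ _ hmem).1
    linarith

end Vale.Agent.Lib.P243.Soft
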