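import Mathlib
import Vale.Agent.Lib.P243.Soft.Defs

/-!
P243 soft, S13: `v ↦ vol (K + [0,v])` is upper semicontinuous for compact `K`.
`K + [0,v] ⊆ cthickening ‖v - v0‖ (K + [0,v0])`, `K + [0,v0]` is compact, and
`tendsto_measure_cthickening_of_isCompact`.
-/

namespace Vale.Agent.Lib.P243.Soft

open MeasureTheory Set
open scoped Pointwise

theorem sweep_subset_cthickening (K : Set Space) (v v0 : Space) :
    sweep K v ⊆ Metric.cthickening ‖v - v0‖ (sweep K v0) := by
  rintro x ⟨k, hk, s, hs, rfl⟩
  rw [segment_eq_image] at hs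
  obtain ⟨t, ht, rfl⟩ := hs
  have hmem : k + ((1 - t) • (0 : Space) + t • v0) ∈ sweep K v0 := by
    refine ⟨k, hk, _, ?_, rfl⟩
    rw [segment_eq_image]
    exact ⟨t, ht, rfl⟩
  refine Metric.mem_cthickening_of_dist_le _ _ _ _ hmem ?_
  rw [dist_eq_norm]
  have e : k + ((1 - t) • (0 : Space) + t • v) - (k + ((1 - t) • (0 : Space) + t • v0))
      = t • (v - v0) := by
    rw [smul_sub]; abel
  simp only at e ⊢
  rw [e, norm_smul, Real.norm_eq_abs, abs_of_nonneg ht.1]
  exact mul_le_of_le_one_left (norm_nonneg _) ht.2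

theorem sweep_usc {K : Set Space} (hc : IsCompact K) :
    UpperSemicontinuous (fun v : Space => volume (sweep K v)) := by
  intro v0 y hy
  have hseg : IsCompact (segment ℝ (0 : Space) v0) := by
    rw [segment_eq_image]
    exact isCompact_Icc.image (by fun_prop)
  have hcs : IsCompact (sweep K v0) := hc.add hseg
  have ht : Filter.Tendsto (fun r => (volume : Measure Space) (Metric.cthickening r (sweep K v0)))
      (nhds 0) (nhds (volume (sweep K v0))) := tendsto_measure_cthickening_of_isCompact hcs
  have hn : Filter.Tendsto (fun v : Space => ‖v - v0‖) (nhds v0) (nhds 0) := by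
    have : Continuous (fun v : Space => ‖v - v0‖) := by fun_prop
    have h := this.tendsto v0
    simpa using h
  have h2 := (ht.comp hn).eventually (gt_mem_nhds hy)
  filter_upwards [h2] with v hv
  exact (measure_mono (sweep_subset_cthickening K v v0)).trans_lt hv

end Vale.Agent.Lib.P243.Soft
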