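import Mathlib
import Vale.Agent.Lib.P243.Soft.Defs

/-!
P243 soft, S29: the fraction `mfrac S p q` of the segment `[p,q]` inside an open set `S`.
* `isOpen_mfrac` (lower semicontinuity).  Let `σ < mfrac S p0 q0`.  `T0 = {t ∈ [0,1] : p0 + t (q0 - p0) ∈ S}` is measurable of measure `> σ`; by inner
  regularity there is a compact `T1 ⊆ T0` with `|T1| > σ`.  The compact set `{p0 + t (q0 - p0) : t ∈ T1} ⊆ S` has a positive distance `2δ` from `Sᶜ`
  (`IsCompact.exists_thickening_subset_open`).  If `‖p - p0‖, ‖q - q0‖ < δ` then `‖(p + t (q - p)) - (p0 + t (q0 - p0))‖ < 2δ`... (it is a convex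
  combination of `p - p0` and `q - q0`, so even `< δ`) for `t ∈ [0,1]`, so `T1 ⊆ T(p,q)` and `mfrac S p q ≥ |T1| > σ`.
  (If `σ < 0` the set is everything.)
* the other statements are immediate (`{t ∈ [0,1] : ...} ⊇ [0,η]`, resp. `⊇ [1-η,1]` via `q + t (p - q) = p + (1-t)(q - p)`).
-/

namespace Vale.Agent.Lib.P243.Soft

open MeasureTheory Set

theorem mfrac_vol_le_one (S : Set Space) (p q : Space) :
    volume {t : ℝ | t ∈ Icc (0 : ℝ) 1 ∧ p + t • (q - p) ∈ S} ≤ 1 := by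
  calc volume {t : ℝ | t ∈ Icc (0 : ℝ) 1 ∧ p + t • (q - p) ∈ S} ≤ volume (Icc (0 : ℝ) 1) :=
        measure_mono (fun t ht => ht.1)
    _ = 1 := by simp

theorem mfrac_vol_ne_top (S : Set Space) (p q : Space) :
    volume {t : ℝ | t ∈ Icc (0 : ℝ) 1 ∧ p + t • (q - p) ∈ S} ≠ ⊤ :=
  ne_top_of_le_ne_top ENNReal.one_ne_top (mfrac_vol_le_one S p q)

theorem mfrac_nonneg (S : Set Space) (p q : Space) : 0 ≤ mfrac S p q :=
  ENNReal.toReal_nonneg

theorem mfrac_le_one (S : Set Space) (p q : Space) : mfrac S p q ≤ 1 := by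
  have h := ENNReal.toReal_mono ENNReal.one_ne_top (mfrac_vol_le_one S p q)
  simpa [mfrac] using h

theorem isOpen_mfrac {S : Set Space} (hS : IsOpen S) (σ : ℝ) :
    IsOpen {pq : Space × Space | σ < mfrac S pq.1 pq.2} := by
  by_cases hσ : σ < 0
  · have : {pq : Space × Space | σ < mfrac S pq.1 pq.2} = univ := by
      ext pq
      simp only [mem_ofPred_eq, mem_univ, iff_true]
      exact lt_of_lt_of_le hσ (mfrac_nonneg S _ _)
    rw [this]
    exact isOpen_univ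
  have hσ0 : 0 ≤ σ := not_lt.mp hσ
  rw [Metric.isOpen_iff]
  rintro ⟨p0, q0⟩ h0
  simp only [mem_ofPred_eq] at h0
  have hcont : Continuous fun t : ℝ => p0 + t • (q0 - p0) := by fun_prop
  have hmeas : MeasurableSet {t : ℝ | t ∈ Icc (0 : ℝ) 1 ∧ p0 + t • (q0 - p0) ∈ S} :=
    measurableSet_Icc.inter (hS.preimage hcont).measurableSet
  have hlt : ENNReal.ofReal σ < volume {t : ℝ | t ∈ Icc (0 : ℝ) 1 ∧ p0 + t • (q0 - p0) ∈ S} :=
    (ENNReal.ofReal_lt_iff_lt_toReal hσ0 (mfrac_vol_ne_top S p0 q0)).2 h0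
  obtain ⟨T1, hT1sub, hT1c, hT1lt⟩ :=
    hmeas.exists_lt_isCompact_of_ne_top (mfrac_vol_ne_top S p0 q0) hlt
  have hCc : IsCompact ((fun t : ℝ => p0 + t • (q0 - p0)) '' T1) := hT1c.image hcont
  have hCsub : ((fun t : ℝ => p0 + t • (q0 - p0)) '' T1) ⊆ S := by
    rintro _ ⟨t, ht, rfl⟩
    exact (hT1sub ht).2
  obtain ⟨δ, hδ, hthick⟩ := hCc.exists_thickening_subset_open hS hCsub
  refine ⟨δ, hδ, ?_⟩
  rintro ⟨p, q⟩ hpq
  simp only [mem_ofPred_eq]
  rw [Metric.mem_ball, Prod.dist_eq, max_lt_iff] at hpq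
  obtain ⟨hp, hq⟩ := hpq
  simp only at hp hq
  rw [dist_eq_norm] at hp hq
  have hsub : T1 ⊆ {t : ℝ | t ∈ Icc (0 : ℝ) 1 ∧ p + t • (q - p) ∈ S} := by
    intro t ht
    have ht01 := (hT1sub ht).1
    refine ⟨ht01, hthick ?_⟩
    rw [Metric.mem_thickening_iff]
    refine ⟨p0 + t • (q0 - p0), ⟨t, ht, rfl⟩, ?_⟩
    rw [dist_eq_norm]
    have heq : p + t • (q - p) - (p0 + t • (q0 - p0)) = (1 - t) • (p - p0) + t • (q - q0) := by
      module
    rw [heq]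
    have h1 : ‖(1 - t) • (p - p0) + t • (q - q0)‖ ≤ (1 - t) * ‖p - p0‖ + t * ‖q - q0‖ := by
      refine (norm_add_le _ _).trans ?_
      rw [norm_smul, norm_smul, Real.norm_of_nonneg (by linarith [ht01.2]),
        Real.norm_of_nonneg ht01.1]
    refine lt_of_le_of_lt h1 ?_
    rcases eq_or_lt_of_le ht01.1 with h00 | h00
    · rw [← h00]
      simpa using hp
    · have h2 : (1 - t) * ‖p - p0‖ ≤ (1 - t) * δ :=
        mul_le_mul_of_nonneg_left hp.le (by linarith [ht01.2])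
      have h3 : t * ‖q - q0‖ < t * δ := mul_lt_mul_of_pos_left hq h00
      nlinarith
  have hlt2 : ENNReal.ofReal σ < volume {t : ℝ | t ∈ Icc (0 : ℝ) 1 ∧ p + t • (q - p) ∈ S} :=
    lt_of_lt_of_le hT1lt (measure_mono hsub)
  exact (ENNReal.ofReal_lt_iff_lt_toReal hσ0 (mfrac_vol_ne_top S p q)).1 hlt2

theorem le_mfrac_left {S : Set Space} {p q : Space} {η : ℝ} (hη : η ∈ Icc (0 : ℝ) 1)
    (h : ∀ t ∈ Icc (0 : ℝ) η, p + t • (q - p) ∈ S) : η ≤ mfrac S p q := by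
  have hsub : Icc (0 : ℝ) η ⊆ {t : ℝ | t ∈ Icc (0 : ℝ) 1 ∧ p + t • (q - p) ∈ S} :=
    fun t ht => ⟨⟨ht.1, ht.2.trans hη.2⟩, h t ht⟩
  have h1 := ENNReal.toReal_mono (mfrac_vol_ne_top S p q) (measure_mono hsub)
  rw [Real.volume_Icc, sub_zero, ENNReal.toReal_ofReal hη.1] at h1
  exact h1

theorem le_mfrac_right {S : Set Space} {p q : Space} {η : ℝ} (hη : η ∈ Icc (0 : ℝ) 1)
    (h : ∀ t ∈ Icc (0 : ℝ) η, q + t • (p - q) ∈ S) : η ≤ mfrac S p q := by
  have hsub : Icc (1 - η) 1 ⊆ {t : ℝ | t ∈ Icc (0 : ℝ) 1 ∧ p + t • (q - p) ∈ S} := by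
    intro t ht
    refine ⟨⟨by linarith [ht.1, hη.2], ht.2⟩, ?_⟩
    have h2 := h (1 - t) ⟨by linarith [ht.2], by linarith [ht.1]⟩
    have heq : q + (1 - t) • (p - q) = p + t • (q - p) := by module
    rwa [heq] at h2
  have h1 := ENNReal.toReal_mono (mfrac_vol_ne_top S p q) (measure_mono hsub)
  rw [Real.volume_Icc, ENNReal.toReal_ofReal (by linarith [hη.1])] at h1
  have : (1 : ℝ) - (1 - η) = η := by ring
  rw [this] at h1
  exact h1

end Vale.Agent.Lib.P243.Soft
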