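import Mathlib
import Vale.Agent.Lib.P243.Soft.Defs
import Vale.Agent.Lib.P243.Soft.HH
import Vale.Agent.Lib.P243.Soft.HHusc
import Vale.Agent.Lib.P243.Soft.MFrac

/-!
P243 soft, S32: chords that are not caught by `S` are uniformly non-tight.
`C = {(p,q) ∈ K × K : mfrac S p q ≤ σ}` is compact (closed in `K ×ˢ K` by `isOpen_mfrac`).  `f (p,q) = vol (sweep K (q - p))` is upper semicontinuous
(`sweep_usc` composed with a continuous map).  If `C = ∅` take `d = 1/2`.  Otherwise `f` attains its maximum on `C` at `(p*,q*)`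
(`UpperSemicontinuousOn.exists_isMaxOn`).  `f (p*,q*) ≤ 4 vol K` (`hh_le`, `volume_sweep`) and `≠ 4 vol K` (otherwise `Tight K p* q*`, so `σ < mfrac`).
So `hh K (q - p) = f - vol K ≤ f(p*,q*) - vol K < 3 vol K` on `C`; pick `d ∈ (0,1)` with `f(p*,q*) - vol K ≤ (1-d) 3 vol K` (`0 < vol K < ∞`).
-/

namespace Vale.Agent.Lib.P243.Soft

open MeasureTheory Set

/-- a number strictly below `B` (finite) is at most `(1-d) B` for some `d ∈ (0,1)` -/
theorem exists_factor {a B : ENNReal} (hB : B ≠ ⊤) (h : a < B) :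
    ∃ d ∈ Ioo (0 : ℝ) 1, a ≤ ENNReal.ofReal (1 - d) * B := by
  have ha : a ≠ ⊤ := ne_top_of_lt h
  have hab : a.toReal < B.toReal := (ENNReal.toReal_lt_toReal ha hB).2 h
  have ha0 : 0 ≤ a.toReal := ENNReal.toReal_nonneg
  have hb0 : 0 < B.toReal := lt_of_le_of_lt ha0 hab
  refine ⟨(B.toReal - a.toReal) / (2 * B.toReal), ⟨div_pos (by linarith) (by positivity), ?_⟩, ?_⟩
  · rw [div_lt_one (by positivity)]
    linarith
  · have e : (1 - (B.toReal - a.toReal) / (2 * B.toReal)) * B.toReal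
        = (a.toReal + B.toReal) / 2 := by
      field_simp
      ring
    have h1 : 0 ≤ 1 - (B.toReal - a.toReal) / (2 * B.toReal) := by
      have : (B.toReal - a.toReal) / (2 * B.toReal) < 1 := by
        rw [div_lt_one (by positivity)]
        linarith
      linarith
    calc a = ENNReal.ofReal a.toReal := (ENNReal.ofReal_toReal ha).symm
      _ ≤ ENNReal.ofReal ((1 - (B.toReal - a.toReal) / (2 * B.toReal)) * B.toReal) := by
          apply ENNReal.ofReal_le_ofReal
          rw [e]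
          linarith
      _ = ENNReal.ofReal (1 - (B.toReal - a.toReal) / (2 * B.toReal)) * B := by
          rw [ENNReal.ofReal_mul h1, ENNReal.ofReal_toReal hB]

set_option linter.unusedVariables false in
theorem exists_gap {K : Set Space} (hK : Convex ℝ K) (hc : IsCompact K) (hV : volume K ≠ 0)
    {S : Set Space} (hS : IsOpen S) {σ : ℝ} (hT : ∀ p q, Tight K p q → σ < mfrac S p q) :
    ∃ d ∈ Ioo (0 : ℝ) 1, ∀ p ∈ K, ∀ q ∈ K, mfrac S p q ≤ σ →
      hh K (q - p) ≤ ENNReal.ofReal (1 - d) * (3 * volume K) := by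
  have hVt : volume K ≠ ⊤ := hc.measure_lt_top.ne
  set C : Set (Space × Space) := (K ×ˢ K) ∩ {pq : Space × Space | σ < mfrac S pq.1 pq.2}ᶜ with hC
  have hCc : IsCompact C := (hc.prod hc).inter_right (isOpen_mfrac hS σ).isClosed_compl
  have hmem : ∀ p q, (p, q) ∈ C ↔ p ∈ K ∧ q ∈ K ∧ mfrac S p q ≤ σ := by
    intro p q
    simp only [hC, mem_inter_iff, mem_prod, mem_compl_iff, mem_ofPred_eq, not_lt]
    tauto
  by_cases hne : C.Nonempty
  · have hf : UpperSemicontinuous
        ((fun v : Space => volume (sweep K v)) ∘ (fun pq : Space × Space => pq.2 - pq.1)) :=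
      (sweep_usc hc).comp (by fun_prop)
    obtain ⟨⟨p0, q0⟩, h0, hmax⟩ :=
      UpperSemicontinuousOn.exists_isMaxOn hne hCc (hf.upperSemicontinuousOn C)
    obtain ⟨hp0, hq0, hm0⟩ := (hmem p0 q0).1 h0
    have hle : hh K (q0 - p0) ≤ 3 * volume K := hh_le hK hc hp0 hq0
    have hlt : hh K (q0 - p0) < 3 * volume K := by
      refine lt_of_le_of_ne hle (fun he => ?_)
      have ht : Tight K p0 q0 := by
        refine ⟨hp0, hq0, ?_⟩
        rw [volume_sweep hc, he]
        ring
      exact absurd (hT p0 q0 ht) (not_lt.2 hm0)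
    obtain ⟨d, hd, hd'⟩ := exists_factor (ENNReal.mul_ne_top (by norm_num) hVt) hlt
    refine ⟨d, hd, fun p hp q hq hm => le_trans ?_ hd'⟩
    have h1 : volume (sweep K (q - p)) ≤ volume (sweep K (q0 - p0)) := by
      have h2 := isMaxOn_iff.1 hmax (p, q) ((hmem p q).2 ⟨hp, hq, hm⟩)
      simpa only [Function.comp_apply] using h2
    rw [volume_sweep hc, volume_sweep hc] at h1
    exact (ENNReal.add_le_add_iff_left hVt).1 h1
  · refine ⟨1 / 2, ⟨by norm_num, by norm_num⟩, fun p hp q hq hm => ?_⟩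
    exact absurd ⟨(p, q), (hmem p q).2 ⟨hp, hq, hm⟩⟩ hne

end Vale.Agent.Lib.P243.Soft
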