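import Mathlib
import Vale.Agent.Lib.P243.Soft.Defs

/-!
P243 soft, S17: elementary facts on the gauge `g = gauge K` of a convex neighbourhood `K` of `0` and its
Fréchet derivative `D` at a point `p`.
* `tangent_le`: `g` convex: `(g (p + t (x - p)) - g p)/t ≤ g x - g p` for `t ∈ (0,1]`; let `t → 0+`.
* `deriv_seg_zero`: `g (p + t (γ - p)) = 1 = g p` for `t ∈ [0,1]`, so the directional derivative vanishes.
* `deriv_self`: `g ((1+t) p) = (1+t) g p` for `t > -1`.
* `gauge_lt_one_of_deriv_neg`: `g (p + t w) = 1 + t D w + o(t)`.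
* `const_on_seg`: a convex function `≤ 1` on `[0,1]` equal to `1` at an interior point is `≡ 1`.
-/

namespace Vale.Agent.Lib.P243.Soft

open MeasureTheory Set

variable {K : Set Space} {D : Space →L[ℝ] ℝ} {p : Space}

/-- right slopes along a line converge to the directional derivative -/
lemma slope_tendsto (hD : HasFDerivAt (gauge K) D p) (w : Space) :
    Filter.Tendsto (fun t : ℝ => t⁻¹ * (gauge K (p + t • w) - gauge K p))
      (nhdsWithin 0 (Ioi 0)) (nhds (D w)) := by
  have h := (hD.hasLineDerivAt w).tendsto_slope_zero_right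
  simpa only [smul_eq_mul] using h

/-- the interval `(0,1]` is a right neighbourhood of `0` -/
lemma Ioc_mem_nhdsGT_zero : Ioc (0 : ℝ) 1 ∈ nhdsWithin (0 : ℝ) (Ioi 0) :=
  Ioc_mem_nhdsGT one_pos

/-- convexity of the gauge -/
lemma gauge_comb_le (hK : Convex ℝ K) (h0 : K ∈ nhds (0 : Space)) {α β : ℝ} (hα : 0 ≤ α)
    (hβ : 0 ≤ β) (x y : Space) :
    gauge K (α • x + β • y) ≤ α * gauge K x + β * gauge K y := by
  have h := gauge_add_le hK (absorbent_nhds_zero h0) (α • x) (β • y)
  rw [gauge_smul_of_nonneg hα, gauge_smul_of_nonneg hβ, smul_eq_mul, smul_eq_mul] at h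
  exact h

theorem tangent_le (hK : Convex ℝ K) (h0 : K ∈ nhds (0 : Space))
    (hD : HasFDerivAt (gauge K) D p) (x : Space) : gauge K p + D (x - p) ≤ gauge K x := by
  have h := slope_tendsto hD (x - p)
  have hle : D (x - p) ≤ gauge K x - gauge K p := by
    refine le_of_tendsto h ?_
    filter_upwards [Ioc_mem_nhdsGT_zero] with t ht
    have hc := gauge_comb_le hK h0 (sub_nonneg.2 ht.2) ht.1.le p x
    have he : p + t • (x - p) = (1 - t) • p + t • x := by
      rw [smul_sub, sub_smul, one_smul]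
      abel
    rw [he, inv_mul_le_iff₀ ht.1]
    nlinarith
  linarith

theorem deriv_seg_zero (hD : HasFDerivAt (gauge K) D p) {γ : Space}
    (hseg : ∀ x ∈ segment ℝ p γ, gauge K x = 1) : D (γ - p) = 0 := by
  have h := slope_tendsto hD (γ - p)
  refine tendsto_nhds_unique h ?_
  refine (Filter.tendsto_congr' ?_).2 tendsto_const_nhds
  filter_upwards [Ioc_mem_nhdsGT_zero] with t ht
  have h1 : gauge K p = 1 := hseg p (left_mem_segment ℝ p γ)
  have h2 : gauge K (p + t • (γ - p)) = 1 := by
    apply hseg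
    rw [segment_eq_image']
    exact ⟨t, ⟨ht.1.le, ht.2⟩, rfl⟩
  rw [h1, h2, sub_self, mul_zero]

theorem deriv_self (hD : HasFDerivAt (gauge K) D p) : D p = gauge K p := by
  have h := slope_tendsto hD p
  refine tendsto_nhds_unique h ?_
  refine (Filter.tendsto_congr' ?_).2 tendsto_const_nhds
  filter_upwards [Ioc_mem_nhdsGT_zero] with t ht
  have he : p + t • p = (1 + t) • p := by rw [add_smul, one_smul]
  have h1 : (0 : ℝ) ≤ 1 + t := by linarith [ht.1]
  rw [he, gauge_smul_of_nonneg h1, smul_eq_mul]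
  have : t ≠ 0 := ht.1.ne'
  field_simp
  ring

theorem gauge_lt_one_of_deriv_neg (hD : HasFDerivAt (gauge K) D p) (hp : gauge K p = 1)
    {w : Space} (hw : D w < 0) : ∃ t0 : ℝ, 0 < t0 ∧ ∀ t ∈ Ioc 0 t0, gauge K (p + t • w) < 1 := by
  have h := slope_tendsto hD w
  have hev := h.eventually (gt_mem_nhds hw)
  obtain ⟨t0, ht0, hsub⟩ := mem_nhdsGT_iff_exists_Ioc_subset.1 hev
  refine ⟨t0, ht0, fun t ht => ?_⟩
  have h1 : t⁻¹ * (gauge K (p + t • w) - gauge K p) < 0 := hsub ht
  rw [hp] at h1
  have h2 : 0 < t⁻¹ := inv_pos.2 ht.1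
  have h3 : gauge K (p + t • w) - 1 < 0 := by
    by_contra hcon
    push Not at hcon
    have := mul_nonneg h2.le hcon
    linarith
  linarith

theorem const_on_seg (hK : Convex ℝ K) (h0 : K ∈ nhds (0 : Space)) {a b : Space}
    (ha : gauge K a ≤ 1) (hb : gauge K b ≤ 1) {t : ℝ} (ht : t ∈ Ioo (0 : ℝ) 1)
    (h : gauge K ((1 - t) • a + t • b) = 1) :
    ∀ s ∈ Icc (0 : ℝ) 1, gauge K ((1 - s) • a + s • b) = 1 := by
  intro s hs
  have hup : ∀ r ∈ Icc (0 : ℝ) 1, gauge K ((1 - r) • a + r • b) ≤ 1 := by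
    intro r hr
    have := gauge_comb_le hK h0 (sub_nonneg.2 hr.2) hr.1 a b
    nlinarith [hr.1, hr.2]
  refine le_antisymm (hup s hs) ?_
  rcases lt_trichotomy s t with hst | hst | hst
  · -- `t` lies between `s` and `1`
    have h1s : 0 < 1 - s := by linarith [ht.2]
    set lam : ℝ := (t - s) / (1 - s) with hlam
    have hl0 : 0 ≤ lam := div_nonneg (by linarith) h1s.le
    have hl1 : lam < 1 := by
      rw [hlam, div_lt_one h1s]
      linarith [ht.2]
    have hlam' : lam * (1 - s) = t - s := by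
      rw [hlam]
      field_simp
    have he : (1 - t) • a + t • b = (1 - lam) • ((1 - s) • a + s • b) + lam • b := by
      rw [smul_add, smul_smul, smul_smul, add_assoc, ← add_smul]
      congr 2
      · nlinarith
      · nlinarith
    have hc := gauge_comb_le hK h0 (sub_nonneg.2 hl1.le) hl0 ((1 - s) • a + s • b) b
    rw [← he, h] at hc
    have h2 : 0 < 1 - lam := by linarith
    by_contra hcon
    push Not at hcon
    nlinarith
  · rw [hst, h]
  · -- `t` lies between `0` and `s`
    have hs0 : 0 < s := ht.1.trans hst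
    set lam : ℝ := t / s with hlam
    have hl0 : 0 < lam := div_pos ht.1 hs0
    have hl1 : lam ≤ 1 := by
      rw [hlam, div_le_one hs0]
      exact hst.le
    have hlam' : lam * s = t := by
      rw [hlam]
      field_simp
    have he : (1 - t) • a + t • b = (1 - lam) • a + lam • ((1 - s) • a + s • b) := by
      rw [smul_add, smul_smul, smul_smul, ← add_assoc, ← add_smul]
      congr 2
      · nlinarith
      · exact hlam'.symm
    have hc := gauge_comb_le hK h0 (sub_nonneg.2 hl1) hl0.le a ((1 - s) • a + s • b)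
    rw [← he, h] at hc
    by_contra hcon
    push Not at hcon
    nlinarith

end Vale.Agent.Lib.P243.Soft
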