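import Mathlib
import Vale.Agent.Lib.P243.Soft.Defs
import Vale.Agent.Lib.P243.Soft.Image1
import Vale.Agent.Lib.P243.Soft.Image2
import Vale.Agent.Lib.P243.Soft.Coords
import Vale.Agent.Lib.P243.Soft.CoordSweep
import Vale.Agent.Lib.P243.Soft.CoordStruct

/-!
P243 soft, S16: structure of a convex body with a tight chord, coordinate free.
`Tight K p q` forces `q ≠ p` (`sweep K 0 = K`, `vol K ≠ 0, ∞`).  Take `Φ` with `Φ (q - p) = e_3`, so `Φ p = (y0,z0)`,
`Φ q = (y0, z0 + 1)`.  `vol (sweep (Φ K) e_3) = 4 vol (Φ K)` (`sweep_image`, `exists_scale`) and `sweep_coord` give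
`1 * |π Φ K| = 3 vol (Φ K)`.  Apply `tight_structure_coord` to `Φ k`, pull back `γ` by `Φ.symm`
(linear maps commute with `convexHull` and `segment`).  A point `x ∈ K` with `x + δ (q - p) ∉ K` for all `δ > 0` (or
`x - δ (q-p) ∉ K`) is not interior to `K`, hence `gauge K x = 1` (`gauge K x ≤ 1` as `x ∈ K`; `gauge K x < 1` implies
`x ∈ interior K`, `interior_subset_gauge_lt_one`/`gauge_lt_one_eq_interior`-type lemmas).
-/

namespace Vale.Agent.Lib.P243.Soft

open MeasureTheory Set

/-- A point of `K` which leaves `K` at once in the direction `w` lies on the gauge sphere. -/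
theorem gauge_eq_one_of_exit {K : Set Space} (hK : Convex ℝ K) (h0 : K ∈ nhds (0 : Space))
    {x w : Space} (hx : x ∈ K) (hw : ∀ δ : ℝ, 0 < δ → x + δ • w ∉ K) : gauge K x = 1 := by
  refine le_antisymm (gauge_le_one_of_mem hx) ?_
  by_contra hlt
  rw [not_le] at hlt
  have hint : x ∈ interior K := (gauge_lt_one_iff_mem_interior hK h0).1 hlt
  have hnh : K ∈ nhds x := mem_interior_iff_mem_nhds.1 hint
  have hcont : Filter.Tendsto (fun δ : ℝ => x + δ • w) (nhds 0) (nhds x) := by
    have h1 : Continuous (fun δ : ℝ => x + δ • w) := by fun_prop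
    have h2 := h1.tendsto 0
    simpa using h2
  have hev : ∀ᶠ δ : ℝ in nhds 0, x + δ • w ∈ K := hcont hnh
  obtain ⟨ε, hε, hball⟩ := Metric.eventually_nhds_iff.1 hev
  have hmem : x + (ε / 2) • w ∈ K := by
    apply hball
    rw [Real.dist_eq, sub_zero, abs_of_pos (by positivity)]
    linarith
  exact hw (ε / 2) (by positivity) hmem

theorem sweep_zero_eq {K : Set Space} : sweep K (0 : Space) = K := by
  unfold sweep
  rw [segment_same]
  simp

theorem tight_structure {K : Set Space} (hK : Convex ℝ K) (hc : IsCompact K)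
    (h0 : K ∈ nhds (0 : Space)) {p q : Space} (ht : Tight K p q) {k : Space} (hk : k ∈ K) :
    ∃ γ ∈ K, k ∈ convexHull ℝ ({p, q, γ} : Set Space) ∧
      (∀ x ∈ segment ℝ p γ, gauge K x = 1) ∧ (∀ x ∈ segment ℝ q γ, gauge K x = 1) := by
  obtain ⟨hp, hq, hvol⟩ := ht
  have hV0 : volume K ≠ 0 := (Measure.measure_pos_of_mem_nhds volume h0).ne'
  have hVt : volume K ≠ ⊤ := hc.measure_lt_top.ne
  have hne : q - p ≠ 0 := by
    intro h
    rw [h, sweep_zero_eq] at hvol
    have h1 : (1 : ENNReal) * volume K = 4 * volume K := by rw [one_mul]; exact hvol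
    have h2 : (1 : ENNReal) = 4 := (ENNReal.mul_left_inj hV0 hVt).1 h1
    norm_num at h2
  obtain ⟨Φ, hΦ⟩ := exists_coords_one (q - p) hne
  obtain ⟨c, hc0, hct, hscale, -⟩ := exists_scale Φ
  set K' : Set Ec := Φ '' K with hK'
  have hK'conv : Convex ℝ K' := hK.linear_image (Φ : Space →ₗ[ℝ] Ec)
  have hK'c : IsCompact K' := hc.image Φ.continuous
  have hV' : volume K' = c * volume K := hscale K
  have hV'0 : volume K' ≠ 0 := by rw [hV']; exact mul_ne_zero hc0 hV0
  have hV't : volume K' ≠ ⊤ := hK'c.measure_lt_top.ne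
  have hsw : volume (sweep K' (((0, 0), 1) : Ec)) = 4 * volume K' := by
    rw [← hΦ, hK', ← sweep_image, hscale, hvol, hscale]
    ring
  have hsc := sweep_coord hK'conv hK'c (h := 1) zero_le_one
  rw [hsw] at hsc
  have harea : ENNReal.ofReal 1 * volume (Prod.fst '' K') = 3 * volume K' := by
    have h4 : (4 : ENNReal) * volume K' = volume K' + 3 * volume K' := by
      have : (4 : ENNReal) = 1 + 3 := by norm_num
      rw [this, add_mul, one_mul]
    rw [h4] at hsc
    exact ((ENNReal.add_right_inj hV't).1 hsc).symm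
  set y0 : ℝ × ℝ := (Φ p).1 with hy0
  set z0 : ℝ := (Φ p).2 with hz0
  have hΦp : Φ p = ((y0, z0) : Ec) := rfl
  have hΦq : Φ q = ((y0, z0 + 1) : Ec) := by
    have h1 : Φ q = Φ p + Φ (q - p) := by rw [← map_add]; congr 1; abel
    rw [h1, hΦ, hΦp]
    ext <;> simp
  have hpK' : ((y0, z0) : Ec) ∈ K' := by rw [← hΦp]; exact mem_image_of_mem Φ hp
  have hqK' : ((y0, z0 + 1) : Ec) ∈ K' := by rw [← hΦq]; exact mem_image_of_mem Φ hq
  have hkK' : Φ k ∈ K' := mem_image_of_mem Φ hk
  have harea' : ENNReal.ofReal (z0 + 1 - z0) * volume (Prod.fst '' K') = 3 * volume K' := by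
    rw [add_sub_cancel_left]; exact harea
  obtain ⟨γ', hγ', hconv, htop, hbot⟩ :=
    tight_structure_coord hK'conv hK'c hV'0 (lt_add_one z0) hpK' hqK' harea' hkK'
  obtain ⟨γ, hγ, rfl⟩ := hγ'
  have hseg : ∀ a b x : Space, x ∈ segment ℝ a b → Φ x ∈ segment ℝ (Φ a) (Φ b) := by
    intro a b x hx
    have h2 : Φ '' segment ℝ a b = segment ℝ (Φ a) (Φ b) :=
      image_segment ℝ ((Φ : Space →ₗ[ℝ] Ec).toAffineMap) a b
    rw [← h2]
    exact mem_image_of_mem Φ hx
  have he3 : ∀ δ : ℝ, Φ (δ • (q - p)) = (((0, 0), δ) : Ec) := by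
    intro δ
    rw [map_smul, hΦ]
    ext <;> simp
  refine ⟨γ, hγ, ?_, ?_, ?_⟩
  · have him : Φ '' convexHull ℝ ({p, q, γ} : Set Space) =
        convexHull ℝ ({((y0, z0) : Ec), ((y0, z0 + 1) : Ec), Φ γ} : Set Ec) := by
      have h1 : Φ '' convexHull ℝ ({p, q, γ} : Set Space) =
          convexHull ℝ (Φ '' ({p, q, γ} : Set Space)) :=
        (Φ : Space →ₗ[ℝ] Ec).image_convexHull _
      rw [h1, image_insert_eq, image_insert_eq, image_singleton, hΦp, hΦq]
    rw [← him] at hconv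
    exact (Φ.injective.mem_set_image).1 hconv
  · intro x hx
    have hxK : x ∈ K := hK.segment_subset hp hγ hx
    refine gauge_eq_one_of_exit hK h0 (w := -(q - p)) hxK ?_
    intro δ hδ hmem
    have h1 := hbot (Φ x) (by rw [← hΦp]; exact hseg p γ x hx) δ hδ
    apply h1
    have h2 : Φ x - (((0, 0), δ) : Ec) = Φ (x + δ • -(q - p)) := by
      rw [← he3, ← map_sub]; congr 1; rw [smul_neg, sub_eq_add_neg]
    rw [h2]
    exact mem_image_of_mem Φ hmem
  · intro x hx
    have hxK : x ∈ K := hK.segment_subset hq hγ hx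
    refine gauge_eq_one_of_exit hK h0 (w := q - p) hxK ?_
    intro δ hδ hmem
    have h1 := htop (Φ x) (by rw [← hΦq]; exact hseg q γ x hx) δ hδ
    apply h1
    have h2 : Φ x + (((0, 0), δ) : Ec) = Φ (x + δ • (q - p)) := by
      rw [← he3, ← map_add]
    rw [h2]
    exact mem_image_of_mem Φ hmem

end Vale.Agent.Lib.P243.Soft
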