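import Mathlib
import Vale.Agent.Lib.P243.Soft.Defs
import Vale.Agent.Lib.P243.Soft.HH
import Vale.Agent.Lib.P243.Soft.Struct
import Vale.Agent.Lib.P243.Soft.GaugeBasic

/-!
P243 soft, S18.
* `tight_symm`: `hh_neg` / `sweep K (-v)` is a translate of `sweep K v`.
* `tight_hh`: `Tight K p q` gives `hh K (q - p) = 3 vol K` (`vol K < ∞`).
* `tight_gauge_one`: `gauge K p ≤ 1` since `p ∈ K`.  If `gauge K p < 1`, `p` is interior, so `p' = p - δ (q - p) ∈ K` for a small
  `δ > 0`; `hh K (q - p') = (1+δ) hh K (q - p) = (1+δ) 3 vol K > 3 vol K` (`hh_smul`), contradicting `hh_le`.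
* `lemmaA`: `D (x - p) ≤ gauge K x - 1 ≤ 0` on `K` (`tangent_le`), so `D (q - p) ≤ 0`.  Suppose `D (q - p) = 0`.
  `tight_structure` for `k = 0`: `0 = a p + b q + e γ` (convex combination), `D (γ - p) = 0` (`deriv_seg_zero`), hence
  `D (0 - p) = b D (q - p) + e D (γ - p) = 0`; but `D (0 - p) ≤ gauge K 0 - 1 = -1`.
-/

namespace Vale.Agent.Lib.P243.Soft

open MeasureTheory Set
open scoped Pointwise

variable {K : Set Space} {p q : Space}

theorem sweep_neg_eq (K : Set Space) (v : Space) :
    sweep K (-v) = ({-v} : Set Space) + sweep K v := by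
  unfold sweep
  have h : segment ℝ (0 : Space) (-v) = ({-v} : Set Space) + segment ℝ 0 v := by
    rw [Set.singleton_add, segment_translate_image, add_zero, neg_add_cancel, segment_symm]
  rw [h, add_left_comm]

theorem volume_sweep_neg (K : Set Space) (v : Space) :
    volume (sweep K (-v)) = volume (sweep K v) := by
  rw [sweep_neg_eq, Set.singleton_add, Set.image_add_left, measure_preimage_add]

theorem tight_symm (h : Tight K p q) : Tight K q p := by
  obtain ⟨hp, hq, hv⟩ := h
  refine ⟨hq, hp, ?_⟩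
  rw [← neg_sub, volume_sweep_neg, hv]

theorem tight_hh (hc : IsCompact K) (h : Tight K p q) : hh K (q - p) = 3 * volume K := by
  obtain ⟨-, -, hv⟩ := h
  unfold hh
  rw [hv]
  apply ENNReal.sub_eq_of_eq_add hc.measure_lt_top.ne
  have : (4 : ENNReal) = 3 + 1 := by norm_num
  rw [this, add_mul, one_mul]

theorem tight_gauge_one (hK : Convex ℝ K) (hc : IsCompact K) (h0 : K ∈ nhds (0 : Space))
    (h : Tight K p q) : gauge K p = 1 := by
  have hp : p ∈ K := h.1
  have hq : q ∈ K := h.2.1
  have hle : gauge K p ≤ 1 := gauge_le_one_of_mem hp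
  by_contra hne
  have hlt : gauge K p < 1 := lt_of_le_of_ne hle hne
  have hcont : Continuous (gauge K) := continuous_gauge hK h0
  -- the map δ ↦ gauge K (p - δ (q - p)) is continuous
  have hc2 : Continuous (fun δ : ℝ => gauge K (p - δ • (q - p))) := by
    apply hcont.comp
    fun_prop
  have hev : ∀ᶠ δ in nhds (0 : ℝ), gauge K (p - δ • (q - p)) < 1 := by
    apply hc2.continuousAt.eventually_lt continuousAt_const
    simpa using hlt
  have hev2 : ∀ᶠ δ in nhdsWithin (0 : ℝ) (Ioi 0), gauge K (p - δ • (q - p)) < 1 :=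
    hev.filter_mono nhdsWithin_le_nhds
  obtain ⟨δ, hδ1, hδ0⟩ := (hev2.and self_mem_nhdsWithin).exists
  have hδ0' : (0 : ℝ) < δ := hδ0
  have hp' : p - δ • (q - p) ∈ K :=
    setOfPred_gauge_lt_one_subset_self hK (mem_of_mem_nhds h0) (absorbent_nhds_zero h0) hδ1
  have hle2 := hh_le hK hc hp' hq
  have heq : q - (p - δ • (q - p)) = (1 + δ) • (q - p) := by
    rw [add_smul, one_smul]; abel
  rw [heq, hh_smul hK hc _ (by linarith), tight_hh hc h] at hle2
  have hpos : 0 < volume K := Measure.measure_pos_of_mem_nhds volume h0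
  have hfin : volume K ≠ ⊤ := hc.measure_lt_top.ne
  have h3 : (3 : ENNReal) * volume K ≠ 0 := by
    simp [hpos.ne']
  have h3' : (3 : ENNReal) * volume K ≠ ⊤ := ENNReal.mul_ne_top (by norm_num) hfin
  have h1 : ENNReal.ofReal (1 + δ) ≤ 1 := by
    by_contra hcon
    push Not at hcon
    have := (ENNReal.mul_lt_mul_iff_left h3 h3').2 hcon
    rw [one_mul] at this
    exact absurd hle2 (not_le.2 this)
  rw [ENNReal.ofReal_le_one] at h1
  linarith

theorem lemmaA (hK : Convex ℝ K) (hc : IsCompact K) (h0 : K ∈ nhds (0 : Space))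
    (h : Tight K p q) {D : Space →L[ℝ] ℝ} (hD : HasFDerivAt (gauge K) D p) : D (q - p) < 0 := by
  have hgp : gauge K p = 1 := tight_gauge_one hK hc h0 h
  have hq : q ∈ K := h.2.1
  have h1 : D (q - p) ≤ 0 := by
    have := tangent_le hK h0 hD q
    have h2 : gauge K q ≤ 1 := gauge_le_one_of_mem hq
    linarith
  rcases lt_or_eq_of_le h1 with h2 | h2
  · exact h2
  exfalso
  obtain ⟨γ, hγ, hk, hs1, -⟩ := tight_structure hK hc h0 h (mem_of_mem_nhds h0)
  have hDγ : D (γ - p) = 0 := deriv_seg_zero hD hs1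
  rw [convexHull_insert (by simp), convexHull_pair, mem_convexJoin] at hk
  obtain ⟨x, hx, y, hy, hxy⟩ := hk
  rw [mem_singleton_iff] at hx
  subst hx
  obtain ⟨a, b, ha, hb, hab, hy⟩ := hy
  obtain ⟨s, t, hs, ht, hst, hxy⟩ := hxy
  have h3 : (0 : Space) - x = t • (a • (q - x) + b • (γ - x)) := by
    have ha' : a = 1 - b := by linarith
    have hs' : s = 1 - t := by linarith
    rw [← hxy, ← hy, ha', hs']
    module
  have h4 := tangent_le hK h0 hD 0
  rw [h3, gauge_zero, hgp] at h4
  simp only [map_smul, map_add, h2, hDγ, smul_eq_mul] at h4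
  linarith

end Vale.Agent.Lib.P243.Soft
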