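import Mathlib
import Vale.Agent.Lib.P243.Soft.Defs
import Vale.Agent.Lib.P243.Soft.Struct
import Vale.Agent.Lib.P243.Soft.GaugeBasic
import Vale.Agent.Lib.P243.Soft.LemmaA

/-!
P243 soft, S19: a tight chord has a singular end point.
Suppose `g = gauge K` is differentiable at `p` and at `q`, derivatives `Dp`, `Dq`.  `Dp (q - p) < 0`, `Dq (p - q) < 0`
(`lemmaA`, `tight_symm`).  By `gauge_lt_one_of_deriv_neg` there is `t1 ∈ (0,1)` with `x1 = p + t1 (q - p)`, `g x1 < 1`, so `x1` is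
interior to `K`.  Pick `k ∈ K` (any), `γ` from `tight_structure`; `Dp (γ - p) = 0`, `Dq (γ - q) = 0`
(`deriv_seg_zero`).  For small `ε > 0`, `k' = x1 + ε (x1 - γ) ∈ K`.  `tight_structure` for `k'`:
`k' = a' p + b' q + e' γ'`, `a',b',e' ≥ 0`, sum `1`, `Dp (γ' - p) = 0 = Dq (γ' - q)`.  Then
`Dp (k' - p) = b' Dp (q - p)` and `Dp (k' - p) = (1+ε) Dp (x1 - p) - ε Dp (γ - p) = (1+ε) t1 Dp (q - p)`, so `b' = (1+ε) t1`;
in the same way `a' = (1+ε)(1 - t1)`.  So `a' + b' = 1 + ε > 1`: contradiction.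
-/

namespace Vale.Agent.Lib.P243.Soft

open MeasureTheory Set

theorem lemmaB {K : Set Space} (hK : Convex ℝ K) (hc : IsCompact K) (h0 : K ∈ nhds (0 : Space))
    {p q : Space} (h : Tight K p q) :
    ¬ (DifferentiableAt ℝ (gauge K) p ∧ DifferentiableAt ℝ (gauge K) q) := by
  rintro ⟨⟨Dp, hDp⟩, ⟨Dq, hDq⟩⟩
  have hA1 : Dp (q - p) < 0 := lemmaA hK hc h0 h hDp
  have hA2 : Dq (p - q) < 0 := lemmaA hK hc h0 (tight_symm h) hDq
  have hgp : gauge K p = 1 := tight_gauge_one hK hc h0 h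
  obtain ⟨t0, ht0, hlt⟩ := gauge_lt_one_of_deriv_neg hDp hgp hA1
  set t1 : ℝ := min t0 (1 / 2) with ht1
  have ht1pos : 0 < t1 := lt_min ht0 (by norm_num)
  have ht1le : t1 ≤ t0 := min_le_left _ _
  set x1 : Space := p + t1 • (q - p) with hx1
  have hgx1 : gauge K x1 < 1 := hlt t1 ⟨ht1pos, ht1le⟩
  obtain ⟨γ, -, -, hs1, hs2⟩ := tight_structure hK hc h0 h h.1
  have hDpγ : Dp (γ - p) = 0 := deriv_seg_zero hDp hs1
  have hDqγ : Dq (γ - q) = 0 := deriv_seg_zero hDq hs2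
  have hcont : Continuous (gauge K) := continuous_gauge hK h0
  have hc2 : Continuous (fun ε : ℝ => gauge K (x1 + ε • (x1 - γ))) := by
    apply hcont.comp
    fun_prop
  have hev : ∀ᶠ ε in nhds (0 : ℝ), gauge K (x1 + ε • (x1 - γ)) < 1 := by
    apply hc2.continuousAt.eventually_lt continuousAt_const
    simpa using hgx1
  have hev2 : ∀ᶠ ε in nhdsWithin (0 : ℝ) (Ioi 0), gauge K (x1 + ε • (x1 - γ)) < 1 :=
    hev.filter_mono nhdsWithin_le_nhds
  obtain ⟨ε, hε1, hε0⟩ := (hev2.and self_mem_nhdsWithin).exists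
  have hε0' : (0 : ℝ) < ε := hε0
  have hk' : x1 + ε • (x1 - γ) ∈ K :=
    setOfPred_gauge_lt_one_subset_self hK (mem_of_mem_nhds h0) (absorbent_nhds_zero h0) hε1
  obtain ⟨γ', -, hk, hs1', hs2'⟩ := tight_structure hK hc h0 h hk'
  have hDpγ' : Dp (γ' - p) = 0 := deriv_seg_zero hDp hs1'
  have hDqγ' : Dq (γ' - q) = 0 := deriv_seg_zero hDq hs2'
  rw [convexHull_insert (by simp), convexHull_pair, mem_convexJoin] at hk
  obtain ⟨x, hx, y, hy, hxy⟩ := hk
  rw [mem_singleton_iff] at hx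
  subst hx
  obtain ⟨a, b, ha, hb, hab, hy⟩ := hy
  obtain ⟨s, t, hs, ht, hst, hxy⟩ := hxy
  have ha' : a = 1 - b := by linarith
  have hs' : s = 1 - t := by linarith
  -- first computation
  have e1 : (x1 + ε • (x1 - γ)) - x = t • (a • (q - x) + b • (γ' - x)) := by
    rw [← hxy, ← hy, ha', hs']
    module
  have e2 : (x1 + ε • (x1 - γ)) - x = ((1 + ε) * t1) • (q - x) - ε • (γ - x) := by
    rw [hx1]
    module
  have e3 : (x1 + ε • (x1 - γ)) - q = s • (x - q) + (t * b) • (γ' - q) := by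
    rw [← hxy, ← hy, ha', hs']
    module
  have e4 : (x1 + ε • (x1 - γ)) - q = ((1 + ε) * (1 - t1)) • (x - q) - ε • (γ - q) := by
    rw [hx1]
    module
  have f1 : t * a * Dp (q - x) = (1 + ε) * t1 * Dp (q - x) := by
    have := congrArg Dp (e1.symm.trans e2)
    simp only [map_smul, map_add, map_sub, smul_eq_mul] at this hDpγ hDpγ' ⊢
    linear_combination this - t * b * hDpγ' - ε * hDpγ
  have f2 : s * Dq (x - q) = (1 + ε) * (1 - t1) * Dq (x - q) := by
    have := congrArg Dq (e3.symm.trans e4)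
    simp only [map_smul, map_add, map_sub, smul_eq_mul] at this hDqγ hDqγ' ⊢
    linear_combination this - t * b * hDqγ' - ε * hDqγ
  have g1 : t * a = (1 + ε) * t1 := mul_right_cancel₀ hA1.ne f1
  have g2 : s = (1 + ε) * (1 - t1) := mul_right_cancel₀ hA2.ne f2
  have g3 : t * a ≤ t := by nlinarith
  nlinarith

end Vale.Agent.Lib.P243.Soft
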