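import Mathlib
import Vale.Agent.Lib.P243.Soft.Defs
import Vale.Agent.Lib.P243.Soft.Struct
import Vale.Agent.Lib.P243.Soft.GaugeBasic
import Vale.Agent.Lib.P243.Soft.LemmaA

/-!
P243 soft, S21: if `(p,q)` is tight and `g = gauge K` is differentiable at `p` (derivative `D`), the boundary of `K` is flat near `p`.
Suppose not: there are `x_n → p`, `g x_n = 1`, `D (x_n - p) ≠ 0`, hence `< 0` (`tangent_le`).  `x_n ∈ K` (`K` closed, `g x_n ≤ 1`).
`tight_structure`: `x_n = a_n p + b_n q + e_n γ_n` (convex combination), `g = 1` on `[p,γ_n]`, so `D (γ_n - p) = 0`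
(`deriv_seg_zero`) and `D (x_n - p) = b_n D (q - p)`.  As `D (q - p) < 0` (`lemmaA`): `b_n > 0` and `b_n → 0`; so `b_n < 1` eventually.
`f_n = (a_n p + e_n γ_n)/(1 - b_n) ∈ [p,γ_n]`, `g f_n = 1`, `x_n = (1-b_n) f_n + b_n q`, `g q = 1` (`tight_gauge_one`, `tight_symm`).
`const_on_seg`: `g ((1-s) f_n + s q) = 1` for all `s ∈ [0,1]`.  `f_n = (x_n - b_n q)/(1-b_n) → p`; `g` is continuous
(`continuous_gauge`), so `g ((1-s) p + s q) = 1` for all `s ∈ [0,1]`, contradicting `gauge_lt_one_of_deriv_neg` (`w = q - p`).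
-/

namespace Vale.Agent.Lib.P243.Soft

open MeasureTheory Set

/-- coefficients of a point of a triangle -/
lemma mem_triangle {p q γ x : Space} (hx : x ∈ convexHull ℝ ({p, q, γ} : Set Space)) :
    ∃ a b e : ℝ, 0 ≤ a ∧ 0 ≤ b ∧ 0 ≤ e ∧ a + b + e = 1 ∧ x = a • p + b • q + e • γ := by
  rw [convexHull_insert (by simp), convexHull_pair, mem_convexJoin] at hx
  obtain ⟨p', hp', y, hy, hxy⟩ := hx
  have hp'' : p' = p := hp'
  subst hp''
  obtain ⟨u1, u2, hu1, hu2, hu, rfl⟩ := hy
  obtain ⟨v1, v2, hv1, hv2, hv, rfl⟩ := hxy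
  refine ⟨v1, v2 * u1, v2 * u2, hv1, mul_nonneg hv2 hu1, mul_nonneg hv2 hu2, ?_, ?_⟩
  · have : v2 * u1 + v2 * u2 = v2 := by rw [← mul_add, hu, mul_one]
    linarith
  · rw [smul_add, smul_smul, smul_smul, add_assoc]

theorem lemmaC1 {K : Set Space} (hK : Convex ℝ K) (hc : IsCompact K) (h0 : K ∈ nhds (0 : Space))
    {p q : Space} (h : Tight K p q) {D : Space →L[ℝ] ℝ} (hD : HasFDerivAt (gauge K) D p) :
    ∃ U ∈ nhds p, ∀ x ∈ U, gauge K x = 1 → D (x - p) = 0 := by
  have hcneg : D (q - p) < 0 := lemmaA hK hc h0 h hD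
  have hgp : gauge K p = 1 := tight_gauge_one hK hc h0 h
  have hgq : gauge K q = 1 := tight_gauge_one hK hc h0 (tight_symm h)
  obtain ⟨t0, ht0, hlt⟩ := gauge_lt_one_of_deriv_neg hD hgp hcneg
  set s0 : ℝ := min t0 (1 / 2) with hs0
  have hs0pos : 0 < s0 := lt_min ht0 (by norm_num)
  have hs0le : s0 ≤ t0 := min_le_left _ _
  have hs0half : s0 ≤ 1 / 2 := min_le_right _ _
  set c : ℝ := D (q - p) with hcdef
  -- the candidate coefficient and the candidate foot point
  set β : Space → ℝ := fun x => D (x - p) / c with hβ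
  set F : Space → Space := fun x => (1 - β x)⁻¹ • (x - β x • q) with hF
  set H : Space → ℝ := fun x => gauge K ((1 - s0) • F x + s0 • q) with hH
  have hβc : Continuous β := by
    have : Continuous fun x : Space => D (x - p) := D.continuous.comp (continuous_id.sub continuous_const)
    exact this.div_const c
  have hβp : β p = 0 := by simp [hβ]
  have hFp : F p = p := by simp [hF, hβp]
  have hFc : ContinuousAt F p := by
    have h1 : ContinuousAt (fun x => (1 - β x)⁻¹) p := by
      refine ContinuousAt.inv₀ (continuous_const.sub hβc).continuousAt ?_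
      rw [hβp]; norm_num
    have h2 : ContinuousAt (fun x => x - β x • q) p :=
      (continuous_id.sub (hβc.smul continuous_const)).continuousAt
    exact h1.smul h2
  have hHc : ContinuousAt H p := by
    have h1 : ContinuousAt (fun x => (1 - s0) • F x + s0 • q) p :=
      (hFc.const_smul (1 - s0)).add continuousAt_const
    exact (continuous_gauge hK h0).continuousAt.comp h1
  have hHp : H p < 1 := by
    have h1 : (1 - s0) • p + s0 • q = p + s0 • (q - p) := by
      rw [smul_sub, sub_smul, one_smul]; abel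
    show gauge K ((1 - s0) • F p + s0 • q) < 1
    rw [hFp, h1]
    exact hlt s0 ⟨hs0pos, hs0le⟩
  have hU1 : ∀ᶠ x in nhds p, β x < 1 := by
    have := hβc.continuousAt (x := p)
    refine this.eventually (gt_mem_nhds ?_)
    rw [hβp]; norm_num
  have hU2 : ∀ᶠ x in nhds p, H x < 1 := hHc.eventually (gt_mem_nhds hHp)
  refine ⟨{x | β x < 1 ∧ H x < 1}, hU1.and hU2, ?_⟩
  rintro x ⟨hx1, hx2⟩ hgx
  by_contra hne
  have hxK : x ∈ K := by
    have := (gauge_le_one_iff_mem_closure hK h0).1 hgx.le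
    rwa [hc.isClosed.closure_eq] at this
  obtain ⟨γ, -, hconv, hseg, -⟩ := tight_structure hK hc h0 h hxK
  obtain ⟨a, b, e, ha, hb, he, hsum, hxe⟩ := mem_triangle hconv
  have hDγ : D (γ - p) = 0 := deriv_seg_zero hD hseg
  have hDx : D (x - p) = b * c := by
    have h1 : x - p = b • (q - p) + e • (γ - p) := by
      have ha' : a = 1 - b - e := by linarith
      rw [hxe, ha', smul_sub, smul_sub, sub_smul, sub_smul, one_smul]
      abel
    rw [h1, map_add, map_smul, map_smul, hDγ, smul_eq_mul, smul_eq_mul, mul_zero, add_zero]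
  have hβx : β x = b := by
    show D (x - p) / c = b
    rw [hDx]
    exact mul_div_cancel_right₀ b hcneg.ne
  have hb0 : 0 < b := by
    rcases eq_or_lt_of_le hb with hb' | hb'
    · exact absurd (by rw [hDx, ← hb', zero_mul]) hne
    · exact hb'
  have hb1 : b < 1 := by rw [← hβx]; exact hx1
  have h1b : 0 < 1 - b := by linarith
  have hFx : F x = (a / (1 - b)) • p + (e / (1 - b)) • γ := by
    show (1 - β x)⁻¹ • (x - β x • q) = _
    rw [hβx, hxe]
    have : a • p + b • q + e • γ - b • q = a • p + e • γ := by abel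
    rw [this, smul_add, smul_smul, smul_smul]
    congr 2 <;> ring
  have hFseg : F x ∈ segment ℝ p γ := by
    rw [hFx]
    refine ⟨a / (1 - b), e / (1 - b), div_nonneg ha h1b.le, div_nonneg he h1b.le, ?_, rfl⟩
    rw [← add_div, div_eq_one_iff_eq h1b.ne']
    linarith
  have hgF : gauge K (F x) = 1 := hseg _ hFseg
  have hxF : (1 - b) • F x + b • q = x := by
    rw [hFx, hxe, smul_add, smul_smul, smul_smul, mul_div_cancel₀ _ h1b.ne',
      mul_div_cancel₀ _ h1b.ne']
    abel
  have hconst := const_on_seg hK h0 hgF.le hgq.le (t := b) ⟨hb0, hb1⟩ (by rw [hxF]; exact hgx)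
    s0 ⟨hs0pos.le, by linarith⟩
  have : H x = 1 := hconst
  linarith

end Vale.Agent.Lib.P243.Soft
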