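import Mathlib
import Vale.Agent.Lib.P243.Soft.Defs
import Vale.Agent.Lib.P243.Soft.GaugeBasic

/-!
P243 soft, S22: if the boundary of `K` is flat near `p`, the gauge is linear near `p`.
`D p = g p = 1` (`deriv_self`).  The map `y ↦ (g y)⁻¹ • y` is continuous at `p` (`g` continuous, `g p = 1`) with value `p`, so eventually
`(g y)⁻¹ • y ∈ U` and `g y > 0`; `g ((g y)⁻¹ • y) = 1` (`gauge_smul_of_nonneg`), so `D ((g y)⁻¹ • y - p) = 0`, i.e. `D y = g y`.
Thus `g =ᶠ[𝓝 p] D`; by `eventually_eventually_nhds`, for `x` near `p`, `g =ᶠ[𝓝 x] D`, so `g` is differentiable at `x`.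
-/

namespace Vale.Agent.Lib.P243.Soft

open MeasureTheory Set

theorem lemmaC2 {K : Set Space} (hK : Convex ℝ K) (h0 : K ∈ nhds (0 : Space))
    {p : Space} {D : Space →L[ℝ] ℝ} (hD : HasFDerivAt (gauge K) D p) (hp : gauge K p = 1)
    (hU : ∃ U ∈ nhds p, ∀ x ∈ U, gauge K x = 1 → D (x - p) = 0) :
    ∀ᶠ x in nhds p, DifferentiableAt ℝ (gauge K) x := by
  obtain ⟨U, hUn, hU⟩ := hU
  have hDp : D p = 1 := by rw [deriv_self hD, hp]
  have hcont : ContinuousAt (gauge K) p := hD.continuousAt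
  have hmap : ContinuousAt (fun y : Space => (gauge K y)⁻¹ • y) p := by
    have ha : ContinuousAt (fun y : Space => (gauge K y)⁻¹) p :=
      hcont.inv₀ (by rw [hp]; exact one_ne_zero)
    exact ContinuousAt.smul ha continuousAt_id
  have hval : (gauge K p)⁻¹ • p = p := by rw [hp, inv_one, one_smul]
  have h1 : ∀ᶠ y in nhds p, (gauge K y)⁻¹ • y ∈ U := by
    apply hmap.eventually_mem
    rw [hval]
    exact hUn
  have h2 : ∀ᶠ y in nhds p, 0 < gauge K y := by
    apply hcont.eventually_mem (s := Ioi 0)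
    apply Ioi_mem_nhds
    rw [hp]
    exact one_pos
  have heq : gauge K =ᶠ[nhds p] D := by
    filter_upwards [h1, h2] with y hy1 hy2
    have h3 : gauge K ((gauge K y)⁻¹ • y) = 1 := by
      rw [gauge_smul_of_nonneg (inv_nonneg.2 hy2.le), smul_eq_mul, inv_mul_cancel₀ hy2.ne']
    have h4 := hU _ hy1 h3
    rw [map_sub, map_smul, hDp, smul_eq_mul] at h4
    have h5 : (gauge K y)⁻¹ * D y = 1 := by linarith
    have h6 : D y = gauge K y * ((gauge K y)⁻¹ * D y) := by
      rw [← mul_assoc, mul_inv_cancel₀ hy2.ne', one_mul]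
    rw [h6, h5, mul_one]
  filter_upwards [heq.eventually_nhds] with x hx
  exact (D.differentiableAt).congr_of_eventuallyEq hx

end Vale.Agent.Lib.P243.Soft
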