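import Mathlib
import Vale.Agent.Lib.P243.Soft.Defs
import Vale.Agent.Lib.P243.Soft.HH
import Vale.Agent.Lib.P243.Soft.HHusc

/-!
P243 soft, S20: the set of tight pairs is closed.
On `K × K` one has `vol (sweep K (q - p)) ≤ 4 vol K` (`hh_le`, `volume_sweep`), so the tight pairs are
`{(p,q) ∈ K × K : 4 vol K ≤ vol (sweep K (q - p))}`; the function is upper semicontinuous (`sweep_usc` composed with the
continuous map `(p,q) ↦ q - p`), so this superlevel set is closed (`UpperSemicontinuous.isClosed_preimage`).
-/

namespace Vale.Agent.Lib.P243.Soft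

open MeasureTheory Set

theorem isClosed_tight {K : Set Space} (hK : Convex ℝ K) (hc : IsCompact K) :
    IsClosed {pq : Space × Space | Tight K pq.1 pq.2} := by
  have husc : UpperSemicontinuous (fun pq : Space × Space => volume (sweep K (pq.2 - pq.1))) :=
    (sweep_usc hc).comp (continuous_snd.sub continuous_fst)
  have h1 : IsClosed ((fun pq : Space × Space => volume (sweep K (pq.2 - pq.1))) ⁻¹'
      Ici (4 * volume K)) := husc.isClosed_preimage _
  have h2 : IsClosed (K ×ˢ K) := hc.isClosed.prod hc.isClosed
  have e : {pq : Space × Space | Tight K pq.1 pq.2} = (K ×ˢ K) ∩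
      ((fun pq : Space × Space => volume (sweep K (pq.2 - pq.1))) ⁻¹' Ici (4 * volume K)) := by
    ext pq
    simp only [mem_ofPred_eq, mem_inter_iff, mem_prod, mem_preimage, mem_Ici, Tight]
    constructor
    · rintro ⟨hp, hq, h⟩
      exact ⟨⟨hp, hq⟩, h.ge⟩
    · rintro ⟨⟨hp, hq⟩, h⟩
      refine ⟨hp, hq, le_antisymm ?_ h⟩
      rw [volume_sweep hc]
      calc volume K + hh K (pq.2 - pq.1) ≤ volume K + 3 * volume K := by
            gcongr
            exact hh_le hK hc hp hq
        _ = 4 * volume K := by ring
  rw [e]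
  exact h2.inter h1

end Vale.Agent.Lib.P243.Soft
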