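import Mathlib
import Vale.Agent.Lib.P243.Soft.Defs
import Vale.Agent.Lib.P243.Soft.LemmaA
import Vale.Agent.Lib.P243.Soft.TightClosed
import Vale.Agent.Lib.P243.Soft.LemmaC1
import Vale.Agent.Lib.P243.Soft.LemmaC2

/-!
P243 soft, S23: the gauge is not differentiable at any point of `closure (SE K)`.
Let `p_n ∈ SE K`, `p_n → p`, `Tight K p_n q_n`.  `q_n ∈ K` compact: along a subsequence `q_n → q`.  `Tight K p q` (`isClosed_tight`).
If `g` is differentiable at `p`: `lemmaC1`, `tight_gauge_one`, `lemmaC2` give differentiability at all points near `p`, in particular at `p_n`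
for large `n`: contradiction with `p_n ∈ SE K`.
Also: `closure (SE K)` is compact, contained in `K`, and `g = 1` on it.
-/

namespace Vale.Agent.Lib.P243.Soft

open MeasureTheory Set

variable {K : Set Space}

theorem SE_subset : SE K ⊆ K := by
  rintro p ⟨-, q, hq⟩
  exact hq.1

theorem lemmaC (hK : Convex ℝ K) (hc : IsCompact K) (h0 : K ∈ nhds (0 : Space))
    {p : Space} (hp : p ∈ closure (SE K)) : ¬ DifferentiableAt ℝ (gauge K) p := by
  intro hdiff
  obtain ⟨u, hu, hlim⟩ := mem_closure_iff_seq_limit.1 hp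
  choose qn hqn using fun n => (hu n).2
  have hqK : ∀ n, qn n ∈ K := fun n => (hqn n).2.1
  obtain ⟨q, -, φ, hφ, hφlim⟩ := hc.tendsto_subseq hqK
  have htight : Tight K p q := by
    have hcl := isClosed_tight hK hc
    have hl : Filter.Tendsto (fun n => (u (φ n), qn (φ n))) Filter.atTop (nhds (p, q)) :=
      (hlim.comp hφ.tendsto_atTop).prodMk_nhds hφlim
    exact hcl.mem_of_tendsto hl (Filter.Eventually.of_forall fun n => hqn (φ n))
  obtain ⟨D, hD⟩ := hdiff
  have h1 := lemmaC1 hK hc h0 htight hD
  have h2 := lemmaC2 hK h0 hD (tight_gauge_one hK hc h0 htight) h1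
  have h3 := hlim.eventually h2
  obtain ⟨n, hn⟩ := h3.exists
  exact (hu n).1 hn

theorem isCompact_closure_SE (hc : IsCompact K) : IsCompact (closure (SE K)) :=
  hc.of_isClosed_subset isClosed_closure (closure_minimal SE_subset hc.isClosed)

theorem gauge_closure_SE (hK : Convex ℝ K) (hc : IsCompact K) (h0 : K ∈ nhds (0 : Space))
    {p : Space} (hp : p ∈ closure (SE K)) : gauge K p = 1 := by
  have hcl : IsClosed {x : Space | gauge K x = 1} :=
    isClosed_eq (continuous_gauge hK h0) continuous_const
  have hsub : SE K ⊆ {x : Space | gauge K x = 1} := by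
    rintro x ⟨-, q, hq⟩
    exact tight_gauge_one hK hc h0 hq
  exact closure_minimal hsub hcl hp

end Vale.Agent.Lib.P243.Soft
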