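import Mathlib
import Vale.Agent.Lib.P243.Soft.Defs
import Vale.Agent.Lib.P243.Soft.LemmaA
import Vale.Agent.Lib.P243.Soft.LemmaB
import Vale.Agent.Lib.P243.Soft.LemmaC
import Vale.Agent.Lib.P243.Soft.ConeNull
import Vale.Agent.Lib.P243.Soft.Caps4
import Vale.Agent.Lib.P243.Soft.MFrac

/-!
P243 soft, S30: the set `S` catching all tight chords.
`A = closure (SE K)`: compact, `g = 1` on `A`, `g` nowhere differentiable on `A` (`LemmaC.lean`), so `vol (cone0 A) = 0` (`cone_null`).
`V = (vol K).toReal > 0`.  Apply `caps` with `θ = V/4`: `η`, `S`.  `σ = η/2`.  `vol (S ∩ K) ≤ (V/4) η < σ V`.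
If `Tight K p q`: by `lemmaB` `g` is not differentiable at `p` or at `q`.  In the first case `p ∈ SE K ⊆ A`, so `mfrac S p q ≥ η > σ` (`le_mfrac_left`);
in the second case `q ∈ SE K` (`tight_symm`), use `le_mfrac_right`.
-/

namespace Vale.Agent.Lib.P243.Soft

open MeasureTheory Set

theorem star {K : Set Space} (hK : Convex ℝ K) (hc : IsCompact K) (h0 : K ∈ nhds (0 : Space)) :
    ∃ (S : Set Space) (σ : ℝ), IsOpen S ∧ 0 < σ ∧
      volume (S ∩ K) < ENNReal.ofReal σ * volume K ∧ ∀ p q, Tight K p q → σ < mfrac S p q := by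
  have hAc : IsCompact (closure (SE K)) := isCompact_closure_SE hc
  have hA1 : ∀ e ∈ closure (SE K), gauge K e = 1 := fun e he => gauge_closure_SE hK hc h0 he
  have hnull : volume (cone0 (closure (SE K))) = 0 :=
    cone_null hK h0 (fun e he => lemmaC hK hc h0 he)
  have hpos : 0 < volume K := Measure.measure_pos_of_mem_nhds volume h0
  have hfin : volume K ≠ ⊤ := hc.measure_lt_top.ne
  have hV : 0 < (volume K).toReal := ENNReal.toReal_pos hpos.ne' hfin
  obtain ⟨η, hη, S, hS, hincl, hvol⟩ :=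
    caps hK hc h0 hAc hA1 hnull (θ := (volume K).toReal / 4) (by positivity)
  have hη0 : 0 < η := hη.1
  refine ⟨S, η / 2, hS, by positivity, ?_, ?_⟩
  · refine lt_of_le_of_lt hvol ?_
    have h1 : ENNReal.ofReal (η / 2) * volume K
        = ENNReal.ofReal (η / 2 * (volume K).toReal) := by
      rw [ENNReal.ofReal_mul (by positivity), ENNReal.ofReal_toReal hfin]
    rw [h1, ENNReal.ofReal_lt_ofReal_iff (by positivity)]
    nlinarith [mul_pos hη0 hV]
  · intro p q hT
    have hηI : η ∈ Icc (0 : ℝ) 1 := ⟨hη.1.le, hη.2.le⟩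
    have hB := lemmaB hK hc h0 hT
    by_cases hp : DifferentiableAt ℝ (gauge K) p
    · have hq : ¬ DifferentiableAt ℝ (gauge K) q := fun hq => hB ⟨hp, hq⟩
      have hqA : q ∈ closure (SE K) := subset_closure ⟨hq, p, tight_symm hT⟩
      have := le_mfrac_right hηI (fun t ht => hincl q hqA p hT.1 t ht)
      linarith
    · have hpA : p ∈ closure (SE K) := subset_closure ⟨hp, q, hT⟩
      have := le_mfrac_left hηI (fun t ht => hincl p hpA q hT.2.1 t ht)
      linarith

end Vale.Agent.Lib.P243.Soft
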