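import Mathlib
import Vale.Agent.Lib.P243.Soft.Defs

/-!
P243 soft, S31: the two-valued weight `wgt S a b = a - b 1_S` and its integrals.
* `lineInt_wgt`: `I = {t : p + t v ∈ K}` is a compact convex subset of `ℝ` (`v ≠ 0`).  If `I = ∅` the integral is `0`.  Otherwise `I = [t0,t1]`, `P = p + t0 v`, `Q = p + t1 v`,
  `s = t1 - t0`.  `∫_I wgt (p + t v) dt = a s - b |{t ∈ I : p + t v ∈ S}| = s (a - b mfrac S P Q)` by the substitution `t = t0 + s τ`
  (for `s = 0` both sides vanish).
* `lintegral_wgt`: split `K = (K ∩ S) ∪ (K \ S)`.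
-/

namespace Vale.Agent.Lib.P243.Soft

open MeasureTheory Set

open Classical in
/-- The weight `a - b 1_S`. -/
noncomputable def wgt (S : Set Space) (a b : ℝ) : Space → ENNReal :=
  fun x => if x ∈ S then ENNReal.ofReal (a - b) else ENNReal.ofReal a

theorem wgt_of_mem {S : Set Space} (a b : ℝ) {x : Space} (hx : x ∈ S) :
    wgt S a b x = ENNReal.ofReal (a - b) := by
  unfold wgt
  rw [if_pos hx]

theorem wgt_of_notMem {S : Set Space} (a b : ℝ) {x : Space} (hx : x ∉ S) :
    wgt S a b x = ENNReal.ofReal a := by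
  unfold wgt
  rw [if_neg hx]

theorem measurable_wgt {S : Set Space} (hS : IsOpen S) (a b : ℝ) : Measurable (wgt S a b) := by
  classical
  unfold wgt
  exact Measurable.ite hS.measurableSet measurable_const measurable_const

theorem wgt_le (S : Set Space) {a b : ℝ} (hb : 0 ≤ b) (x : Space) :
    wgt S a b x ≤ ENNReal.ofReal a := by
  by_cases hx : x ∈ S
  · rw [wgt_of_mem a b hx]
    exact ENNReal.ofReal_le_ofReal (by linarith)
  · rw [wgt_of_notMem a b hx]

/-- Integral of a two-valued function. -/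
theorem setLIntegral_two {α : Type*} [MeasurableSpace α] (μ : Measure α) {A T : Set α}
    (hA : MeasurableSet A) (hT : MeasurableSet T) (c d : ENNReal) (f : α → ENNReal)
    (h1 : ∀ x ∈ T, f x = c) (h2 : ∀ x, x ∉ T → f x = d) :
    ∫⁻ x in A, f x ∂μ = c * μ (A ∩ T) + d * μ (A \ T) := by
  rw [← lintegral_inter_add_sdiff f A hT]
  congr 1
  · rw [setLIntegral_congr_fun (hA.inter hT) (g := fun _ => c) (fun x hx => h1 x hx.2),
      setLIntegral_const]
  · rw [setLIntegral_congr_fun (hA.diff hT) (g := fun _ => d) (fun x hx => h2 x hx.2),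
      setLIntegral_const]

theorem lintegral_wgt {K : Set Space} (hc : IsCompact K) {S : Set Space} (hS : IsOpen S)
    {a b : ℝ} (hb : 0 ≤ b) (hab : b ≤ a) :
    (∫⁻ x in K, wgt S a b x) + ENNReal.ofReal b * volume (S ∩ K) =
      ENNReal.ofReal a * volume K := by
  rw [setLIntegral_two volume hc.isClosed.measurableSet hS.measurableSet (ENNReal.ofReal (a - b))
    (ENNReal.ofReal a) (wgt S a b) (fun x hx => wgt_of_mem a b hx)
    (fun x hx => wgt_of_notMem a b hx), inter_comm S K]
  have h1 : ENNReal.ofReal a = ENNReal.ofReal (a - b) + ENNReal.ofReal b := by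
    rw [← ENNReal.ofReal_add (by linarith) hb]
    congr 1
    ring
  have h2 : volume K = volume (K ∩ S) + volume (K \ S) :=
    (measure_inter_add_sdiff K hS.measurableSet).symm
  rw [h2, mul_add]
  have h3 : ENNReal.ofReal a * volume (K ∩ S) =
      ENNReal.ofReal (a - b) * volume (K ∩ S) + ENNReal.ofReal b * volume (K ∩ S) := by
    rw [← add_mul, ← h1]
  rw [h3]
  ring

theorem lineInt_wgt {K : Set Space} (hK : Convex ℝ K) (hc : IsCompact K) {S : Set Space}
    (hS : IsOpen S) {a b : ℝ} (hb : 0 ≤ b) (hab : b ≤ a) (p v : Space) (hv : v ≠ 0) :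
    lineInt K (wgt S a b) p v = 0 ∨ ∃ P ∈ K, ∃ Q ∈ K, ∃ s : ℝ, 0 ≤ s ∧ Q - P = s • v ∧
      lineInt K (wgt S a b) p v = ENNReal.ofReal (s * (a - b * mfrac S P Q)) := by
  have hcont : Continuous (fun t : ℝ => p + t • v) := by fun_prop
  set I : Set ℝ := {t : ℝ | p + t • v ∈ K} with hI
  set J' : Set ℝ := {t : ℝ | p + t • v ∈ S} with hJ'
  have hIcl : IsClosed I := hc.isClosed.preimage hcont
  have hJ'm : MeasurableSet J' := (hS.preimage hcont).measurableSet
  have hIconv : Convex ℝ I := by
    intro x hx y hy α β hα hβ hαβ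
    have h := hK hx hy hα hβ hαβ
    have e : α • (p + x • v) + β • (p + y • v) = p + (α • x + β • y) • v := by
      have e1 : α • p + β • p = p := by rw [← add_smul, hαβ, one_smul]
      simp only [smul_add, add_smul, smul_smul, smul_eq_mul]
      calc α • p + (α * x) • v + (β • p + (β * y) • v)
          = (α • p + β • p) + ((α * x) • v + (β * y) • v) := by abel
        _ = _ := by rw [e1]
    rw [e] at h
    exact h
  have hIbdd : Bornology.IsBounded I := by
    obtain ⟨R, hR⟩ := hc.isBounded.exists_norm_le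
    rw [isBounded_iff_forall_norm_le]
    refine ⟨(R + ‖p‖) / ‖v‖, fun t ht => ?_⟩
    have hvpos : 0 < ‖v‖ := norm_pos_iff.2 hv
    rw [le_div_iff₀ hvpos, ← norm_smul]
    have h1 : ‖p + t • v‖ ≤ R := hR _ ht
    calc ‖t • v‖ = ‖(p + t • v) - p‖ := by congr 1; abel
      _ ≤ ‖p + t • v‖ + ‖p‖ := norm_sub_le _ _
      _ ≤ R + ‖p‖ := by linarith
  have hIc : IsCompact I := Metric.isCompact_of_isClosed_isBounded hIcl hIbdd
  have hline : lineInt K (wgt S a b) p v = ∫⁻ t in I, wgt S a b (p + t • v) := by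
    unfold lineInt
    rw [← lintegral_indicator hIcl.measurableSet]
    refine lintegral_congr fun t => ?_
    by_cases ht : t ∈ I
    · rw [indicator_of_mem ht, indicator_of_mem (show p + t • v ∈ K from ht)]
    · rw [indicator_of_notMem ht, indicator_of_notMem (show p + t • v ∉ K from ht)]
  have hval : lineInt K (wgt S a b) p v =
      ENNReal.ofReal (a - b) * volume (I ∩ J') + ENNReal.ofReal a * volume (I \ J') := by
    rw [hline]
    exact setLIntegral_two volume hIcl.measurableSet hJ'm _ _ _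
      (fun t ht => wgt_of_mem a b ht) (fun t ht => wgt_of_notMem a b ht)
  rcases I.eq_empty_or_nonempty with hIe | hIne
  · left
    rw [hval, hIe]
    simp
  right
  have ht0 : sInf I ∈ I := hIc.sInf_mem hIne
  have ht1 : sSup I ∈ I := hIc.sSup_mem hIne
  set t0 := sInf I with ht0d
  set t1 := sSup I with ht1d
  have hIeq : I = Icc t0 t1 := by
    apply Subset.antisymm
    · exact fun z hz => ⟨csInf_le hIc.bddBelow hz, le_csSup hIc.bddAbove hz⟩
    · exact hIconv.ordConnected.out ht0 ht1
  have h01 : t0 ≤ t1 := csInf_le hIc.bddBelow ht1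
  have hQP : (p + t1 • v) - (p + t0 • v) = (t1 - t0) • v := by
    rw [sub_smul]; abel
  refine ⟨p + t0 • v, ht0, p + t1 • v, ht1, t1 - t0, by linarith, hQP, ?_⟩
  have hvolI : volume I = ENNReal.ofReal (t1 - t0) := by rw [hIeq, Real.volume_Icc]
  have hJfin : volume (I ∩ J') ≠ ⊤ :=
    ((measure_mono inter_subset_left).trans_lt hIc.measure_lt_top).ne
  set j := (volume (I ∩ J')).toReal with hj
  have hj0 : 0 ≤ j := ENNReal.toReal_nonneg
  have hvolJ : volume (I ∩ J') = ENNReal.ofReal j := (ENNReal.ofReal_toReal hJfin).symm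
  have hjle : j ≤ t1 - t0 := by
    have h := ENNReal.toReal_mono (hIc.measure_lt_top).ne
      (measure_mono (inter_subset_left : I ∩ J' ⊆ I) : volume (I ∩ J') ≤ volume I)
    rw [hvolI, ENNReal.toReal_ofReal (by linarith)] at h
    exact h
  have hvolD : volume (I \ J') = ENNReal.ofReal (t1 - t0 - j) := by
    have h := measure_inter_add_sdiff (μ := volume) I hJ'm
    rw [hvolI, hvolJ] at h
    have h2 : ENNReal.ofReal (t1 - t0) = ENNReal.ofReal j + ENNReal.ofReal (t1 - t0 - j) := by
      rw [← ENNReal.ofReal_add hj0 (by linarith)]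
      congr 1
      ring
    rw [h2] at h
    exact (ENNReal.add_right_inj ENNReal.ofReal_ne_top).1 h
  have hjm : j = (t1 - t0) * mfrac S (p + t0 • v) (p + t1 • v) := by
    rcases h01.eq_or_lt with he | hlt
    · have : j = 0 := by
        have : t1 - t0 = 0 := by linarith
        linarith
      rw [this, ← he]
      simp
    · have hs : 0 < t1 - t0 := by linarith
      have hset : {t : ℝ | t ∈ Icc (0 : ℝ) 1 ∧
          (p + t0 • v) + t • ((p + t1 • v) - (p + t0 • v)) ∈ S} =
          (fun τ : ℝ => (t1 - t0) * τ) ⁻¹' ((fun x : ℝ => t0 + x) ⁻¹' (I ∩ J')) := by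
        ext τ
        simp only [mem_ofPred_eq, mem_preimage, mem_inter_iff]
        have e : (p + t0 • v) + τ • ((p + t1 • v) - (p + t0 • v)) =
            p + (t0 + (t1 - t0) * τ) • v := by
          rw [hQP, smul_smul, add_smul, add_assoc, mul_comm]
        rw [e, hIeq]
        constructor
        · rintro ⟨⟨h0, h1⟩, h2⟩
          refine ⟨⟨by nlinarith, by nlinarith⟩, h2⟩
        · rintro ⟨⟨h0, h1⟩, h2⟩
          refine ⟨⟨?_, ?_⟩, h2⟩
          · by_contra hneg
            push Not at hneg
            nlinarith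
          · by_contra hneg
            push Not at hneg
            nlinarith
      unfold mfrac
      rw [hset, Real.volume_preimage_mul_left hs.ne', measure_preimage_add, ENNReal.toReal_mul,
        ENNReal.toReal_ofReal (abs_nonneg _), abs_of_pos (inv_pos.2 hs), ← hj, ← mul_assoc,
        mul_inv_cancel₀ hs.ne', one_mul]
  rw [hval, hvolJ, hvolD, ← ENNReal.ofReal_mul (by linarith), ← ENNReal.ofReal_mul (by linarith),
    ← ENNReal.ofReal_add (mul_nonneg (by linarith) hj0)
      (mul_nonneg (by linarith) (by linarith))]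
  congr 1
  have h4 : (t1 - t0) * (a - b * mfrac S (p + t0 • v) (p + t1 • v)) =
      (t1 - t0) * a - b * ((t1 - t0) * mfrac S (p + t0 • v) (p + t1 • v)) := by ring
  rw [h4, ← hjm]
  ring

end Vale.Agent.Lib.P243.Soft
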