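import Mathlib
import Vale.Agent.Lib.P243.Soft.Defs
import Vale.Agent.Lib.P243.Soft.HH
import Vale.Agent.Lib.P243.Soft.MFrac
import Vale.Agent.Lib.P243.Soft.Wgt
import Vale.Agent.Lib.P243.Soft.Gap
import Vale.Agent.Lib.P243.Soft.Star

/-!
P243 soft, S33: every convex body with `0` in its interior has a positive gain.
`gain_of_star`: `d` from `exists_gap`.  May assume `σ ≤ 1`?  (not needed.)  Let `e = min 1 (d/σ)`, `a = 1 + e σ`, `b = e`, `ρ = wgt S a b` (`0 ≤ b ≤ a`).
Feasibility at `(p,v)`: `v = 0`: `hh_zero`.  `v ≠ 0`: `lineInt_wgt`; in the second case `hh K v * ofReal (s (a - b m)) = hh K (Q - P) * ofReal (a - b m)`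
(`hh_smul`, `m = mfrac S P Q`, `a - b m ≥ a - b ≥ 0` as `m ≤ 1`).  If `m > σ`: `a - b m < 1`, and `hh K (Q-P) ≤ 3 vol K` (`hh_le`).
If `m ≤ σ`: `a - b m ≤ 1 + e σ ≤ 1 + d`, `hh K (Q-P) ≤ (1-d) 3 vol K`, `(1-d)(1+d) ≤ 1`.
Average: `lintegral_wgt`: `∫_K ρ = a V - e vol(S ∩ K)`; with `s0 = vol (S ∩ K)/V < σ` this is `(1 + e (σ - s0)) V`; `ε = e (σ - s0) > 0`.
`gain_each`: combine with `star`.
-/

namespace Vale.Agent.Lib.P243.Soft

open MeasureTheory Set

theorem gain_of_star {K : Set Space} (hK : Convex ℝ K) (hc : IsCompact K) (hV : volume K ≠ 0)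
    {S : Set Space} {σ : ℝ} (hS : IsOpen S) (hσ : 0 < σ)
    (hvol : volume (S ∩ K) < ENNReal.ofReal σ * volume K)
    (hT : ∀ p q, Tight K p q → σ < mfrac S p q) : ∃ ε : ℝ, 0 < ε ∧ Gain K ε := by
  obtain ⟨d, ⟨hd0, hd1⟩, hgap⟩ := exists_gap hK hc hV hS hT
  have hVt : volume K ≠ ⊤ := hc.measure_lt_top.ne
  set e : ℝ := min 1 (d / σ) with he
  have he0 : 0 < e := lt_min one_pos (div_pos hd0 hσ)
  have he1 : e ≤ 1 := min_le_left _ _
  have heσ : e * σ ≤ d := by
    have h1 : e ≤ d / σ := min_le_right _ _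
    calc e * σ ≤ d / σ * σ := mul_le_mul_of_nonneg_right h1 hσ.le
      _ = d := div_mul_cancel₀ d hσ.ne'
  have heσ0 : 0 < e * σ := mul_pos he0 hσ
  set a : ℝ := 1 + e * σ with ha
  have hb : (0 : ℝ) ≤ e := he0.le
  have hab : e ≤ a := by rw [ha]; linarith
  have ha0 : 0 ≤ a := hb.trans hab
  -- real quantities
  set Vr : ℝ := (volume K).toReal with hVr
  have hVr0 : 0 < Vr := ENNReal.toReal_pos hV hVt
  have hVeq : volume K = ENNReal.ofReal Vr := (ENNReal.ofReal_toReal hVt).symm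
  have hSt : volume (S ∩ K) ≠ ⊤ :=
    ((measure_mono inter_subset_right).trans_lt hc.measure_lt_top).ne
  set x : ℝ := (volume (S ∩ K)).toReal with hx
  have hx0 : 0 ≤ x := ENNReal.toReal_nonneg
  have hxeq : volume (S ∩ K) = ENNReal.ofReal x := (ENNReal.ofReal_toReal hSt).symm
  have hxlt : x < σ * Vr := by
    rw [hxeq, hVeq, ← ENNReal.ofReal_mul hσ.le] at hvol
    exact (ENNReal.ofReal_lt_ofReal_iff (mul_pos hσ hVr0)).1 hvol
  refine ⟨e * (σ - x / Vr), ?_, wgt S a e, measurable_wgt hS a e, ⟨a.toNNReal, ?_⟩, ?_, ?_⟩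
  · apply mul_pos he0
    rw [sub_pos, div_lt_iff₀ hVr0]
    exact hxlt
  · intro y
    exact wgt_le S hb y
  · intro p v
    by_cases hv : v = 0
    · subst hv
      rw [hh_zero, zero_mul]
      exact zero_le
    rcases lineInt_wgt hK hc hS hb hab p v hv with h0 | ⟨P, hP, Q, hQ, s, hs, hPQ, hint⟩
    · rw [h0, mul_zero]
      exact zero_le
    rw [hint, ENNReal.ofReal_mul hs, ← mul_assoc, mul_comm (hh K v), ← hh_smul hK hc v hs, ← hPQ]
    have hm0 := mfrac_nonneg S P Q
    by_cases hm : mfrac S P Q ≤ σ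
    · have h1 := hgap P hP Q hQ hm
      have h2 : a - e * mfrac S P Q ≤ 1 + d := by
        have : 0 ≤ e * mfrac S P Q := mul_nonneg hb hm0
        rw [ha]; linarith
      calc hh K (Q - P) * ENNReal.ofReal (a - e * mfrac S P Q)
          ≤ (ENNReal.ofReal (1 - d) * (3 * volume K)) * ENNReal.ofReal (1 + d) :=
            mul_le_mul' h1 (ENNReal.ofReal_le_ofReal h2)
        _ = ENNReal.ofReal ((1 - d) * (1 + d)) * (3 * volume K) := by
            rw [ENNReal.ofReal_mul (by linarith)]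
            ring
        _ ≤ 1 * (3 * volume K) := by
            apply mul_le_mul' _ le_rfl
            rw [← ENNReal.ofReal_one]
            apply ENNReal.ofReal_le_ofReal
            nlinarith
        _ = 3 * volume K := one_mul _
    · rw [not_le] at hm
      have h2 : a - e * mfrac S P Q ≤ 1 := by
        have : e * σ ≤ e * mfrac S P Q := mul_le_mul_of_nonneg_left hm.le hb
        rw [ha]; linarith
      calc hh K (Q - P) * ENNReal.ofReal (a - e * mfrac S P Q)
          ≤ (3 * volume K) * 1 := by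
            apply mul_le_mul' (hh_le hK hc hP hQ)
            rw [← ENNReal.ofReal_one]
            exact ENNReal.ofReal_le_ofReal h2
        _ = 3 * volume K := mul_one _
  · have hint := lintegral_wgt hc hS hb hab
    have hε0 : 0 ≤ 1 + e * (σ - x / Vr) := by
      have : 0 < σ - x / Vr := by
        rw [sub_pos, div_lt_iff₀ hVr0]
        exact hxlt
      have := mul_pos he0 this
      linarith
    have h1 : ENNReal.ofReal (1 + e * (σ - x / Vr)) * volume K
        + ENNReal.ofReal e * volume (S ∩ K) = ENNReal.ofReal a * volume K := by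
      rw [hxeq, hVeq, ← ENNReal.ofReal_mul hε0, ← ENNReal.ofReal_mul hb, ← ENNReal.ofReal_mul ha0,
        ← ENNReal.ofReal_add (mul_nonneg hε0 hVr0.le) (mul_nonneg hb hx0)]
      congr 1
      rw [ha]
      field_simp
      ring
    have hfin : ENNReal.ofReal e * volume (S ∩ K) ≠ ⊤ :=
      ENNReal.mul_ne_top ENNReal.ofReal_ne_top hSt
    exact le_of_eq ((ENNReal.add_left_inj hfin).1 (h1.trans hint.symm))

theorem gain_each {K : Set Space} (hK : Convex ℝ K) (hc : IsCompact K)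
    (h0 : K ∈ nhds (0 : Space)) : ∃ ε : ℝ, 0 < ε ∧ Gain K ε := by
  obtain ⟨S, σ, hS, hσ, hvol, hT⟩ := star hK hc h0
  have hV : volume K ≠ 0 := (Measure.measure_pos_of_mem_nhds volume h0).ne'
  exact gain_of_star hK hc hV hS hσ hvol hT

end Vale.Agent.Lib.P243.Soft
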