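import Mathlib
import Vale.Agent.Lib.P243.Soft.Defs

/-!
P243 soft, S36: Hausdorff closeness implies a sandwich.
`x ∈ K`: there is `y ∈ K0` with `dist x y < δ` (`Metric.exists_dist_lt_of_hausdorffDist_lt`; the Hausdorff edistance of nonempty bounded sets is finite,
`Metric.hausdorffEDist_ne_top_of_nonempty_of_bounded`).  `w = (r/δ) (x - y) ∈ closedBall 0 r ⊆ K0`.  With `λ = 1 + δ/r`:
`x = y + (δ/r) w = λ ((1/λ) y + ((δ/r)/λ) w) ∈ λ K0` by convexity.
-/

namespace Vale.Agent.Lib.P243.Soft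

open MeasureTheory Set Metric
open scoped Pointwise

theorem subset_smul_of_hausdorffDist {K K0 : Set Space} (hc : IsCompact K) (hne : K.Nonempty)
    (hc0 : IsCompact K0) (hK0 : Convex ℝ K0) {r δ : ℝ} (hr : 0 < r)
    (hball : closedBall (0 : Space) r ⊆ K0) (hδ : hausdorffDist K K0 < δ) :
    K ⊆ (1 + δ / r) • K0 := by
  have hδ0 : 0 < δ := lt_of_le_of_lt hausdorffDist_nonneg hδ
  have hne0 : K0.Nonempty := ⟨0, hball (mem_closedBall_self hr.le)⟩
  have hfin : hausdorffEDist K K0 ≠ ⊤ :=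
    hausdorffEDist_ne_top_of_nonempty_of_bounded hne hne0 hc.isBounded hc0.isBounded
  intro x hx
  obtain ⟨y, hy, hxy⟩ := exists_dist_lt_of_hausdorffDist_lt hx hδ hfin
  set w : Space := (r / δ) • (x - y) with hw
  have hwK : w ∈ K0 := by
    apply hball
    rw [mem_closedBall_zero_iff, hw, norm_smul, Real.norm_of_nonneg (by positivity),
      div_mul_eq_mul_div, div_le_iff₀ hδ0]
    rw [dist_eq_norm] at hxy
    exact mul_le_mul_of_nonneg_left hxy.le hr.le
  have hl : 0 < 1 + δ / r := by positivity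
  refine ⟨(1 / (1 + δ / r)) • y + ((δ / r) / (1 + δ / r)) • w, ?_, ?_⟩
  · refine hK0 hy hwK (by positivity) (by positivity) ?_
    field_simp
  · show (1 + δ / r) • ((1 / (1 + δ / r)) • y + ((δ / r) / (1 + δ / r)) • w) = x
    rw [smul_add, smul_smul, smul_smul, hw, smul_smul]
    have e1 : (1 + δ / r) * (1 / (1 + δ / r)) = 1 := by field_simp
    have e2 : (1 + δ / r) * ((δ / r) / (1 + δ / r)) * (r / δ) = 1 := by field_simp
    rw [e1, e2, one_smul, one_smul]
    abel

end Vale.Agent.Lib.P243.Soft
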