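import Mathlib
import Vale.Agent.Lib.P243.Soft.Defs
import Vale.Agent.Lib.P243.Soft.Image1
import Vale.Agent.Lib.P243.Soft.Image2
import Vale.Agent.Lib.P243.Soft.HH

/-!
P243 soft, S35: stability of the gain under a sandwich `K ⊆ λ K0`, `K0 ⊆ λ K`.
Let `ρ0 ≤ M` be the weight of `K0`, `V0 = vol K0` (`0 < V0 < ∞`; if `V0 = 0` ... we assume `vol K0 ≠ 0`).  Choose `λ > 1` with
`(1 + ε0/2) λ^6 + M (1 - λ^(-6)) ≤ 1 + ε0` (possible by continuity at `λ = 1`).  `Φ = ` multiplication by `λ` (a continuous linear equivalence), `K' = λ K0 = Φ '' K0`,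
`ρ' = ρ0 ∘ Φ.symm`, `ρ = λ^(-6) ρ'`.
Feasibility: `hh K v ≤ hh K' v` (`hh_mono`), `lineInt K ρ' p v ≤ lineInt K' ρ' p v` (`K ⊆ K'`), `Feas K' ρ'` (`feas_image`), so
`hh K v * lineInt K ρ p v ≤ λ^(-6) 3 vol K' = λ^(-3) 3 V0 ≤ 3 vol K` because `V0 ≤ λ^3 vol K`.
Average: `∫_K ρ' ≥ ∫_{K'} ρ' - M vol (K' \ K) = λ^3 ∫_{K0} ρ0 - M (λ^3 V0 - vol K) ≥ λ^3 (1+ε0) V0 - M (λ^3 - λ^(-3)) V0`, and `vol K ≤ λ^3 V0`; so
`∫_K ρ ≥ λ^(-3) [(1+ε0) - M (1 - λ^(-6))] V0 ≥ λ^(-3) (1+ε0/2) λ^6 V0 ≥ (1 + ε0/2) vol K`.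
-/

namespace Vale.Agent.Lib.P243.Soft

open MeasureTheory Set
open scoped Pointwise

/-- The real inequality behind the estimate of the average. -/
theorem sandwich_real {a m e x v0 : ℝ} (ha : 1 ≤ a) (hm : 0 ≤ m) (he : 0 < e)
    (hv0 : 0 ≤ v0) (c1 : v0 ≤ a * x) (c2 : x ≤ a * v0)
    (hd : (1 + e / 2) * a ^ 2 + m * (a ^ 2 - 1) ≤ 1 + e) :
    (1 + e / 2) * (a * a) * x + m * (a * v0 - x) ≤ a * ((1 + e) * v0) := by
  have ha0 : 0 < a := by linarith
  have h1 : 0 ≤ a * v0 * (a ^ 2 - 2) + x := by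
    have h : 0 ≤ a * (a * v0 * (a ^ 2 - 2) + x) := by
      nlinarith [mul_nonneg hv0 (sq_nonneg (a ^ 2 - 1))]
    exact (mul_nonneg_iff_of_pos_left ha0).mp h
  have h2 := mul_le_mul_of_nonneg_left hd (mul_nonneg ha0.le hv0)
  have h3 := mul_nonneg hm h1
  have h4 : 0 ≤ (1 + e / 2) * a ^ 2 * (a * v0 - x) :=
    mul_nonneg (by positivity) (by linarith)
  nlinarith [h2, h3, h4]

/-- The choice of the dilation factor. -/
theorem sandwich_choice {m e : ℝ} (hm : 0 ≤ m) (he : 0 < e) :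
    ∃ l : ℝ, 1 < l ∧ (1 + e / 2) * (l ^ 3) ^ 2 + m * ((l ^ 3) ^ 2 - 1) ≤ 1 + e := by
  set η : ℝ := (e / 2) / (1 + e / 2 + m) with hη
  have hden : 0 < 1 + e / 2 + m := by positivity
  have hη0 : 0 < η := by positivity
  have hη1 : η ≤ 1 := by
    rw [hη, div_le_one hden]
    linarith
  have hηm : (1 + e / 2 + m) * η = e / 2 := by
    rw [hη]
    field_simp
  set x : ℝ := η / 63 with hx
  have hx0 : 0 < x := by positivity
  have hx1 : x ≤ 1 := by rw [hx]; linarith
  refine ⟨1 + x, by linarith, ?_⟩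
  have h3 : (1 + x) ^ 3 ≤ 1 + 7 * x := by nlinarith [mul_nonneg hx0.le hx0.le, mul_nonneg (mul_nonneg hx0.le hx0.le) hx0.le]
  have h30 : 0 ≤ (1 + x) ^ 3 := by positivity
  have h6 : ((1 + x) ^ 3) ^ 2 ≤ 1 + 63 * x := by
    have : ((1 + x) ^ 3) ^ 2 ≤ (1 + 7 * x) ^ 2 := pow_le_pow_left₀ h30 h3 2
    nlinarith
  have h6' : ((1 + x) ^ 3) ^ 2 - 1 ≤ η := by
    rw [hx] at h6 ⊢
    linarith
  have := mul_le_mul_of_nonneg_left h6' hden.le
  nlinarith

theorem gain_sandwich {K0 : Set Space} (hK0 : Convex ℝ K0) (hc0 : IsCompact K0)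
    (hV0 : volume K0 ≠ 0) {ε0 : ℝ} (hε0 : 0 < ε0) (hG : Gain K0 ε0) :
    ∃ l0 : ℝ, 1 < l0 ∧ ∀ K : Set Space, Convex ℝ K → IsCompact K → K ⊆ l0 • K0 → K0 ⊆ l0 • K →
      Gain K (ε0 / 2) := by
  obtain ⟨ρ0, hm0, ⟨M, hM⟩, hF0, hI0⟩ := hG
  obtain ⟨l0, hl0, hd⟩ := sandwich_choice (m := (M : ℝ)) M.coe_nonneg hε0
  refine ⟨l0, hl0, ?_⟩
  intro K hcv hc hsub hsub0
  have hl0pos : 0 < l0 := by linarith
  set a : ℝ := l0 ^ 3 with ha
  have ha1 : 1 ≤ a := one_le_pow₀ hl0.le
  have ha0 : 0 < a := by linarith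
  set A : ENNReal := ENNReal.ofReal a with hA
  have hvol : ∀ X : Set Space, volume (l0 • X) = A * volume X := by
    intro X
    rw [Measure.addHaar_smul, finrank_euclideanSpace_fin, abs_of_pos (by positivity)]
  set Φ : Space ≃L[ℝ] Space :=
    (LinearEquiv.smulOfNeZero ℝ Space l0 hl0pos.ne').toContinuousLinearEquiv with hΦ
  have hΦim : ∀ X : Set Space, Φ '' X = l0 • X := fun X => rfl
  have hV0top : volume K0 ≠ ⊤ := hc0.measure_lt_top.ne
  have hVtop : volume K ≠ ⊤ := hc.measure_lt_top.ne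
  obtain ⟨c, -, -, hsc, hint⟩ := exists_scale Φ
  have hcA : c = A := by
    have h := hsc K0
    rw [hΦim, hvol] at h
    exact ((ENNReal.mul_left_inj hV0 hV0top).mp h).symm
  subst hcA
  set K' : Set Space := l0 • K0 with hK'
  have hcv' : Convex ℝ K' := hK0.smul l0
  have hc' : IsCompact K' := hc0.smul l0
  set ρ' : Space → ENNReal := ρ0 ∘ Φ.symm with hρ'
  have hF' : Feas K' ρ' := (feas_image Φ K0 ρ0).2 hF0
  set C : ENNReal := ENNReal.ofReal (1 / (a * a)) with hC
  have hCtop : C ≠ ⊤ := ENNReal.ofReal_ne_top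
  have hCAA : C * (A * A) = 1 := by
    rw [hC, hA, ← ENNReal.ofReal_mul ha0.le, ← ENNReal.ofReal_mul (by positivity)]
    have : 1 / (a * a) * (a * a) = 1 := by field_simp
    rw [this, ENNReal.ofReal_one]
  have hC1 : C ≤ 1 := by
    rw [hC, ENNReal.ofReal_le_one, div_le_one (by positivity)]
    nlinarith
  -- volumes
  have hv1 : volume K0 ≤ A * volume K := by
    rw [← hvol]
    exact measure_mono hsub0
  have hv2 : volume K ≤ A * volume K0 := by
    rw [← hvol]
    exact measure_mono hsub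
  refine ⟨fun x => C * ρ' x, (hm0.comp Φ.symm.continuous.measurable).const_mul C,
    ⟨M, fun x => (mul_le_of_le_one_left zero_le hC1).trans (hM _)⟩, ?_, ?_⟩
  · intro p v
    have h1 : hh K v ≤ hh K' v := hh_mono hcv hc hcv' hc' hsub v
    have h2 : lineInt K (fun x => C * ρ' x) p v ≤ C * lineInt K' ρ' p v := by
      unfold lineInt
      rw [← lintegral_const_mul' C _ hCtop]
      refine lintegral_mono fun t => ?_
      by_cases hx : p + t • v ∈ K
      · rw [indicator_of_mem hx, indicator_of_mem (hsub hx)]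
      · rw [indicator_of_notMem hx]
        exact zero_le
    have h3 : hh K' v * lineInt K' ρ' p v ≤ 3 * volume K' := hF' p v
    calc hh K v * lineInt K (fun x => C * ρ' x) p v
        ≤ hh K' v * (C * lineInt K' ρ' p v) := mul_le_mul' h1 h2
      _ = C * (hh K' v * lineInt K' ρ' p v) := by ring
      _ ≤ C * (3 * volume K') := by gcongr
      _ = C * (3 * (A * volume K0)) := by rw [hK', hvol]
      _ ≤ C * (3 * (A * (A * volume K))) := by gcongr
      _ = (C * (A * A)) * (3 * volume K) := by ring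
      _ = 3 * volume K := by rw [hCAA, one_mul]
  · rw [lintegral_const_mul' C _ hCtop]
    -- the main inequality
    have hmain : ENNReal.ofReal (1 + ε0 / 2) * (A * A) * volume K ≤ ∫⁻ x in K, ρ' x := by
      have hKm : MeasurableSet K := hc.isClosed.measurableSet
      have hsplit : (∫⁻ x in K, ρ' x) + ∫⁻ x in K' \ K, ρ' x = ∫⁻ x in K', ρ' x := by
        have h := lintegral_inter_add_sdiff (μ := volume) ρ' K' hKm
        rwa [inter_eq_right.mpr hsub] at h
      have hK'int : ∫⁻ x in K', ρ' x = A * ∫⁻ x in K0, ρ0 x := by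
        have h := hint K0 ρ'
        rw [hΦim] at h
        rw [h]
        congr 1
        refine lintegral_congr fun x => ?_
        simp [hρ']
      have hdiff : ∫⁻ x in K' \ K, ρ' x ≤ M * volume (K' \ K) := by
        calc ∫⁻ x in K' \ K, ρ' x ≤ ∫⁻ _ in K' \ K, (M : ENNReal) := lintegral_mono fun x => hM _
          _ = M * volume (K' \ K) := setLIntegral_const _ _
      have hdvol : volume (K' \ K) = A * volume K0 - volume K := by
        rw [measure_sdiff hsub hKm.nullMeasurableSet hVtop, hK', hvol]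
      set x : ℝ := (volume K).toReal with hx
      set v0 : ℝ := (volume K0).toReal with hv0
      have hxe : volume K = ENNReal.ofReal x := (ENNReal.ofReal_toReal hVtop).symm
      have hv0e : volume K0 = ENNReal.ofReal v0 := (ENNReal.ofReal_toReal hV0top).symm
      have hx0 : 0 ≤ x := ENNReal.toReal_nonneg
      have hv00 : 0 ≤ v0 := ENNReal.toReal_nonneg
      have c1 : v0 ≤ a * x := by
        rw [hxe, hv0e, hA, ← ENNReal.ofReal_mul ha0.le,
          ENNReal.ofReal_le_ofReal_iff (by positivity)] at hv1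
        exact hv1
      have c2 : x ≤ a * v0 := by
        rw [hxe, hv0e, hA, ← ENNReal.ofReal_mul ha0.le,
          ENNReal.ofReal_le_ofReal_iff (by positivity)] at hv2
        exact hv2
      have hreal := sandwich_real ha1 M.coe_nonneg hε0 hv00 c1 c2 hd
      have hMe : (M : ENNReal) = ENNReal.ofReal (M : ℝ) := (ENNReal.ofReal_coe_nnreal).symm
      have hMd : (M : ENNReal) * volume (K' \ K) = ENNReal.ofReal ((M : ℝ) * (a * v0 - x)) := by
        rw [hdvol, hxe, hv0e, hA, ← ENNReal.ofReal_mul ha0.le, ← ENNReal.ofReal_sub _ hx0, hMe,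
          ← ENNReal.ofReal_mul M.coe_nonneg]
      have hkey : ENNReal.ofReal (1 + ε0 / 2) * (A * A) * volume K + M * volume (K' \ K)
          ≤ (∫⁻ x in K, ρ' x) + M * volume (K' \ K) := by
        calc ENNReal.ofReal (1 + ε0 / 2) * (A * A) * volume K + M * volume (K' \ K)
            = ENNReal.ofReal ((1 + ε0 / 2) * (a * a) * x + (M : ℝ) * (a * v0 - x)) := by
              rw [hMd, hxe, hA, ← ENNReal.ofReal_mul ha0.le, ← ENNReal.ofReal_mul (by positivity),
                ← ENNReal.ofReal_mul (by positivity), ← ENNReal.ofReal_add (by positivity)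
                  (mul_nonneg M.coe_nonneg (by linarith))]
          _ ≤ ENNReal.ofReal (a * ((1 + ε0) * v0)) := ENNReal.ofReal_le_ofReal hreal
          _ = A * (ENNReal.ofReal (1 + ε0) * volume K0) := by
              rw [hv0e, hA, ← ENNReal.ofReal_mul (by positivity), ← ENNReal.ofReal_mul ha0.le]
          _ ≤ A * ∫⁻ x in K0, ρ0 x := by gcongr
          _ = (∫⁻ x in K, ρ' x) + ∫⁻ x in K' \ K, ρ' x := by rw [hsplit, hK'int]
          _ ≤ (∫⁻ x in K, ρ' x) + M * volume (K' \ K) := by gcongr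
      have hfin : (M : ENNReal) * volume (K' \ K) ≠ ⊤ := by
        rw [hMd]
        exact ENNReal.ofReal_ne_top
      exact (ENNReal.add_le_add_iff_right hfin).mp hkey
    calc ENNReal.ofReal (1 + ε0 / 2) * volume K
        = (C * (A * A)) * (ENNReal.ofReal (1 + ε0 / 2) * volume K) := by rw [hCAA, one_mul]
      _ = C * (ENNReal.ofReal (1 + ε0 / 2) * (A * A) * volume K) := by ring
      _ ≤ C * ∫⁻ x in K, ρ' x := by gcongr

end Vale.Agent.Lib.P243.Soft
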