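import Mathlib
import Vale.Agent.Lib.P243.Soft.Defs
import Vale.Agent.Lib.P243.Soft.Sandwich
import Vale.Agent.Lib.P243.Soft.Hausdorff

/-!
P243 soft, S37: local uniformity of the gain on `Kcl`.
`l0` from `gain_sandwich`; `δ = (l0 - 1)/10`, so `1 + δ/(1/10) = l0`.  For `K ∈ Kcl` with `hausdorffDist K K0 < δ`, `subset_smul_of_hausdorffDist` (twice,
`hausdorffDist_comm`) gives `K ⊆ l0 K0`, `K0 ⊆ l0 K`.  `vol K0 ≠ 0` since `K0` contains a ball.
-/

namespace Vale.Agent.Lib.P243.Soft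

open MeasureTheory Set Metric

theorem gain_local {K0 : Set Space} (hK0 : K0 ∈ Kcl) {ε0 : ℝ} (hε0 : 0 < ε0) (hG : Gain K0 ε0) :
    ∃ δ : ℝ, 0 < δ ∧ ∀ K ∈ Kcl, hausdorffDist K K0 < δ → Gain K (ε0 / 2) := by
  obtain ⟨hc0, hcv0, hb0, -⟩ := hK0
  have hr : (0 : ℝ) < 1 / 10 := by norm_num
  have hV0 : volume K0 ≠ 0 := by
    intro h
    have h1 : volume (closedBall (0 : Space) (1 / 10)) = 0 := measure_mono_null hb0 h
    exact (measure_closedBall_pos volume (0 : Space) hr).ne' h1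
  obtain ⟨l0, hl0, hS⟩ := gain_sandwich hcv0 hc0 hV0 hε0 hG
  refine ⟨(l0 - 1) / 10, by linarith, ?_⟩
  rintro K ⟨hc, hcv, hb, -⟩ hd
  have e : 1 + (l0 - 1) / 10 / (1 / 10) = l0 := by ring
  have hne : K.Nonempty := ⟨0, hb (mem_closedBall_self hr.le)⟩
  have hne0 : K0.Nonempty := ⟨0, hb0 (mem_closedBall_self hr.le)⟩
  have h1 := subset_smul_of_hausdorffDist hc hne hc0 hcv0 hr hb0 hd
  rw [hausdorffDist_comm] at hd
  have h2 := subset_smul_of_hausdorffDist hc0 hne0 hc hcv hr hb hd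
  rw [e] at h1 h2
  exact hS K hcv hc h1 h2

end Vale.Agent.Lib.P243.Soft
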