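import Mathlib
import Vale.Agent.Lib.P243.Soft.Defs

/-!
P243 soft, S34: every convex body has an affine image in the normalised class `Kcl`.
Maximal volume simplex.  `f (x0,x1,x2,x3) = |det (x1 - x0, x2 - x0, x3 - x0)|` is continuous on the compact set `K^4`; let `(x0,..,x3)` be a maximiser.
The maximum is positive (`K` has interior points, so it contains `c, c + r e_1, c + r e_2, c + r e_3`).  Let `T0` be the linear equivalence with
`T0 (x_i - x0) = e_i` (`i = 1,2,3`) and `G x = T0 (x - x0)`.  Then `G K ∋ 0, e_1, e_2, e_3`, so `G K ⊇ Δ = conv {0,e_1,e_2,e_3}` and for `y = G x`, `x ∈ K`: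
replacing `x_i` by `x` multiplies the determinant by `y_i`, so `|y_i| ≤ 1` by maximality.
Final map: `x ↦ G x - c`, `c = (1/4,1/4,1/4)`, i.e. `T = T0`, `w = - T0 x0 - c`.
`closedBall 0 (1/10) + c ⊆ Δ`: coordinates `≥ 1/4 - 1/10 > 0`, sum `≤ 3/4 + √3/10 < 1`.  `G K - c ⊆ [-5/4,3/4]^3 ⊆ closedBall 0 3`.
-/

namespace Vale.Agent.Lib.P243.Soft

open MeasureTheory Set

/-- The edge matrix of a 4-tuple of points. -/
noncomputable def edgeM (X : Fin 4 → Space) : Matrix (Fin 3) (Fin 3) ℝ :=
  Matrix.of fun r c => X c.succ r - X 0 r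

lemma continuous_edge_det : Continuous fun X : Fin 4 → Space => |(edgeM X).det| := by
  refine continuous_abs.comp (Continuous.matrix_det ?_)
  refine continuous_matrix fun r c => ?_
  simp only [edgeM, Matrix.of_apply]
  fun_prop

lemma edgeM_update (X : Fin 4 → Space) (i : Fin 3) (x : Space) :
    edgeM (Function.update X i.succ x) = (edgeM X).updateCol i (fun r => x r - X 0 r) := by
  ext r c
  have h0 : (0 : Fin 4) ≠ i.succ := (Fin.succ_ne_zero i).symm
  by_cases hc : c = i
  · subst hc
    simp [edgeM, Function.update_of_ne h0]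
  · have : c.succ ≠ i.succ := fun h => hc (Fin.succ_injective _ h)
    simp [edgeM, Function.update_of_ne h0, Function.update_of_ne this, Matrix.updateCol_ne hc]

lemma exists_equiv (A : Matrix (Fin 3) (Fin 3) ℝ) (hA : A.det ≠ 0) :
    ∃ S : Space ≃L[ℝ] Space, ∀ (y : Space) (r : Fin 3), (S y) r = ∑ c, A r c * y c := by
  let e := EuclideanSpace.equiv (Fin 3) ℝ
  let L : (Fin 3 → ℝ) ≃ₗ[ℝ] (Fin 3 → ℝ) :=
    Matrix.toLinearEquiv' A (Matrix.invertibleOfIsUnitDet A (isUnit_iff_ne_zero.mpr hA))
  refine ⟨(e.trans L.toContinuousLinearEquiv).trans e.symm, fun y r => ?_⟩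
  simp [e, L, Matrix.toLinearEquiv', Matrix.mulVec, dotProduct]

lemma cramer_coord (A : Matrix (Fin 3) (Fin 3) ℝ) (y : Fin 3 → ℝ) (i : Fin 3) :
    (A.updateCol i (A.mulVec y)).det = A.det * y i := by
  have h := congrFun (Matrix.cramer_eq_adjugate_mulVec A (A.mulVec y)) i
  rw [Matrix.cramer_apply, Matrix.mulVec_mulVec, Matrix.adjugate_mul, Matrix.smul_mulVec,
    Matrix.one_mulVec] at h
  simpa using h

theorem normalize {K : Set Space} (hK : Convex ℝ K) (hc : IsCompact K)
    (hint : (interior K).Nonempty) :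
    ∃ (T : Space ≃L[ℝ] Space) (w : Space), (fun x => T x + w) '' K ∈ Kcl := by
  classical
  obtain ⟨c0, hc0⟩ := hint
  obtain ⟨ρ, hρ, hball⟩ := Metric.mem_nhds_iff.mp (mem_interior_iff_mem_nhds.mp hc0)
  have hcomp : IsCompact (Set.pi univ fun _ : Fin 4 => K) := isCompact_univ_pi fun _ => hc
  have hne : (Set.pi univ fun _ : Fin 4 => K).Nonempty :=
    ⟨fun _ => c0, fun _ _ => hball (Metric.mem_ball_self hρ)⟩
  obtain ⟨X, hX, hmax⟩ := hcomp.exists_isMaxOn hne continuous_edge_det.continuousOn
  -- positivity of the maximum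
  let X' : Fin 4 → Space := Fin.cons c0 fun i => c0 + (ρ / 2) • EuclideanSpace.single i (1 : ℝ)
  have hX' : X' ∈ Set.pi univ fun _ : Fin 4 => K := by
    intro j _
    refine Fin.cases ?_ (fun i => ?_) j
    · exact hball (Metric.mem_ball_self hρ)
    · apply hball
      have : ‖(ρ / 2) • EuclideanSpace.single i (1 : ℝ)‖ = ρ / 2 := by
        rw [norm_smul, PiLp.norm_single, Real.norm_of_nonneg (by positivity)]
        simp
      simp only [X', Fin.cons_succ, Metric.mem_ball, dist_eq_norm, add_sub_cancel_left, this]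
      linarith
  have hdet' : (edgeM X').det = (ρ / 2) ^ 3 := by
    have : edgeM X' = (ρ / 2) • (1 : Matrix (Fin 3) (Fin 3) ℝ) := by
      ext r c
      simp [edgeM, X', Matrix.one_apply, PiLp.single_apply]
    rw [this, Matrix.det_smul, Matrix.det_one]
    simp
  have hpos : 0 < |(edgeM X).det| := by
    have h1 : |(edgeM X').det| ≤ |(edgeM X).det| := hmax hX'
    rw [hdet'] at h1
    have : 0 < |(ρ / 2) ^ 3| := abs_pos.mpr (by positivity)
    linarith
  have hdet : (edgeM X).det ≠ 0 := abs_pos.mp hpos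
  obtain ⟨S, hS⟩ := exists_equiv (edgeM X) hdet
  let cc : Space := WithLp.toLp 2 (fun _ => (1 / 4 : ℝ))
  have hcc : ∀ i, cc i = 1 / 4 := fun i => rfl
  refine ⟨S.symm, - S.symm (X 0) - cc, ?_, ?_, ?_, ?_⟩
  · exact hc.image (by fun_prop)
  · rintro _ ⟨x, hx, rfl⟩ _ ⟨y, hy, rfl⟩ a b ha hb hab
    refine ⟨a • x + b • y, hK hx hy ha hb hab, ?_⟩
    have hw : (- S.symm (X 0) - cc) = a • (- S.symm (X 0) - cc) + b • (- S.symm (X 0) - cc) := by
      rw [← add_smul, hab, one_smul]
    simp only [map_add, map_smul, smul_add]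
    nth_rewrite 1 [hw]
    abel
  · intro u hu
    have hu2 : u 0 ^ 2 + u 1 ^ 2 + u 2 ^ 2 ≤ 1 / 100 := by
      have h1 : ‖u‖ ≤ 1 / 10 := by simpa using hu
      have h2 := EuclideanSpace.real_norm_sq_eq u
      rw [Fin.sum_univ_three] at h2
      rw [← h2]
      nlinarith [norm_nonneg u]
    let y : Space := u + cc
    have hy : ∀ i, y i = u i + 1 / 4 := fun i => rfl
    have hy0 : ∀ i, 0 ≤ y i := by
      intro i
      rw [hy]
      fin_cases i
      · show 0 ≤ u 0 + 1 / 4
        nlinarith [sq_nonneg (u 1), sq_nonneg (u 2)]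
      · show 0 ≤ u 1 + 1 / 4
        nlinarith [sq_nonneg (u 0), sq_nonneg (u 2)]
      · show 0 ≤ u 2 + 1 / 4
        nlinarith [sq_nonneg (u 0), sq_nonneg (u 1)]
    have hsum : y 0 + y 1 + y 2 ≤ 1 := by
      rw [hy, hy, hy]
      nlinarith [sq_nonneg (u 0 - u 1), sq_nonneg (u 0 - u 2), sq_nonneg (u 1 - u 2)]
    refine ⟨X 0 + S y, ?_, ?_⟩
    · have hmem := hK.sum_mem (t := Finset.univ)
        (w := (Fin.cons (1 - (y 0 + y 1 + y 2)) fun i => y i : Fin 4 → ℝ)) (z := X)
        (by
          intro j _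
          refine Fin.cases ?_ (fun i => ?_) j
          · simpa using hsum
          · simpa using hy0 i)
        (by
          rw [Fin.sum_univ_succ, Fin.sum_univ_three]
          simp only [Fin.cons_zero, Fin.cons_succ]
          ring)
        (fun j _ => hX j (mem_univ j))
      convert hmem using 1
      ext r
      rw [Fin.sum_univ_succ, Fin.sum_univ_three]
      simp only [Fin.cons_zero, Fin.cons_succ, PiLp.add_apply, PiLp.smul_apply, smul_eq_mul, hS,
        Fin.sum_univ_three, edgeM, Matrix.of_apply]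
      ring
    · simp only [map_add, ContinuousLinearEquiv.symm_apply_apply]
      simp only [y]
      abel
  · rintro _ ⟨x, hx, rfl⟩
    set y : Space := S.symm (x - X 0) with hydef
    have hSy : S y = x - X 0 := by simp [hydef]
    have hmv : (edgeM X).mulVec (fun c => y c) = fun r => x r - X 0 r := by
      funext r
      have := hS y r
      rw [hSy] at this
      simp only [Matrix.mulVec, dotProduct]
      rw [← this]
      rfl
    have hyb : ∀ i, |y i| ≤ 1 := by
      intro i
      have hmem : Function.update X i.succ x ∈ Set.pi univ fun _ : Fin 4 => K := by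
        intro j _
        by_cases hj : j = i.succ
        · subst hj
          simpa using hx
        · rw [Function.update_of_ne hj]
          exact hX j (mem_univ j)
      have h1 : |(edgeM (Function.update X i.succ x)).det| ≤ |(edgeM X).det| := hmax hmem
      rw [edgeM_update, ← hmv, cramer_coord, abs_mul] at h1
      by_contra hcon
      have hcon' : 1 < |y i| := not_le.mp hcon
      nlinarith
    have heq : S.symm x + (- S.symm (X 0) - cc) = y - cc := by
      rw [hydef, map_sub]
      abel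
    show S.symm x + (- S.symm (X 0) - cc) ∈ Metric.closedBall (0 : Space) 3
    rw [heq, mem_closedBall_zero_iff]
    have h2 := EuclideanSpace.real_norm_sq_eq (y - cc)
    rw [Fin.sum_univ_three] at h2
    have e0 : (y - cc) 0 = y 0 - 1 / 4 := rfl
    have e1 : (y - cc) 1 = y 1 - 1 / 4 := rfl
    have e2 : (y - cc) 2 = y 2 - 1 / 4 := rfl
    rw [e0, e1, e2] at h2
    have b0 := abs_le.mp (hyb 0)
    have b1 := abs_le.mp (hyb 1)
    have b2 := abs_le.mp (hyb 2)
    have h3 : ‖y - cc‖ ^ 2 ≤ 9 := by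
      rw [h2]
      nlinarith [b0.1, b0.2, b1.1, b1.2, b2.1, b2.2]
    nlinarith [norm_nonneg (y - cc)]

end Vale.Agent.Lib.P243.Soft
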