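import Mathlib
import Vale.Agent.Lib.P243.Soft.Defs
import Vale.Agent.Lib.P243.Soft.Image2
import Vale.Agent.Lib.P243.Soft.GainOfStar
import Vale.Agent.Lib.P243.Soft.Normalize
import Vale.Agent.Lib.P243.Soft.Local
import Vale.Agent.Lib.P243.Soft.Compactness

/-!
P243 soft, S39: one `ε` for all convex bodies.
`gain_uniform_Kcl`: `uniform_of_local` with `P = Gain` (`gain_mono`); for `K0 ∈ Kcl`, `K0 ∈ 𝓝 0`, `gain_each` gives `ε0`, `gain_local` gives `δ` and the gain `ε0/2`.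
`gain_uniform`: `normalize` gives `T, w` with `(fun x => T x + w) '' K ∈ Kcl`; `(fun x => T x + w) '' K = (fun y => y + w) '' (T '' K)`; `gain_translate`, `gain_image`.
-/

namespace Vale.Agent.Lib.P243.Soft

open MeasureTheory Set Metric

theorem gain_uniform_Kcl : ∃ ε : ℝ, 0 < ε ∧ ∀ K ∈ Kcl, Gain K ε := by
  refine uniform_of_local (fun K ε => Gain K ε) (fun K ε ε' h hG => gain_mono h hG) ?_
  intro K0 hK0
  have h0 : K0 ∈ nhds (0 : Space) :=
    Filter.mem_of_superset (closedBall_mem_nhds (0 : Space) (by norm_num)) hK0.2.2.1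
  obtain ⟨ε0, hε0, hG⟩ := gain_each hK0.2.1 hK0.1 h0
  obtain ⟨δ, hδ, hloc⟩ := gain_local hK0 hε0 hG
  exact ⟨ε0 / 2, by positivity, δ, hδ, hloc⟩

theorem gain_uniform : ∃ ε : ℝ, 0 < ε ∧ ∀ K : Set Space, Convex ℝ K → IsCompact K →
    (interior K).Nonempty → Gain K ε := by
  obtain ⟨ε, hε, h⟩ := gain_uniform_Kcl
  refine ⟨ε, hε, fun K hK hc hint => ?_⟩
  obtain ⟨T, w, hT⟩ := normalize hK hc hint
  have hG := h _ hT
  have himg : (fun x => T x + w) '' K = (fun y => y + w) '' (T '' K) := by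
    rw [← image_comp]
    rfl
  rw [himg, gain_translate, gain_image] at hG
  exact hG

end Vale.Agent.Lib.P243.Soft
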