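import Mathlib
import Vale.Agent.Lib.P243.Soft.Defs
import Vale.Agent.Lib.P243.Soft.Cover
import Vale.Agent.Lib.P243.Soft.Uniform

/-!
P243 soft, S40: the final statement, `r_3 ≥ 1/3 + ε`.  `gain_uniform` gives `ε0`; `cover_bound`; `ε = ε0/3`.
-/

namespace Vale.Agent.Lib.P243.Soft

open MeasureTheory Set Vale.Agent.Lib.P243

theorem soft_main : ∃ ε : ℝ, 0 < ε ∧ ∀ (K : Set Space), Convex ℝ K → IsCompact K →
    (interior K).Nonempty → ∀ (m : ℕ) (u : Fin m → Space), (∀ i, ‖u i‖ = 1) →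
    ∀ (B : ∀ i, Set (Plane (u i))), K ⊆ ⋃ i, cylinder (u i) (B i) →
    ENNReal.ofReal (1 / 3 + ε) ≤ ∑ i, area (u i) (B i) / area (u i) (shadow K (u i)) := by
  obtain ⟨ε0, hε0, h⟩ := gain_uniform
  refine ⟨ε0 / 3, by positivity, fun K hK hc hint m u hu B hcov => ?_⟩
  have := cover_bound hK hc hint (h K hK hc hint) m u hu B hcov
  have e : (1 + ε0) / 3 = 1 / 3 + ε0 / 3 := by ring
  rwa [e] at this

end Vale.Agent.Lib.P243.Soft
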